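import Mathlib

/-!
# The point stabiliser in the alternating group of degree six
-/

namespace Vale.Agent.Lib.P183.Exc

/-- The stabiliser of the point `0` in the alternating group on six points. -/
def stabZero : Subgroup (alternatingGroup (Fin 6)) where
  carrier := {t | (t : Equiv.Perm (Fin 6)) 0 = 0}
  one_mem' := rfl
  mul_mem' := by
    intro a b ha hb
    change (a : Equiv.Perm (Fin 6)) ((b : Equiv.Perm (Fin 6)) 0) = 0
    rw [show (b : Equiv.Perm (Fin 6)) 0 = 0 from hb]
    exact ha
  inv_mem' := by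
    intro a ha
    change (a : Equiv.Perm (Fin 6))⁻¹ 0 = 0
    rw [Equiv.Perm.inv_eq_iff_eq]
    exact (show (a : Equiv.Perm (Fin 6)) 0 = 0 from ha).symm

theorem mem_stabZero {t : alternatingGroup (Fin 6)} :
    t ∈ stabZero ↔ (t : Equiv.Perm (Fin 6)) 0 = 0 := Iff.rfl

end Vale.Agent.Lib.P183.Exc
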