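import Vale.Agent.Lib.P183.Exc.AltDefs

/-!
# The alternating group of degree six: simplicity, the point stabiliser is maximal
-/

namespace Vale.Agent.Lib.P183.Exc

/-- A product of two transpositions is even. -/
private theorem altA_even {a b c d : Fin 6} (hab : a ≠ b) (hcd : c ≠ d) :
    Equiv.swap a b * Equiv.swap c d ∈ alternatingGroup (Fin 6) := by
  rw [Equiv.Perm.mem_alternatingGroup, Equiv.Perm.sign_mul, Equiv.Perm.sign_swap hab,
    Equiv.Perm.sign_swap hcd]
  rfl

/-- Two further points avoiding three given ones. -/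
private theorem altA_two_more :
    ∀ a b : Fin 6, ∃ c d : Fin 6, c ≠ d ∧ c ≠ 0 ∧ c ≠ a ∧ c ≠ b ∧ d ≠ 0 ∧ d ≠ a ∧ d ≠ b := by
  decide

/-- An even permutation sending `a` to `b`, and fixing `0` when both are nonzero. -/
private theorem altA_move (a b : Fin 6) :
    ∃ g : alternatingGroup (Fin 6), (g : Equiv.Perm (Fin 6)) a = b ∧
      (a ≠ 0 → b ≠ 0 → (g : Equiv.Perm (Fin 6)) 0 = 0) := by
  by_cases hab : a = b
  · exact ⟨1, by simp [hab], fun _ _ => rfl⟩
  · obtain ⟨c, d, hcd, hc0, hca, hcb, hd0, hda, hdb⟩ := altA_two_more a b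
    refine ⟨⟨Equiv.swap a b * Equiv.swap c d, altA_even hab hcd⟩, ?_, ?_⟩
    · change (Equiv.swap a b * Equiv.swap c d) a = b
      rw [Equiv.Perm.mul_apply, Equiv.swap_apply_of_ne_of_ne (Ne.symm hca) (Ne.symm hda),
        Equiv.swap_apply_left]
    · intro ha0 hb0
      change (Equiv.swap a b * Equiv.swap c d) 0 = 0
      rw [Equiv.Perm.mul_apply, Equiv.swap_apply_of_ne_of_ne (Ne.symm hc0) (Ne.symm hd0),
        Equiv.swap_apply_of_ne_of_ne (Ne.symm ha0) (Ne.symm hb0)]

theorem altSix_simple :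
    ∀ N : Subgroup (alternatingGroup (Fin 6)), N.Normal → N = ⊥ ∨ N = ⊤ := by
  intro N hN
  have h : IsSimpleGroup (alternatingGroup (Fin 6)) :=
    alternatingGroup.isSimpleGroup (by simp)
  exact h.eq_bot_or_eq_top_of_normal N hN

theorem card_altSix : Nat.card (alternatingGroup (Fin 6)) = 360 := by
  rw [nat_card_alternatingGroup]
  simp [Nat.factorial]

private theorem altA_pretransitive :
    MulAction.IsPretransitive (alternatingGroup (Fin 6)) (Fin 6) := by
  refine ⟨fun a b => ?_⟩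
  obtain ⟨g, hg, _⟩ := altA_move a b
  exact ⟨g, hg⟩

private theorem altA_stabilizer :
    MulAction.stabilizer (alternatingGroup (Fin 6)) (0 : Fin 6) = stabZero := by
  ext t
  rw [MulAction.mem_stabilizer_iff, mem_stabZero]
  rfl

theorem card_stabZero : Nat.card stabZero = 60 := by
  have hpre := altA_pretransitive
  have h1 : (MulAction.stabilizer (alternatingGroup (Fin 6)) (0 : Fin 6)).index
      = Nat.card (Fin 6) := MulAction.index_stabilizer_of_transitive _ _
  rw [altA_stabilizer] at h1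
  have h2 := Subgroup.index_mul_card stabZero
  rw [h1, card_altSix] at h2
  simp only [Nat.card_eq_fintype_card, Fintype.card_fin] at h2
  omega

theorem stabZero_ne_top : stabZero ≠ ⊤ := by
  intro h
  obtain ⟨g, hg, _⟩ := altA_move 0 1
  have hmem : g ∈ stabZero := by rw [h]; exact Subgroup.mem_top g
  rw [mem_stabZero, hg] at hmem
  exact absurd hmem (by decide)

theorem stabZero_noncomm : ∃ a ∈ stabZero, ∃ b ∈ stabZero, a * b ≠ b * a := by
  have h12 : (1 : Fin 6) ≠ 2 := by decide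
  have h13 : (1 : Fin 6) ≠ 3 := by decide
  have h14 : (1 : Fin 6) ≠ 4 := by decide
  refine ⟨⟨Equiv.swap 1 2 * Equiv.swap 1 3, altA_even h12 h13⟩, ?_,
    ⟨Equiv.swap 1 2 * Equiv.swap 1 4, altA_even h12 h14⟩, ?_, ?_⟩
  · rw [mem_stabZero]
    change (Equiv.swap 1 2 * Equiv.swap 1 3 : Equiv.Perm (Fin 6)) 0 = 0
    decide
  · rw [mem_stabZero]
    change (Equiv.swap 1 2 * Equiv.swap 1 4 : Equiv.Perm (Fin 6)) 0 = 0
    decide
  · intro h
    have h' := congrArg (fun t : alternatingGroup (Fin 6) => (t : Equiv.Perm (Fin 6)) 2) h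
    change (Equiv.swap 1 2 * Equiv.swap 1 3 * (Equiv.swap 1 2 * Equiv.swap 1 4)
        : Equiv.Perm (Fin 6)) 2
      = (Equiv.swap 1 2 * Equiv.swap 1 4 * (Equiv.swap 1 2 * Equiv.swap 1 3)
        : Equiv.Perm (Fin 6)) 2 at h'
    revert h'
    decide

theorem stabZero_max :
    ∀ K : Subgroup (alternatingGroup (Fin 6)), stabZero ≤ K → K = stabZero ∨ K = ⊤ := by
  intro K hK
  by_cases hKs : K = stabZero
  · exact Or.inl hKs
  · right
    have hex : ∃ k ∈ K, k ∉ stabZero := by
      by_contra hcon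
      apply hKs
      apply le_antisymm _ hK
      intro k hk
      by_contra hk'
      exact hcon ⟨k, hk, hk'⟩
    obtain ⟨k, hkK, hk0⟩ := hex
    rw [mem_stabZero] at hk0
    rw [eq_top_iff]
    intro t _
    by_cases ht0 : (t : Equiv.Perm (Fin 6)) 0 = 0
    · exact hK (mem_stabZero.2 ht0)
    · obtain ⟨s, hs, hs0⟩ := altA_move ((k : Equiv.Perm (Fin 6)) 0) ((t : Equiv.Perm (Fin 6)) 0)
      have hsS : s ∈ stabZero := mem_stabZero.2 (hs0 hk0 ht0)
      have hsk : s * k ∈ K := K.mul_mem (hK hsS) hkK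
      have hu : (s * k)⁻¹ * t ∈ stabZero := by
        rw [mem_stabZero]
        change ((s * k : alternatingGroup (Fin 6)) : Equiv.Perm (Fin 6))⁻¹
          ((t : Equiv.Perm (Fin 6)) 0) = 0
        rw [Equiv.Perm.inv_eq_iff_eq]
        change (t : Equiv.Perm (Fin 6)) 0
          = (s : Equiv.Perm (Fin 6)) ((k : Equiv.Perm (Fin 6)) 0)
        exact hs.symm
      have ht : t = (s * k) * ((s * k)⁻¹ * t) := by group
      rw [ht]
      exact K.mul_mem hsk (hK hu)

end Vale.Agent.Lib.P183.Exc
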