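import Vale.Agent.Lib.P183.Exc.AltDefs

/-!
# The point stabiliser in the alternating group of degree six is simple
-/

namespace Vale.Agent.Lib.P183.Exc

open Equiv

/-- Extension of a permutation of five points to six points, fixing the point `0`. -/
def altB_ext (σ : Perm (Fin 5)) : Perm (Fin 6) := Perm.decomposeFin.symm (0, σ)

theorem altB_ext_zero (σ : Perm (Fin 5)) : altB_ext σ 0 = 0 :=
  Perm.decomposeFin_symm_apply_zero 0 σ

theorem altB_ext_succ (σ : Perm (Fin 5)) (x : Fin 5) : altB_ext σ x.succ = (σ x).succ := by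
  unfold altB_ext
  rw [Perm.decomposeFin_symm_apply_succ]
  simp

theorem altB_ext_one : altB_ext 1 = 1 := by
  ext x
  refine Fin.cases ?_ (fun y => ?_) x
  · rw [altB_ext_zero]
    rfl
  · rw [altB_ext_succ]
    rfl

theorem altB_ext_mul (σ τ : Perm (Fin 5)) : altB_ext (σ * τ) = altB_ext σ * altB_ext τ := by
  ext x
  refine Fin.cases ?_ (fun y => ?_) x
  · rw [Perm.mul_apply, altB_ext_zero, altB_ext_zero, altB_ext_zero]
  · rw [Perm.mul_apply, altB_ext_succ, altB_ext_succ, altB_ext_succ, Perm.mul_apply]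

theorem altB_ext_sign (σ : Perm (Fin 5)) : Perm.sign (altB_ext σ) = Perm.sign σ := by
  unfold altB_ext
  rw [Perm.decomposeFin.symm_sign]
  simp

theorem altB_ext_surj (t : Perm (Fin 6)) (ht : t 0 = 0) : ∃ σ, altB_ext σ = t := by
  refine ⟨(Perm.decomposeFin t).2, ?_⟩
  have h1 : Perm.decomposeFin.symm (Perm.decomposeFin t) = t := Equiv.symm_apply_apply _ _
  have h2 : (Perm.decomposeFin t).1 = 0 := by
    have h3 := Perm.decomposeFin_symm_apply_zero (Perm.decomposeFin t).1 (Perm.decomposeFin t).2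
    rw [Prod.mk.eta, h1, ht] at h3
    exact h3.symm
  unfold altB_ext
  rw [← h2, Prod.mk.eta, h1]

/-- The embedding of the alternating group on five points as a point stabiliser. -/
def altB_hom : alternatingGroup (Fin 5) →* alternatingGroup (Fin 6) where
  toFun a := ⟨altB_ext a.1, by
    rw [Perm.mem_alternatingGroup, altB_ext_sign]
    exact Perm.mem_alternatingGroup.mp a.2⟩
  map_one' := Subtype.ext altB_ext_one
  map_mul' a b := Subtype.ext (altB_ext_mul a.1 b.1)

theorem altB_hom_mem (a : alternatingGroup (Fin 5)) : altB_hom a ∈ stabZero :=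
  altB_ext_zero a.1

theorem altB_hom_surj (t : alternatingGroup (Fin 6)) (ht : t ∈ stabZero) :
    ∃ a, altB_hom a = t := by
  obtain ⟨σ, hσ⟩ := altB_ext_surj t.1 ht
  have hs : σ ∈ alternatingGroup (Fin 5) := by
    rw [Perm.mem_alternatingGroup, ← altB_ext_sign, hσ]
    exact Perm.mem_alternatingGroup.mp t.2
  exact ⟨⟨σ, hs⟩, Subtype.ext hσ⟩

theorem stabZero_simple :
    ∀ N : Subgroup (alternatingGroup (Fin 6)), N ≤ stabZero →
      (∀ s ∈ stabZero, ∀ n ∈ N, s * n * s⁻¹ ∈ N) → N = ⊥ ∨ N = stabZero := by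
  intro N hN hconj
  have hsimple : IsSimpleGroup (alternatingGroup (Fin 5)) :=
    alternatingGroup.isSimpleGroup (by simp)
  have hnormal : (N.comap altB_hom).Normal := by
    constructor
    intro a ha g
    rw [Subgroup.mem_comap] at ha ⊢
    rw [map_mul, map_mul, map_inv]
    exact hconj (altB_hom g) (altB_hom_mem g) (altB_hom a) ha
  rcases hnormal.eq_bot_or_eq_top with h | h
  · left
    rw [Subgroup.eq_bot_iff_forall]
    intro n hn
    obtain ⟨a, rfl⟩ := altB_hom_surj n (hN hn)
    have ha : a ∈ N.comap altB_hom := hn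
    rw [h, Subgroup.mem_bot] at ha
    rw [ha, map_one]
  · right
    apply le_antisymm hN
    intro s hs
    obtain ⟨a, rfl⟩ := altB_hom_surj s hs
    have ha : a ∈ N.comap altB_hom := by
      rw [h]
      exact Subgroup.mem_top a
    exact ha

end Vale.Agent.Lib.P183.Exc
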