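import Vale.Agent.Lib.P183.Exc.AltDefs

/-!
# An automorphism of the alternating group of degree six fixing a point stabiliser
elementwise is trivial
-/

namespace Vale.Agent.Lib.P183.Exc

/-- The three-cycle sending `a` to `b`, `b` to `d` and `d` to `a`. -/
def altC_cyc (a b d : Fin 6) : Equiv.Perm (Fin 6) := Equiv.swap a b * Equiv.swap b d

theorem altC_cyc_mem (a b d : Fin 6) (hab : a ≠ b) (hbd : b ≠ d) :
    altC_cyc a b d ∈ alternatingGroup (Fin 6) := by
  rw [Equiv.Perm.mem_alternatingGroup, altC_cyc, Equiv.Perm.sign_mul, Equiv.Perm.sign_swap hab,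
    Equiv.Perm.sign_swap hbd]
  rfl

/-- If `c` commutes with `s`, it maps fixed points of `s` to fixed points of `s`. -/
theorem altC_fix_of_comm (c s : Equiv.Perm (Fin 6)) (h : c * s = s * c) (x : Fin 6)
    (hx : s x = x) : s (c x) = c x := by
  have h1 := congrArg (fun f : Equiv.Perm (Fin 6) => f x) h
  simp only [Equiv.Perm.coe_mul, Function.comp_apply] at h1
  rw [hx] at h1
  exact h1.symm

theorem altC_fixA : ∀ y : Fin 6, altC_cyc 1 3 4 y = y → y = 0 ∨ y = 2 ∨ y = 5 := by decide

theorem altC_fixB : ∀ y : Fin 6, altC_cyc 1 3 5 y = y → y = 0 ∨ y = 2 ∨ y = 4 := by decide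

theorem altC_fixC : ∀ y : Fin 6, altC_cyc 1 4 5 y = y → y = 0 ∨ y = 2 ∨ y = 3 := by decide

theorem altC_fixD : ∀ y : Fin 6, altC_cyc 3 4 5 y = y → y = 0 ∨ y = 2 ∨ y = 1 := by decide

/-- A point whose image lies in `{a, b, x}` is fixed, when `c` permutes `{a, b}`. -/
theorem altC_aux (c : Equiv.Perm (Fin 6)) (a b x : Fin 6) (hxa : x ≠ a) (hxb : x ≠ b)
    (h : c x = a ∨ c x = b ∨ c x = x)
    (h' : (c a = a ∧ c b = b) ∨ (c a = b ∧ c b = a)) : c x = x := by
  rcases h with h | h | h
  · exfalso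
    rcases h' with ⟨ha, _⟩ | ⟨_, hb⟩
    · exact hxa (c.injective (h.trans ha.symm))
    · exact hxb (c.injective (h.trans hb.symm))
  · exfalso
    rcases h' with ⟨_, hb⟩ | ⟨ha, _⟩
    · exact hxb (c.injective (h.trans hb.symm))
    · exact hxa (c.injective (h.trans ha.symm))
  · exact h

/-- A permutation of six points commuting with the four three-cycles on `{1, 3, 4, 5}` is the
identity or the transposition of `0` and `2`; if it is even, it is the identity. -/
theorem altC_central (c : Equiv.Perm (Fin 6)) (hc : c ∈ alternatingGroup (Fin 6))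
    (hA : c * altC_cyc 1 3 4 = altC_cyc 1 3 4 * c)
    (hB : c * altC_cyc 1 3 5 = altC_cyc 1 3 5 * c)
    (hC : c * altC_cyc 1 4 5 = altC_cyc 1 4 5 * c)
    (hD : c * altC_cyc 3 4 5 = altC_cyc 3 4 5 * c) : c = 1 := by
  have a0 := altC_fixA (c 0) (altC_fix_of_comm c _ hA 0 (by decide))
  have b0 := altC_fixB (c 0) (altC_fix_of_comm c _ hB 0 (by decide))
  have a2 := altC_fixA (c 2) (altC_fix_of_comm c _ hA 2 (by decide))
  have b2 := altC_fixB (c 2) (altC_fix_of_comm c _ hB 2 (by decide))
  have a5 := altC_fixA (c 5) (altC_fix_of_comm c _ hA 5 (by decide))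
  have b4 := altC_fixB (c 4) (altC_fix_of_comm c _ hB 4 (by decide))
  have c3 := altC_fixC (c 3) (altC_fix_of_comm c _ hC 3 (by decide))
  have d1 := altC_fixD (c 1) (altC_fix_of_comm c _ hD 1 (by decide))
  have h0 : c 0 = 0 ∨ c 0 = 2 := by
    rcases a0 with h | h | h
    · exact Or.inl h
    · exact Or.inr h
    · rcases b0 with h' | h' | h'
      · exact Or.inl h'
      · exact Or.inr h'
      · exfalso
        rw [h] at h'
        exact absurd h' (by decide)
  have h2 : c 2 = 0 ∨ c 2 = 2 := by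
    rcases a2 with h | h | h
    · exact Or.inl h
    · exact Or.inr h
    · rcases b2 with h' | h' | h'
      · exact Or.inl h'
      · exact Or.inr h'
      · exfalso
        rw [h] at h'
        exact absurd h' (by decide)
  have hne : c 0 ≠ c 2 := fun h => absurd (c.injective h) (by decide)
  have h02 : (c 0 = 0 ∧ c 2 = 2) ∨ (c 0 = 2 ∧ c 2 = 0) := by
    rcases h0 with h | h
    · rcases h2 with h' | h'
      · exact absurd (h.trans h'.symm) hne
      · exact Or.inl ⟨h, h'⟩
    · rcases h2 with h' | h'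
      · exact Or.inr ⟨h, h'⟩
      · exact absurd (h.trans h'.symm) hne
  have e5 : c 5 = 5 := altC_aux c 0 2 5 (by decide) (by decide) a5 h02
  have e4 : c 4 = 4 := altC_aux c 0 2 4 (by decide) (by decide) b4 h02
  have e3 : c 3 = 3 := altC_aux c 0 2 3 (by decide) (by decide) c3 h02
  have e1 : c 1 = 1 := altC_aux c 0 2 1 (by decide) (by decide) d1 h02
  rcases h02 with ⟨e0, e2⟩ | ⟨e0, e2⟩
  · apply Equiv.ext
    intro i
    fin_cases i
    · exact e0
    · exact e1
    · exact e2
    · exact e3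
    · exact e4
    · exact e5
  · exfalso
    have hsw : c = Equiv.swap 0 2 := by
      apply Equiv.ext
      intro i
      fin_cases i
      · exact e0
      · exact e1
      · exact e2
      · exact e3
      · exact e4
      · exact e5
    rw [Equiv.Perm.mem_alternatingGroup, hsw, Equiv.Perm.sign_swap (by decide)] at hc
    exact absurd hc (by decide)

/-- The point stabiliser is transitive on the other five points. -/
theorem altC_trans : ∀ j : Fin 6, j ≠ 0 →
    ∃ s : alternatingGroup (Fin 6), s ∈ stabZero ∧ (s : Equiv.Perm (Fin 6)) 1 = j := by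
  intro j hj
  fin_cases j
  · exact absurd rfl hj
  · exact ⟨1, Subgroup.one_mem _, rfl⟩
  · exact ⟨⟨altC_cyc 1 2 3, altC_cyc_mem 1 2 3 (by decide) (by decide)⟩,
      mem_stabZero.mpr (by decide), by decide⟩
  · exact ⟨⟨altC_cyc 1 3 2, altC_cyc_mem 1 3 2 (by decide) (by decide)⟩,
      mem_stabZero.mpr (by decide), by decide⟩
  · exact ⟨⟨altC_cyc 1 4 2, altC_cyc_mem 1 4 2 (by decide) (by decide)⟩,
      mem_stabZero.mpr (by decide), by decide⟩
  · exact ⟨⟨altC_cyc 1 5 2, altC_cyc_mem 1 5 2 (by decide) (by decide)⟩,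
      mem_stabZero.mpr (by decide), by decide⟩

theorem altSix_rigid :
    ∀ β : alternatingGroup (Fin 6) ≃* alternatingGroup (Fin 6),
      (∀ s ∈ stabZero, β s = s) → ∀ t, β t = t := by
  intro β hβ
  obtain ⟨k, hk⟩ : ∃ k : alternatingGroup (Fin 6),
      k = ⟨altC_cyc 0 1 2, altC_cyc_mem 0 1 2 (by decide) (by decide)⟩ := ⟨_, rfl⟩
  have hk0 : (k : Equiv.Perm (Fin 6)) 0 = 1 := by
    rw [hk]
    decide
  have hk2 : (k : Equiv.Perm (Fin 6)) 2 = 0 := by
    rw [hk]
    decide
  have hkinv : ((k⁻¹ : alternatingGroup (Fin 6)) : Equiv.Perm (Fin 6)) 0 = 2 := by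
    rw [Subgroup.coe_inv, Equiv.Perm.inv_eq_iff_eq]
    exact hk2.symm
  -- `k⁻¹ * β k` commutes with every element fixing `0` and `2`
  have hcomm : ∀ s : alternatingGroup (Fin 6), (s : Equiv.Perm (Fin 6)) 0 = 0 →
      (s : Equiv.Perm (Fin 6)) 2 = 2 → (k⁻¹ * β k) * s = s * (k⁻¹ * β k) := by
    intro s hs0 hs2
    have hsS : s ∈ stabZero := hs0
    have hksk : k * s * k⁻¹ ∈ stabZero := by
      rw [mem_stabZero]
      simp only [Subgroup.coe_mul, Equiv.Perm.coe_mul, Function.comp_apply]
      rw [hkinv, hs2, hk2]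
    have h1 := hβ _ hksk
    rw [map_mul, map_mul, map_inv, hβ s hsS] at h1
    have h2 : β k * s = k * s * k⁻¹ * β k := by
      rw [← h1]
      group
    calc k⁻¹ * β k * s = k⁻¹ * (β k * s) := by group
      _ = k⁻¹ * (k * s * k⁻¹ * β k) := by rw [h2]
      _ = s * (k⁻¹ * β k) := by group
  have hc1 : ((k⁻¹ * β k : alternatingGroup (Fin 6)) : Equiv.Perm (Fin 6)) = 1 := by
    apply altC_central _ (k⁻¹ * β k).2
    · exact congrArg Subtype.val
        (hcomm ⟨altC_cyc 1 3 4, altC_cyc_mem 1 3 4 (by decide) (by decide)⟩ (by decide)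
          (by decide))
    · exact congrArg Subtype.val
        (hcomm ⟨altC_cyc 1 3 5, altC_cyc_mem 1 3 5 (by decide) (by decide)⟩ (by decide)
          (by decide))
    · exact congrArg Subtype.val
        (hcomm ⟨altC_cyc 1 4 5, altC_cyc_mem 1 4 5 (by decide) (by decide)⟩ (by decide)
          (by decide))
    · exact congrArg Subtype.val
        (hcomm ⟨altC_cyc 3 4 5, altC_cyc_mem 3 4 5 (by decide) (by decide)⟩ (by decide)
          (by decide))
  have hβk : β k = k := by
    have h3 : k⁻¹ * β k = 1 := Subtype.ext hc1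
    calc β k = k * (k⁻¹ * β k) := by group
      _ = k := by rw [h3, mul_one]
  intro t
  by_cases ht : (t : Equiv.Perm (Fin 6)) 0 = 0
  · exact hβ t ht
  · obtain ⟨s, hs, hs1⟩ := altC_trans _ ht
    have hs' : (s * k)⁻¹ * t ∈ stabZero := by
      rw [mem_stabZero]
      have h4 : ((s * k : alternatingGroup (Fin 6)) : Equiv.Perm (Fin 6)) 0
          = (t : Equiv.Perm (Fin 6)) 0 := by
        simp only [Subgroup.coe_mul, Equiv.Perm.coe_mul, Function.comp_apply]
        rw [hk0, hs1]
      simp only [Subgroup.coe_mul, Subgroup.coe_inv, Equiv.Perm.coe_mul, Function.comp_apply]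
      rw [Equiv.Perm.inv_eq_iff_eq]
      exact h4.symm
    have h5 : t = s * k * ((s * k)⁻¹ * t) := by group
    calc β t = β (s * k * ((s * k)⁻¹ * t)) := by rw [← h5]
      _ = β s * β k * β ((s * k)⁻¹ * t) := by rw [map_mul, map_mul]
      _ = s * k * ((s * k)⁻¹ * t) := by rw [hβ s hs, hβk, hβ _ hs']
      _ = t := h5.symm

end Vale.Agent.Lib.P183.Exc
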