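import Vale.Agent.Lib.P183.Exc.Defs

/-!
# Translations, values at the identity and admissibility of the basic subgroups
-/

namespace Vale.Agent.Lib.P183.Exc

open Classical

variable {P T : Type} [Group P] [Group T]

section B1
variable {Q : Subgroup P} {ι : Q →* T} {Y : Subgroup (P → T)}

theorem shift_apply (x : P) (f : P → T) (p : P) : shift x f p = f (x⁻¹ * p) := rfl
theorem shift_one (f : P → T) : shift (1 : P) f = f := by
  funext p
  simp [shift]
theorem shift_shift (x y : P) (f : P → T) : shift x (shift y f) = shift (x * y) f := by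
  funext p
  simp [shift, mul_assoc]
theorem shift_mul (x : P) (f g : P → T) : shift x (f * g) = shift x f * shift x g := by
  funext p
  rfl
theorem shift_inv (x : P) (f : P → T) : shift x f⁻¹ = (shift x f)⁻¹ := by
  funext p
  rfl
theorem shift_mem_base (x : P) {f : P → T} (hf : f ∈ base Q ι) : shift x f ∈ base Q ι := by
  intro p q
  change f (x⁻¹ * (p * q)) = (ι q)⁻¹ * f (x⁻¹ * p) * ι q
  rw [← mul_assoc]
  exact hf (x⁻¹ * p) q
theorem mem_valsOf {t : T} : t ∈ valsOf Y ↔ ∃ f ∈ Y, f 1 = t := by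
  unfold valsOf
  rw [Subgroup.mem_map]
  rfl
theorem apply_mem_valsOf (hY : IsAdm Q ι Y) {f : P → T} (hf : f ∈ Y) (p : P) :
    f p ∈ valsOf Y := by
  rw [mem_valsOf]
  refine ⟨shift p⁻¹ f, hY.2 p⁻¹ f hf, ?_⟩
  simp [shift]
theorem valsOf_conj (hY : IsAdm Q ι Y) (q : Q) {t : T} (ht : t ∈ valsOf Y) :
    ι q * t * (ι q)⁻¹ ∈ valsOf Y := by
  rw [mem_valsOf] at ht ⊢
  obtain ⟨f, hf, rfl⟩ := ht
  refine ⟨shift (q : P) f, hY.2 q f hf, ?_⟩
  have hb := hY.1 hf 1 q⁻¹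
  rw [one_mul, Subgroup.coe_inv] at hb
  rw [shift_apply, mul_one, hb, map_inv, inv_inv]
theorem isAdm_bot : IsAdm Q ι (⊥ : Subgroup (P → T)) := by
  refine ⟨bot_le, fun x f hf => ?_⟩
  rw [Subgroup.mem_bot] at hf ⊢
  rw [hf]
  rfl
theorem isAdm_base : IsAdm Q ι (base Q ι) :=
  ⟨le_refl _, fun x _ hf => shift_mem_base x hf⟩
theorem isAdm_vals (X : Subgroup T) : IsAdm Q ι (vals Q ι X) :=
  ⟨fun _ hf => hf.1, fun x _ hf => ⟨shift_mem_base x hf.1, fun p => hf.2 (x⁻¹ * p)⟩⟩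
theorem isAdm_diag (R : Subgroup P) (ψ : R →* T) (X : Subgroup T) :
    IsAdm Q ι (diag Q ι R ψ X) := by
  refine ⟨fun _ hf => hf.1, fun x f hf =>
    ⟨shift_mem_base x hf.1, fun p => hf.2.1 (x⁻¹ * p), fun p r => ?_⟩⟩
  change f (x⁻¹ * (p * r)) = (ψ r)⁻¹ * f (x⁻¹ * p) * ψ r
  rw [← mul_assoc]
  exact hf.2.2 (x⁻¹ * p) r
theorem shift_eq_one_iff (x : P) (f : P → T) : shift x f = 1 ↔ f = 1 := by
  constructor
  · intro h
    funext p
    have h1 := congrFun h (x * p)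
    simpa [shift] using h1
  · intro h
    rw [h]
    rfl
end B1

end Vale.Agent.Lib.P183.Exc
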