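import Vale.Agent.Lib.P183.Exc.Defs

/-!
# The block of an admissible subgroup
-/

namespace Vale.Agent.Lib.P183.Exc

open Classical

variable {P T : Type} [Group P] [Group T]

section D1
variable {Q : Subgroup P} {ι : Q →* T} {Y : Subgroup (P → T)}

omit [Group T] in
/-- the translate of `f` by `x⁻¹` evaluates as `f (x * p)` -/
theorem block_shift_apply (x : P) (f : P → T) (p : P) : shift x⁻¹ f p = f (x * p) := by
  unfold shift
  rw [inv_inv]

theorem one_mem_blockSet : (1 : P) ∈ blockSet Y := by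
  intro f _ h
  exact h

theorem mul_mem_blockSet (hY : IsAdm Q ι Y) {r s : P} (hr : r ∈ blockSet Y)
    (hs : s ∈ blockSet Y) : r * s ∈ blockSet Y := by
  intro f hf h1
  have hg : shift r⁻¹ f ∈ Y := hY.2 r⁻¹ f hf
  have hg1 : shift r⁻¹ f 1 = 1 := by
    rw [block_shift_apply, mul_one]
    exact hr f hf h1
  have h2 := hs (shift r⁻¹ f) hg hg1
  rw [block_shift_apply] at h2
  exact h2

/-- powers of an element of the block set lie in the block set -/
theorem block_pow_mem (hY : IsAdm Q ι Y) {r : P} (hr : r ∈ blockSet Y) (k : ℕ) :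
    r ^ k ∈ blockSet Y := by
  induction k with
  | zero =>
    rw [pow_zero]
    exact one_mem_blockSet
  | succ k ih =>
    rw [pow_succ]
    exact mul_mem_blockSet hY ih hr

theorem inv_mem_blockSet [Finite P] (hY : IsAdm Q ι Y) {r : P} (hr : r ∈ blockSet Y) :
    r⁻¹ ∈ blockSet Y := by
  have hpos : 0 < orderOf r := orderOf_pos r
  have h1 : r * r ^ (orderOf r - 1) = 1 := by
    rw [← pow_succ', Nat.sub_add_cancel hpos, pow_orderOf_eq_one]
  have h2 : r⁻¹ = r ^ (orderOf r - 1) := inv_eq_of_mul_eq_one_right h1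
  rw [h2]
  exact block_pow_mem hY hr _

theorem subgroup_subset_blockSet (hY : IsAdm Q ι Y) {q : P} (hq : q ∈ Q) :
    q ∈ blockSet Y := by
  intro f hf h1
  have hb : f ∈ base Q ι := hY.1 hf
  have h2 : f (1 * ((⟨q, hq⟩ : Q) : P)) = (ι ⟨q, hq⟩)⁻¹ * f 1 * ι ⟨q, hq⟩ := hb 1 ⟨q, hq⟩
  rw [one_mul] at h2
  rw [h2, h1, mul_one, inv_mul_cancel]

theorem blockSet_welldef {r : P} (hr : r ∈ blockSet Y) {f g : P → T} (hf : f ∈ Y)
    (hg : g ∈ Y) (h : f 1 = g 1) : f r = g r := by
  have hm : f * g⁻¹ ∈ Y := Y.mul_mem hf (Y.inv_mem hg)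
  have h1 : (f * g⁻¹) 1 = 1 := by
    rw [Pi.mul_apply, Pi.inv_apply, h, mul_inv_cancel]
  have h2 := hr (f * g⁻¹) hm h1
  rw [Pi.mul_apply, Pi.inv_apply] at h2
  exact mul_inv_eq_one.mp h2

theorem blockSet_inj [Finite P] (hY : IsAdm Q ι Y) {r : P} (hr : r ∈ blockSet Y)
    {f : P → T} (hf : f ∈ Y) (h : f r = 1) : f 1 = 1 := by
  have hg : shift r⁻¹ f ∈ Y := hY.2 r⁻¹ f hf
  have hg1 : shift r⁻¹ f 1 = 1 := by
    rw [block_shift_apply, mul_one]
    exact h
  have h2 := inv_mem_blockSet hY hr (shift r⁻¹ f) hg hg1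
  rw [block_shift_apply, mul_inv_cancel] at h2
  exact h2

/-- the block of `Y` as a subgroup -/
noncomputable def blockOf [Finite P] (Y : Subgroup (P → T)) (hY : IsAdm Q ι Y) : Subgroup P where
  carrier := blockSet Y
  one_mem' := one_mem_blockSet
  mul_mem' := fun hr hs => mul_mem_blockSet hY hr hs
  inv_mem' := fun hr => inv_mem_blockSet hY hr
end D1

end Vale.Agent.Lib.P183.Exc
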