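import Vale.Agent.Lib.P183.Exc.CChkA

/-!
# Kernel checks: the two families and their stabilisers
-/

namespace Vale.Agent.Lib.P183.Exc

theorem chkBhInj : injB bhm = true := by decide +kernel

theorem chkBwInj : injB bwm = true := by decide +kernel

theorem chkQlStab : allRange 0 60 qlStabOK = true := by decide +kernel

theorem chkQaInj : allRange 0 60 (fun k => allRange 0 60 (fun l => qaInjOK k l)) = true := by decide +kernel

theorem chkDcStab : allRange 1 151 dcStabOK = true := by decide +kernel

theorem chkDcStabw : allRange 0 152 dcStabwOK = true := by decide +kernel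

theorem chkDcwStabw : stabW [dcc wIdx] bwm = true := by decide +kernel

theorem chkDcwNotStabh : stabW [dcc wIdx] bhm = false := by decide +kernel

theorem chkDcwAct0 : mapsTo [dcc wIdx] (bwm 0) (bwm wAct0) = true := by decide +kernel

theorem chkBStab : stabW [dcc bIdx] bhm = true := by decide +kernel

theorem chkBAct0 : mapsTo [dcc bIdx] (bhm 0) (bhm bAct0) = true := by decide +kernel

theorem chkDcSign : allRange 0 152 dcSignOK = true := by decide +kernel

theorem chkDcwSign : dcwSignOK = true := by decide +kernel

end Vale.Agent.Lib.P183.Exc
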