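import Vale.Agent.Lib.P183.Exc.CChkB

/-!
# Kernel checks: normaliser witnesses, the subgroup V, overgroup certificates
-/

namespace Vale.Agent.Lib.P183.Exc

theorem chkNormQ : allRange 1 151 normQOK = true := by decide +kernel

theorem chkNormW : allRange 1 151 normWOK = true := by decide +kernel

theorem chkVmul : allRange 0 16 (fun m => allRange 0 16 (fun n => vmulOK m n)) = true := by decide +kernel

theorem chkVinj : allRange 0 16 (fun m => allRange 0 16 (fun n => vinjOK m n)) = true := by decide +kernel

theorem chkVconj : allRange 1 15 vconjOK = true := by decide +kernel

theorem chkVconjp : allRange 0 60 vconjpOK = true := by decide +kernel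

theorem chkV1 : eqw [vlc 1] [dcc v1J, qlc v1K] = true := by decide +kernel

theorem chkVfix : allRange 0 16 vfixOK = true := by decide +kernel

theorem chkVmove : allRange 0 22 vmoveOK = true := by decide +kernel

theorem chkVNotStabw : stabW [vlc 1] bwm = false := by decide +kernel

theorem chkSmall : allRange 1 151 smallOK = true := by decide +kernel

end Vale.Agent.Lib.P183.Exc
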