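import Vale.Agent.Lib.P183.Exc.CChkCov0

/-!
# Kernel check: the cover table, part 1
-/

namespace Vale.Agent.Lib.P183.Exc

theorem chkCover1 :
    allRange 38 38 (fun j => allRange 0 60 (fun l => coverOK j l)) = true := by decide +kernel

end Vale.Agent.Lib.P183.Exc
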