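import Vale.Agent.Lib.P183.Exc.CChkA
import Vale.Agent.Lib.P183.Exc.CChkB
import Vale.Agent.Lib.P183.Exc.CChkC
import Vale.Agent.Lib.P183.Exc.CChkCov0
import Vale.Agent.Lib.P183.Exc.CChkCov1
import Vale.Agent.Lib.P183.Exc.CChkCov2
import Vale.Agent.Lib.P183.Exc.CChkCov3
import Vale.Agent.Lib.P183.Exc.CChkSig0
import Vale.Agent.Lib.P183.Exc.CChkSig1
import Vale.Agent.Lib.P183.Exc.CChkSig2
import Vale.Agent.Lib.P183.Exc.CChkSig3
import Vale.Agent.Lib.P183.Exc.CChkSig4
import Vale.Agent.Lib.P183.Exc.CChkSig5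
import Vale.Agent.Lib.P183.Exc.CChkSig6
import Vale.Agent.Lib.P183.Exc.CChkSig7

/-!
# Basic consequences of the kernel checks

The chunked checks are put together, and the codes in the tables are shown to be codes of
permutations, with their inverses.
-/

namespace Vale.Agent.Lib.P183.Exc

open Equiv

theorem blt_true {a b : ℕ} (h : Nat.blt a b = true) : a < b := by
  simpa using h

theorem beq_true {a b : ℕ} (h : Nat.beq a b = true) : a = b := Nat.eq_of_beq_eq_true h

/-- The cover check at every pair of indices. -/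
theorem chkCover (j l : ℕ) (hj : j < 152) (hl : l < 60) : coverOK j l = true := by
  rcases Nat.lt_or_ge j 38 with h1 | h1
  · exact allRange_spec _ _ _ (allRange_spec _ _ _ chkCover0 j (by omega) (by omega)) l
      (by omega) (by omega)
  rcases Nat.lt_or_ge j 76 with h2 | h2
  · exact allRange_spec _ _ _ (allRange_spec _ _ _ chkCover1 j (by omega) (by omega)) l
      (by omega) (by omega)
  rcases Nat.lt_or_ge j 114 with h3 | h3
  · exact allRange_spec _ _ _ (allRange_spec _ _ _ chkCover2 j (by omega) (by omega)) l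
      (by omega) (by omega)
  · exact allRange_spec _ _ _ (allRange_spec _ _ _ chkCover3 j (by omega) (by omega)) l
      (by omega) (by omega)

/-- The invariant subgroup check at every pair of indices. -/
theorem chkSig (j k : ℕ) (h0 : 1 ≤ j) (hj : j < 152) (hk : k < 60) : sigOK j k = true := by
  rcases Nat.lt_or_ge j 20 with h1 | h1
  · exact allRange_spec _ _ _ (allRange_spec _ _ _ chkSig0 j (by omega) (by omega)) k
      (by omega) (by omega)
  rcases Nat.lt_or_ge j 39 with h2 | h2
  · exact allRange_spec _ _ _ (allRange_spec _ _ _ chkSig1 j (by omega) (by omega)) k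
      (by omega) (by omega)
  rcases Nat.lt_or_ge j 58 with h3 | h3
  · exact allRange_spec _ _ _ (allRange_spec _ _ _ chkSig2 j (by omega) (by omega)) k
      (by omega) (by omega)
  rcases Nat.lt_or_ge j 77 with h4 | h4
  · exact allRange_spec _ _ _ (allRange_spec _ _ _ chkSig3 j (by omega) (by omega)) k
      (by omega) (by omega)
  rcases Nat.lt_or_ge j 96 with h5 | h5
  · exact allRange_spec _ _ _ (allRange_spec _ _ _ chkSig4 j (by omega) (by omega)) k
      (by omega) (by omega)
  rcases Nat.lt_or_ge j 115 with h6 | h6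
  · exact allRange_spec _ _ _ (allRange_spec _ _ _ chkSig5 j (by omega) (by omega)) k
      (by omega) (by omega)
  rcases Nat.lt_or_ge j 134 with h7 | h7
  · exact allRange_spec _ _ _ (allRange_spec _ _ _ chkSig6 j (by omega) (by omega)) k
      (by omega) (by omega)
  · exact allRange_spec _ _ _ (allRange_spec _ _ _ chkSig7 j (by omega) (by omega)) k
      (by omega) (by omega)

theorem qinvOK_spec {k : ℕ} (hk : k < 60) :
    qinv k < 60 ∧ eqw [qlc (qinv k), qlc k] [] = true := by
  have h := allRange_spec _ _ _ chkQinv k (Nat.zero_le _) (by omega)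
  unfold qinvOK at h
  rw [Bool.and_eq_true] at h
  exact ⟨blt_true h.1, h.2⟩

theorem qinv_lt {k : ℕ} (hk : k < 60) : qinv k < 60 := (qinvOK_spec hk).1

theorem qlc_valid {k : ℕ} (hk : k < 60) : Valid (qlc k) :=
  valid_of_leftInv (qinvOK_spec hk).2

theorem qlc_inv {k : ℕ} (hk : k < 60) : (toPerm (qlc k))⁻¹ = toPerm (qlc (qinv k)) :=
  toPerm_inv_of_eqw (qinvOK_spec hk).2

theorem dciOK_spec {j : ℕ} (hj : j < 152) : eqw [dci j, dcc j] [] = true :=
  allRange_spec _ _ _ chkDci j (Nat.zero_le _) (by omega)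

theorem dcc_valid {j : ℕ} (hj : j < 152) : Valid (dcc j) := valid_of_leftInv (dciOK_spec hj)

theorem dci_valid {j : ℕ} (hj : j < 152) : Valid (dci j) := valid_of_rightInv (dciOK_spec hj)

theorem dcc_inv {j : ℕ} (hj : j < 152) : (toPerm (dcc j))⁻¹ = toPerm (dci j) :=
  toPerm_inv_of_eqw (dciOK_spec hj)

theorem vlOK_spec {m : ℕ} (hm : m < 16) : eqw [vlc m, vlc m] [] = true :=
  allRange_spec _ _ _ chkVl m (Nat.zero_le _) (by omega)

theorem vlc_valid {m : ℕ} (hm : m < 16) : Valid (vlc m) := valid_of_leftInv (vlOK_spec hm)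

theorem vlc_inv {m : ℕ} (hm : m < 16) : (toPerm (vlc m))⁻¹ = toPerm (vlc m) :=
  toPerm_inv_of_eqw (vlOK_spec hm)

theorem gc_valid : Valid gc := valid_of_leftInv chkG

theorem gc_inv : (toPerm gc)⁻¹ = toPerm gc := toPerm_inv_of_eqw chkG

theorem qlP_inv (k : Fin 60) : (qlP k)⁻¹ = qlP ⟨qinv k, qinv_lt k.2⟩ := qlc_inv k.2

theorem dcP_inv (j : Fin 152) : (dcP j)⁻¹ = toPerm (dci j) := dcc_inv j.2

theorem vlP_inv (m : Fin 16) : (vlP m)⁻¹ = vlP m := vlc_inv m.2

theorem gP_inv : gP⁻¹ = gP := gc_inv

theorem BhP_eq : BhP = fun i : Fin 6 => maskSet (bhm i) := rfl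

theorem BwP_eq : BwP = fun i : Fin 6 => maskSet (bwm i) := rfl

/-- Membership in the stabiliser of the first family, for a word of valid codes. -/
theorem mem_stabh_iff {u : List ℕ} (hu : ∀ c ∈ u, Valid c) :
    wprod u ∈ famStab BhP ↔ stabW u bhm = true := mem_famStab_iff_stabW hu bhm

/-- Membership in the stabiliser of the second family, for a word of valid codes. -/
theorem mem_stabw_iff {u : List ℕ} (hu : ∀ c ∈ u, Valid c) :
    wprod u ∈ famStab BwP ↔ stabW u bwm = true := mem_famStab_iff_stabW hu bwm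

/-- The image of a member of the first family under a word of valid codes. -/
theorem image_bh_iff {u : List ℕ} (hu : ∀ c ∈ u, Valid c) (i j : Fin 6) :
    (BhP i).image (wprod u) = BhP j ↔ mapsTo u (bhm i) (bhm j) = true :=
  image_eq_iff_mapsTo hu _ _

/-- The image of a member of the second family under a word of valid codes. -/
theorem image_bw_iff {u : List ℕ} (hu : ∀ c ∈ u, Valid c) (i j : Fin 6) :
    (BwP i).image (wprod u) = BwP j ↔ mapsTo u (bwm i) (bwm j) = true :=
  image_eq_iff_mapsTo hu _ _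

theorem wprod_one (a : ℕ) : wprod [a] = toPerm a := by
  rw [wprod_cons, wprod_nil, mul_one]

theorem wprod_two (a b : ℕ) : wprod [a, b] = toPerm a * toPerm b := by
  rw [wprod_cons, wprod_one]

theorem wprod_three (a b c : ℕ) : wprod [a, b, c] = toPerm a * toPerm b * toPerm c := by
  rw [wprod_cons, wprod_two, mul_assoc]

theorem wprod_four (a b c d : ℕ) :
    wprod [a, b, c, d] = toPerm a * toPerm b * toPerm c * toPerm d := by
  rw [wprod_cons, wprod_three]
  simp only [mul_assoc]

end Vale.Agent.Lib.P183.Exc
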