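import Vale.Agent.Lib.P183.Exc.CData

/-!
# Kernel checks: inverses, the multiplication table of Q, parents, squares
-/

namespace Vale.Agent.Lib.P183.Exc

theorem chkQinv : allRange 0 60 qinvOK = true := by decide +kernel

theorem chkDci : allRange 0 152 dciOK = true := by decide +kernel

theorem chkVl : allRange 0 16 vlOK = true := by decide +kernel

theorem chkG : eqw [gc, gc] [] = true := by decide +kernel

theorem chkQl0 : eqw [qlc 0] [] = true := by decide +kernel

theorem chkDc0 : eqw [dcc 0] [] = true := by decide +kernel

theorem chkVl0 : eqw [vlc 0] [] = true := by decide +kernel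

theorem chkQmul : allRange 0 60 (fun a => allRange 0 60 (fun b => qmulOK a b)) = true := by decide +kernel

theorem chkPar : allRange 1 151 parOK = true := by decide +kernel

theorem chkSq : allRange 0 60 sqOK = true := by decide +kernel

end Vale.Agent.Lib.P183.Exc
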