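import Vale.Agent.Lib.P183.Exc.CBase

/-!
# Certificate fields: the group `Q`, the cover identities, the representatives
-/

namespace Vale.Agent.Lib.P183.Exc

open Equiv

theorem cfa_valid0 : ∀ c ∈ ([] : List ℕ), Valid c := by
  intro c hc
  exact absurd hc List.not_mem_nil

theorem cfa_valid1 {a : ℕ} (ha : Valid a) : ∀ c ∈ [a], Valid c := by
  intro c hc
  rw [List.mem_singleton] at hc
  rw [hc]
  exact ha

theorem cfa_valid2 {a b : ℕ} (ha : Valid a) (hb : Valid b) : ∀ c ∈ [a, b], Valid c := by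
  intro c hc
  rw [List.mem_cons] at hc
  rcases hc with h | h
  · rw [h]
    exact ha
  · exact cfa_valid1 hb c h

theorem cfa_valid3 {a b d : ℕ} (ha : Valid a) (hb : Valid b) (hd : Valid d) :
    ∀ c ∈ [a, b, d], Valid c := by
  intro c hc
  rw [List.mem_cons] at hc
  rcases hc with h | h
  · rw [h]
    exact ha
  · exact cfa_valid2 hb hd c h

theorem cfa_valid4 {a b d e : ℕ} (ha : Valid a) (hb : Valid b) (hd : Valid d) (he : Valid e) :
    ∀ c ∈ [a, b, d, e], Valid c := by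
  intro c hc
  rw [List.mem_cons] at hc
  rcases hc with h | h
  · rw [h]
    exact ha
  · exact cfa_valid3 hb hd he c h

theorem cf_ql_zero : qlP 0 = 1 := by
  have h := wprod_eq_of_eqw (cfa_valid1 (qlc_valid (by norm_num : (0 : ℕ) < 60))) cfa_valid0
    chkQl0
  rw [wprod_one, wprod_nil] at h
  exact h

theorem cf_ql_mul : ∀ a b, ∃ c, qlP a * qlP b = qlP c := by
  intro a b
  have h : qmulOK a b = true :=
    allRange_spec _ _ _ (allRange_spec _ _ _ chkQmul a (Nat.zero_le _) (by have := a.2; omega))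
      b (Nat.zero_le _) (by have := b.2; omega)
  unfold qmulOK at h
  rw [Bool.and_eq_true] at h
  have hlt := blt_true h.1
  refine ⟨⟨qmul a b, hlt⟩, ?_⟩
  have h2 := wprod_eq_of_eqw (cfa_valid2 (qlc_valid a.2) (qlc_valid b.2))
    (cfa_valid1 (qlc_valid hlt)) h.2
  rw [wprod_two, wprod_one] at h2
  exact h2

theorem cf_ql_inv : ∀ a, ∃ b, qlP a * qlP b = 1 := by
  intro a
  refine ⟨⟨qinv a, qinv_lt a.2⟩, ?_⟩
  rw [← qlP_inv a, mul_inv_cancel]

theorem cf_dc_zero : dcP 0 = 1 := by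
  have h := wprod_eq_of_eqw (cfa_valid1 (dcc_valid (by norm_num : (0 : ℕ) < 152))) cfa_valid0
    chkDc0
  rw [wprod_one, wprod_nil] at h
  exact h

theorem cf_g_sq : gP * gP = 1 := by
  have h := wprod_eq_of_eqw (cfa_valid2 gc_valid gc_valid) cfa_valid0 chkG
  rw [wprod_two, wprod_nil] at h
  exact h

theorem cf_cover : ∀ j l, ∃ i a b, dcP j * qlP l * gP = qlP a * dcP i * qlP b := by
  intro j l
  have h := chkCover j l j.2 l.2
  unfold coverOK at h
  rw [Bool.and_eq_true, Bool.and_eq_true, Bool.and_eq_true] at h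
  obtain ⟨⟨⟨hI, hA⟩, hB⟩, heq⟩ := h
  have hI' := blt_true hI
  have hA' := blt_true hA
  have hB' := blt_true hB
  refine ⟨⟨cvI j l, hI'⟩, ⟨cvA j l, hA'⟩, ⟨cvB j l, hB'⟩, ?_⟩
  have h2 := wprod_eq_of_eqw (cfa_valid3 (dcc_valid j.2) (qlc_valid l.2) gc_valid)
    (cfa_valid3 (qlc_valid hA') (dcc_valid hI') (qlc_valid hB')) heq
  rw [wprod_three, wprod_three] at h2
  exact h2

theorem cfa_dc_mem_aux : ∀ (n : ℕ) (hn : n < 152),
    dcP ⟨n, hn⟩ ∈ Subgroup.closure (Set.range qlP ∪ {gP}) := by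
  intro n
  induction n using Nat.strong_induction_on with
  | _ n ih =>
    intro hn
    rcases Nat.eq_zero_or_pos n with h0 | hpos
    · subst h0
      have h1 : dcP ⟨0, hn⟩ = 1 := cf_dc_zero
      rw [h1]
      exact Subgroup.one_mem _
    · have h : parOK n = true := allRange_spec _ _ _ chkPar n (by omega) (by omega)
      unfold parOK at h
      rw [Bool.and_eq_true, Bool.and_eq_true] at h
      obtain ⟨⟨hJ, hL⟩, heq⟩ := h
      have hJ' := blt_true hJ
      have hL' := blt_true hL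
      have hJ152 : parJ n < 152 := by omega
      have h2 := wprod_eq_of_eqw (cfa_valid3 (dcc_valid hJ152) (qlc_valid hL') gc_valid)
        (cfa_valid1 (dcc_valid hn)) heq
      rw [wprod_three, wprod_one] at h2
      have h3 : dcP ⟨n, hn⟩ = dcP ⟨parJ n, hJ152⟩ * qlP ⟨parL n, hL'⟩ * gP := h2.symm
      rw [h3]
      refine Subgroup.mul_mem _ (Subgroup.mul_mem _ (ih (parJ n) hJ' hJ152) ?_) ?_
      · exact Subgroup.subset_closure (Or.inl ⟨_, rfl⟩)
      · exact Subgroup.subset_closure (Or.inr rfl)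

theorem cf_dc_mem : ∀ j, dcP j ∈ Subgroup.closure (Set.range qlP ∪ {gP}) := by
  intro j
  exact cfa_dc_mem_aux j j.2

theorem cf_ql_square : ∀ k, ∃ s t, qlP k = qlP s * qlP s * (qlP t * qlP t) := by
  intro k
  have h : sqOK k = true := allRange_spec _ _ _ chkSq k (Nat.zero_le _) (by have := k.2; omega)
  unfold sqOK at h
  rw [Bool.and_eq_true, Bool.and_eq_true] at h
  obtain ⟨⟨hS, hT⟩, heq⟩ := h
  have hS' := blt_true hS
  have hT' := blt_true hT
  refine ⟨⟨sqS k, hS'⟩, ⟨sqT k, hT'⟩, ?_⟩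
  have h2 := wprod_eq_of_eqw (cfa_valid1 (qlc_valid k.2))
    (cfa_valid4 (qlc_valid hS') (qlc_valid hS') (qlc_valid hT') (qlc_valid hT')) heq
  rw [wprod_one, wprod_four, mul_assoc (toPerm (qlc (sqS k)) * toPerm (qlc (sqS k)))] at h2
  exact h2

end Vale.Agent.Lib.P183.Exc
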