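import Vale.Agent.Lib.P183.Exc.CBase

/-!
# Certificate fields: the two families and the action of `Q` on them
-/

namespace Vale.Agent.Lib.P183.Exc

open Equiv

/-- Every mask of the first family has exactly one bit set among the 22 points. -/
theorem cfb_chkSingle : allRange 0 6 (fun i => anyRange 0 22 (fun p => allRange 0 22 (fun q =>
    Nat.beq (bitn (bhm i) q) (cond (Nat.beq q p) 1 0)))) = true := by decide +kernel

theorem cfb_ql_spec {k : ℕ} (hk : k < 60) {i : ℕ} (hi : i < 6) :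
    qa k i < 6 ∧ mapsTo [qlc k] (bhm i) (bhm (qa k i)) = true ∧
      mapsTo [qlc k] (bwm i) (bwm (qa k i)) = true := by
  have h := allRange_spec _ _ _ chkQlStab k (Nat.zero_le _) (by omega)
  unfold qlStabOK at h
  rw [Bool.and_eq_true] at h
  have h2 : (Nat.blt (qa k i) 6 && mapsTo [qlc k] (bhm i) (bhm (qa k i)) &&
      mapsTo [qlc k] (bwm i) (bwm (qa k i))) = true :=
    allRange_spec _ _ _ h.1 i (Nat.zero_le _) (by omega)
  rw [Bool.and_eq_true, Bool.and_eq_true] at h2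
  exact ⟨blt_true h2.1.1, h2.1.2, h2.2⟩

theorem cfb_qa_zero {k : ℕ} (hk : k < 60) : qa k 0 = 0 := by
  have h := allRange_spec _ _ _ chkQlStab k (Nat.zero_le _) (by omega)
  unfold qlStabOK at h
  rw [Bool.and_eq_true] at h
  exact beq_true h.2

theorem cfb_valid (k : Fin 60) : ∀ c ∈ [qlc k], Valid c := by
  intro c hc
  simp only [List.mem_cons, List.not_mem_nil, or_false] at hc
  rw [hc]
  exact qlc_valid k.2

theorem cfb_image_bh (k : Fin 60) (i : Fin 6) (hq : qa k i < 6) :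
    (BhP i).image (qlP k) = BhP ⟨qa k i, hq⟩ := by
  have h := (image_bh_iff (cfb_valid k) i ⟨qa k i, hq⟩).mpr (cfb_ql_spec k.2 i.2).2.1
  rw [wprod_one] at h
  exact h

theorem cfb_image_bw (k : Fin 60) (i : Fin 6) (hq : qa k i < 6) :
    (BwP i).image (qlP k) = BwP ⟨qa k i, hq⟩ := by
  have h := (image_bw_iff (cfb_valid k) i ⟨qa k i, hq⟩).mpr (cfb_ql_spec k.2 i.2).2.2
  rw [wprod_one] at h
  exact h

theorem cf_Bh_inj : Function.Injective BhP := by
  rw [BhP_eq]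
  exact maskFam_injective bhm chkBhInj

theorem cf_Bw_inj : Function.Injective BwP := by
  rw [BwP_eq]
  exact maskFam_injective bwm chkBwInj

theorem cf_Bh_single : ∀ i, ∃ p, BhP i = {p} := by
  intro i
  have h := allRange_spec _ _ _ cfb_chkSingle i (Nat.zero_le _) (by have := i.2; omega)
  obtain ⟨p, -, hp, hq⟩ := anyRange_spec _ _ _ h
  refine ⟨⟨p, by omega⟩, ?_⟩
  ext q
  rw [Finset.mem_singleton]
  have hmem : q ∈ BhP i ↔ bit (bhm i) q = true := mem_maskSet (bhm i) q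
  rw [hmem]
  have hq' : Nat.beq (bitn (bhm i) q) (cond (Nat.beq q p) 1 0) = true :=
    allRange_spec _ _ _ hq q (Nat.zero_le _) (by have := q.2; omega)
  have e := beq_true hq'
  unfold bit
  rw [e]
  cases hb : Nat.beq q p
  · have hne : (q : ℕ) ≠ p := Nat.ne_of_beq_eq_false hb
    constructor
    · intro hc
      exact absurd hc (by decide)
    · intro hc
      exact absurd (congrArg Fin.val hc) hne
  · have heq : (q : ℕ) = p := Nat.eq_of_beq_eq_true hb
    constructor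
    · intro _
      exact Fin.ext heq
    · intro _
      rfl

theorem cf_ql_stab : ∀ k, qlP k ∈ famStab BhP ∧ qlP k ∈ famStab BwP := by
  intro k
  constructor
  · rw [mem_famStab]
    intro i
    exact ⟨⟨qa k i, (cfb_ql_spec k.2 i.2).1⟩, cfb_image_bh k i _⟩
  · rw [mem_famStab]
    intro i
    exact ⟨⟨qa k i, (cfb_ql_spec k.2 i.2).1⟩, cfb_image_bw k i _⟩

theorem cfb_act_bh (k : Fin 60) (h1 : qlP k ∈ famStab BhP) (i : Fin 6) :
    famHom BhP cf_Bh_inj ⟨qlP k, h1⟩ i = ⟨qa k i, (cfb_ql_spec k.2 i.2).1⟩ :=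
  (famHom_apply_eq_iff BhP cf_Bh_inj ⟨qlP k, h1⟩ i _).mpr (cfb_image_bh k i _)

theorem cfb_act_bw (k : Fin 60) (h2 : qlP k ∈ famStab BwP) (i : Fin 6) :
    famHom BwP cf_Bw_inj ⟨qlP k, h2⟩ i = ⟨qa k i, (cfb_ql_spec k.2 i.2).1⟩ :=
  (famHom_apply_eq_iff BwP cf_Bw_inj ⟨qlP k, h2⟩ i _).mpr (cfb_image_bw k i _)

theorem cf_ql_act : ∀ k (h1 : qlP k ∈ famStab BhP) (h2 : qlP k ∈ famStab BwP),
    famHom BhP cf_Bh_inj ⟨qlP k, h1⟩ = famHom BwP cf_Bw_inj ⟨qlP k, h2⟩ := by
  intro k h1 h2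
  apply Equiv.ext
  intro i
  rw [cfb_act_bh k h1 i, cfb_act_bw k h2 i]

theorem cf_ql_act0 : ∀ k (h1 : qlP k ∈ famStab BhP),
    famHom BhP cf_Bh_inj ⟨qlP k, h1⟩ 0 = 0 := by
  intro k h1
  rw [cfb_act_bh k h1 0]
  apply Fin.ext
  exact cfb_qa_zero k.2

theorem cf_ql_act_inj : ∀ k l (h1 : qlP k ∈ famStab BhP) (h2 : qlP l ∈ famStab BhP),
    famHom BhP cf_Bh_inj ⟨qlP k, h1⟩ = famHom BhP cf_Bh_inj ⟨qlP l, h2⟩ → k = l := by
  intro k l h1 h2 heq
  have h : qaInjOK k l = true :=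
    allRange_spec _ _ _ (allRange_spec _ _ _ chkQaInj k (Nat.zero_le _) (by have := k.2; omega)) l
      (Nat.zero_le _) (by have := l.2; omega)
  unfold qaInjOK at h
  rw [Bool.or_eq_true] at h
  rcases h with h | h
  · exact Fin.ext (beq_true h)
  · exfalso
    obtain ⟨i, -, hi, hne⟩ := anyRange_spec _ _ _ h
    have hi6 : i < 6 := by omega
    have hne' : (!(Nat.beq (qa k i) (qa l i))) = true := hne
    have e1 := cfb_act_bh k h1 ⟨i, hi6⟩
    have e2 := cfb_act_bh l h2 ⟨i, hi6⟩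
    rw [heq, e2] at e1
    have e3 : qa l i = qa k i := congrArg Fin.val e1
    rw [e3] at hne'
    have hrefl : Nat.beq (qa k i) (qa k i) = true := Nat.beq_refl _
    rw [hrefl] at hne'
    exact absurd hne' (by decide)

end Vale.Agent.Lib.P183.Exc
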