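import Vale.Agent.Lib.P183.Exc.CFb

/-!
# Certificate fields: which representatives stabilise the families, and how they act
-/

namespace Vale.Agent.Lib.P183.Exc

open Equiv

theorem cfc_valid1 {j : ℕ} (hj : j < 152) : ∀ c ∈ [dcc j], Valid c := by
  intro c hc
  simp only [List.mem_cons, List.not_mem_nil, or_false] at hc
  rw [hc]
  exact dcc_valid hj

theorem cfc_dcP_eq (j : Fin 152) : dcP j = wprod [dcc j] := by
  rw [wprod_one]
  rfl

theorem cfc_stabh_iff (j : Fin 152) : dcP j ∈ famStab BhP ↔ stabW [dcc j] bhm = true := by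
  rw [cfc_dcP_eq]
  exact mem_stabh_iff (cfc_valid1 j.2)

theorem cfc_stabw_iff (j : Fin 152) : dcP j ∈ famStab BwP ↔ stabW [dcc j] bwm = true := by
  rw [cfc_dcP_eq]
  exact mem_stabw_iff (cfc_valid1 j.2)

theorem cfc_bIdx_lt : bIdx < 152 := by decide

theorem cfc_wAct0_lt : wAct0 < 6 := by decide

theorem cfc_bAct0_lt : bAct0 < 6 := by decide

theorem cf_dc_stab : ∀ j, dcP j ∈ famStab BhP → dcP j ∈ famStab BwP → j = 0 := by
  intro j h1 h2
  by_contra hne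
  have hj : 1 ≤ (j : ℕ) := by
    rcases Nat.eq_zero_or_pos (j : ℕ) with h0 | h0
    · exact absurd (Fin.ext h0) hne
    · exact h0
  have hj2 : (j : ℕ) < 1 + 151 := by
    have := j.2
    omega
  have h := allRange_spec _ _ _ chkDcStab j hj hj2
  unfold dcStabOK at h
  rw [(cfc_stabh_iff j).mp h1, (cfc_stabw_iff j).mp h2] at h
  exact absurd h (by decide)

theorem cf_dc_stabw : ∀ j, dcP j ∈ famStab BwP → j = 0 ∨ j = wI := by
  intro j h2
  have hj2 : (j : ℕ) < 0 + 152 := by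
    have := j.2
    omega
  have h := allRange_spec _ _ _ chkDcStabw j (Nat.zero_le _) hj2
  unfold dcStabwOK at h
  rw [(cfc_stabw_iff j).mp h2] at h
  simp only [Bool.not_true, Bool.false_or, Bool.or_eq_true] at h
  rcases h with h | h
  · left
    exact Fin.ext (beq_true h)
  · right
    exact Fin.ext (beq_true h)

theorem cf_dcw_stabw : dcP wI ∈ famStab BwP := (cfc_stabw_iff wI).mpr chkDcwStabw

theorem cf_dcw_not_stabh : dcP wI ∉ famStab BhP := by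
  intro h
  have h2 : stabW [dcc wIdx] bhm = true := (cfc_stabh_iff wI).mp h
  rw [chkDcwNotStabh] at h2
  exact Bool.false_ne_true h2

theorem cf_w_ne : wI ≠ 0 := by
  intro h
  have h2 : wIdx = 0 := congrArg Fin.val h
  exact absurd h2 (by decide)

theorem cf_dcw_act0 : ∀ (h : dcP wI ∈ famStab BwP),
    famHom BwP cf_Bw_inj ⟨dcP wI, h⟩ 0 ≠ 0 := by
  intro h
  have h2 : famHom BwP cf_Bw_inj ⟨dcP wI, h⟩ 0 = ⟨wAct0, cfc_wAct0_lt⟩ := by
    rw [famHom_apply_eq_iff]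
    show (BwP 0).image (dcP wI) = BwP ⟨wAct0, cfc_wAct0_lt⟩
    rw [cfc_dcP_eq]
    exact (image_bw_iff (cfc_valid1 wI.2) 0 ⟨wAct0, cfc_wAct0_lt⟩).mpr chkDcwAct0
  rw [h2]
  intro h3
  have h4 : wAct0 = 0 := congrArg Fin.val h3
  exact absurd h4 (by decide)

theorem cf_exists_b : ∃ j, ∃ h : dcP j ∈ famStab BhP,
    famHom BhP cf_Bh_inj ⟨dcP j, h⟩ 0 ≠ 0 := by
  have hb : dcP ⟨bIdx, cfc_bIdx_lt⟩ ∈ famStab BhP :=
    (cfc_stabh_iff ⟨bIdx, cfc_bIdx_lt⟩).mpr chkBStab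
  refine ⟨⟨bIdx, cfc_bIdx_lt⟩, hb, ?_⟩
  have h2 : famHom BhP cf_Bh_inj ⟨dcP ⟨bIdx, cfc_bIdx_lt⟩, hb⟩ 0 = ⟨bAct0, cfc_bAct0_lt⟩ := by
    rw [famHom_apply_eq_iff]
    show (BhP 0).image (dcP ⟨bIdx, cfc_bIdx_lt⟩) = BhP ⟨bAct0, cfc_bAct0_lt⟩
    rw [cfc_dcP_eq]
    exact (image_bh_iff (cfc_valid1 cfc_bIdx_lt) 0 ⟨bAct0, cfc_bAct0_lt⟩).mpr chkBAct0
  rw [h2]
  intro h3
  have h4 : bAct0 = 0 := congrArg Fin.val h3
  exact absurd h4 (by decide)

theorem cf_dc_sign : ∀ j (h : dcP j ∈ famStab BhP),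
    Perm.sign (famHom BhP cf_Bh_inj ⟨dcP j, h⟩) = 1 := by
  intro j h
  have hj2 : (j : ℕ) < 0 + 152 := by
    have := j.2
    omega
  have hs := allRange_spec _ _ _ chkDcSign j (Nat.zero_le _) hj2
  unfold dcSignOK at hs
  rw [(cfc_stabh_iff j).mp h] at hs
  simp only [Bool.not_true, Bool.false_or, Bool.and_eq_true] at hs
  obtain ⟨hall, hev⟩ := hs
  refine sign_of_row _ (daRow j) ?_ hev
  intro i
  have hi2 : (i : ℕ) < 0 + 6 := by
    have := i.2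
    omega
  have hi := allRange_spec _ _ _ hall i (Nat.zero_le _) hi2
  simp only [Bool.and_eq_true] at hi
  obtain ⟨hlt, hmap⟩ := hi
  have hlt' : da j i < 6 := blt_true hlt
  have h2 : famHom BhP cf_Bh_inj ⟨dcP j, h⟩ i = ⟨da j i, hlt'⟩ := by
    rw [famHom_apply_eq_iff]
    show (BhP i).image (dcP j) = BhP ⟨da j i, hlt'⟩
    rw [cfc_dcP_eq]
    exact (image_bh_iff (cfc_valid1 j.2) i ⟨da j i, hlt'⟩).mpr hmap
  rw [h2]
  rfl

theorem cf_dcw_sign : ∀ (h : dcP wI ∈ famStab BwP),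
    Perm.sign (famHom BwP cf_Bw_inj ⟨dcP wI, h⟩) = 1 := by
  intro h
  have hs := chkDcwSign
  unfold dcwSignOK at hs
  rw [Bool.and_eq_true] at hs
  obtain ⟨hall, hev⟩ := hs
  refine sign_of_row _ wRow ?_ hev
  intro i
  have hi2 : (i : ℕ) < 0 + 6 := by
    have := i.2
    omega
  have hi := allRange_spec _ _ _ hall i (Nat.zero_le _) hi2
  simp only [Bool.and_eq_true] at hi
  obtain ⟨hlt, hmap⟩ := hi
  have hlt' : rowv wRow i < 6 := blt_true hlt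
  have h2 : famHom BwP cf_Bw_inj ⟨dcP wI, h⟩ i = ⟨rowv wRow i, hlt'⟩ := by
    rw [famHom_apply_eq_iff]
    show (BwP i).image (dcP wI) = BwP ⟨rowv wRow i, hlt'⟩
    rw [cfc_dcP_eq]
    exact (image_bw_iff (cfc_valid1 wI.2) i ⟨rowv wRow i, hlt'⟩).mpr hmap
  rw [h2]

end Vale.Agent.Lib.P183.Exc
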