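import Vale.Agent.Lib.P183.Exc.CBase

/-!
# Certificate fields: witnesses against normalising
-/

namespace Vale.Agent.Lib.P183.Exc

open Equiv

/-- The three codes of a conjugate are codes of permutations. -/
theorem cfd_valid {j k : ℕ} (hj : j < 152) (hk : k < 60) :
    ∀ c ∈ [dcc j, qlc k, dci j], Valid c := by
  intro c hc
  simp only [List.mem_cons, List.not_mem_nil, or_false] at hc
  rcases hc with rfl | rfl | rfl
  · exact dcc_valid hj
  · exact qlc_valid hk
  · exact dci_valid hj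

/-- A conjugate of an element of `Q` by a representative, as a word. -/
theorem cfd_conj (j : Fin 152) {k : ℕ} (hk : k < 60) :
    dcP j * qlP ⟨k, hk⟩ * (dcP j)⁻¹ = wprod [dcc j, qlc k, dci j] := by
  rw [dcP_inv, wprod_three]
  rfl

theorem cf_normQ_wit : ∀ j, j ≠ 0 → ∃ k, dcP j * qlP k * (dcP j)⁻¹ ∉ famStab BhP ∨
    dcP j * qlP k * (dcP j)⁻¹ ∉ famStab BwP := by
  intro j hj
  have hj0 : (j : ℕ) ≠ 0 := fun h => hj (Fin.ext h)
  have hj2 : (j : ℕ) < 152 := j.2
  have h := allRange_spec _ _ _ chkNormQ (j : ℕ) (by omega) (by omega)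
  unfold normQOK at h
  rw [Bool.and_eq_true] at h
  obtain ⟨h1, h2⟩ := h
  have hk : nqK j < 60 := blt_true h1
  refine ⟨⟨nqK j, hk⟩, ?_⟩
  have hvalid := cfd_valid hj2 hk
  rw [cfd_conj j hk, mem_stabh_iff hvalid, mem_stabw_iff hvalid]
  cases hA : stabW [dcc j, qlc (nqK j), dci j] bhm
  · left
    exact Bool.false_ne_true
  · right
    rw [hA] at h2
    intro hB
    rw [hB] at h2
    exact Bool.false_ne_true h2

theorem cf_normW_wit : ∀ j, j ≠ 0 → j ≠ wI →
    (∃ k, dcP j * qlP k * (dcP j)⁻¹ ∉ famStab BwP) ∨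
    dcP j * dcP wI * (dcP j)⁻¹ ∉ famStab BwP := by
  intro j hj hjw
  have hj0 : (j : ℕ) ≠ 0 := fun h => hj (Fin.ext h)
  have hj2 : (j : ℕ) < 152 := j.2
  have h := allRange_spec _ _ _ chkNormW (j : ℕ) (by omega) (by omega)
  unfold normWOK at h
  rw [Bool.or_eq_true] at h
  rcases h with h | h
  · exfalso
    apply hjw
    apply Fin.ext
    exact beq_true h
  · rw [Bool.and_eq_true] at h
    obtain ⟨h1, h2⟩ := h
    have hk : nwK j < 60 := blt_true h1
    left
    refine ⟨⟨nwK j, hk⟩, ?_⟩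
    have hvalid := cfd_valid hj2 hk
    rw [cfd_conj j hk, mem_stabw_iff hvalid]
    intro hB
    rw [hB] at h2
    exact Bool.false_ne_true h2

end Vale.Agent.Lib.P183.Exc
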