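import Vale.Agent.Lib.P183.Exc.CBase

/-!
# Certificate fields: the sixteen-element subgroup
-/

namespace Vale.Agent.Lib.P183.Exc

open Equiv

theorem cfe_valid_nil : ∀ c ∈ ([] : List ℕ), Valid c := by
  intro c hc
  simp only [List.not_mem_nil] at hc

theorem cfe_valid1 {m : ℕ} (hm : m < 16) : ∀ c ∈ [vlc m], Valid c := by
  intro c hc
  simp only [List.mem_cons, List.not_mem_nil, or_false] at hc
  rw [hc]
  exact vlc_valid hm

theorem cfe_valid2 {m n : ℕ} (hm : m < 16) (hn : n < 16) :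
    ∀ c ∈ [vlc m, vlc n], Valid c := by
  intro c hc
  simp only [List.mem_cons, List.not_mem_nil, or_false] at hc
  rcases hc with rfl | rfl
  · exact vlc_valid hm
  · exact vlc_valid hn

theorem cfe_valid_qv {k m : ℕ} (hk : k < 60) (hm : m < 16) :
    ∀ c ∈ [qlc k, vlc m], Valid c := by
  intro c hc
  simp only [List.mem_cons, List.not_mem_nil, or_false] at hc
  rcases hc with rfl | rfl
  · exact qlc_valid hk
  · exact vlc_valid hm

theorem cfe_valid_vq {k m : ℕ} (hk : k < 60) (hm : m < 16) :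
    ∀ c ∈ [vlc m, qlc k], Valid c := by
  intro c hc
  simp only [List.mem_cons, List.not_mem_nil, or_false] at hc
  rcases hc with rfl | rfl
  · exact vlc_valid hm
  · exact qlc_valid hk

theorem cfe_valid_dq {j k : ℕ} (hj : j < 152) (hk : k < 60) :
    ∀ c ∈ [dcc j, qlc k], Valid c := by
  intro c hc
  simp only [List.mem_cons, List.not_mem_nil, or_false] at hc
  rcases hc with rfl | rfl
  · exact dcc_valid hj
  · exact qlc_valid hk

/-- The first element of `V`, as the permutation of its code. -/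
theorem cfe_vl_one : vlP 1 = toPerm (vlc 1) := rfl

theorem cf_vl_zero : vlP 0 = 1 := by
  have h := wprod_eq_of_eqw (cfe_valid1 (by norm_num : 0 < 16)) cfe_valid_nil chkVl0
  rw [wprod_one, wprod_nil] at h
  exact h

theorem cf_vl_mul : ∀ m n, ∃ r, vlP m * vlP n = vlP r := by
  intro m n
  have hx : Nat.xor (m : ℕ) (n : ℕ) < 16 := Nat.xor_lt_two_pow (n := 4) m.2 n.2
  refine ⟨⟨Nat.xor m n, hx⟩, ?_⟩
  have h1 := allRange_spec _ _ _ chkVmul (m : ℕ) (Nat.zero_le _) (by have := m.2; omega)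
  have h2 : vmulOK m n = true :=
    allRange_spec _ _ _ h1 (n : ℕ) (Nat.zero_le _) (by have := n.2; omega)
  unfold vmulOK at h2
  have h := wprod_eq_of_eqw (cfe_valid2 m.2 n.2) (cfe_valid1 hx) h2
  rw [wprod_two, wprod_one] at h
  exact h

theorem cf_vl_sq : ∀ m, vlP m * vlP m = 1 := by
  intro m
  have h := wprod_eq_of_eqw (cfe_valid2 m.2 m.2) cfe_valid_nil (vlOK_spec m.2)
  rw [wprod_two, wprod_nil] at h
  exact h

theorem cf_vl_inj : Function.Injective vlP := by
  intro m n hmn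
  have h1 := allRange_spec _ _ _ chkVinj (m : ℕ) (Nat.zero_le _) (by have := m.2; omega)
  have h2 : vinjOK m n = true :=
    allRange_spec _ _ _ h1 (n : ℕ) (Nat.zero_le _) (by have := n.2; omega)
  unfold vinjOK at h2
  rw [Bool.or_eq_true] at h2
  rcases h2 with h2 | h2
  · exact Fin.ext (beq_true h2)
  · exfalso
    have h3 : eqw [vlc m] [vlc n] = false := by
      cases hb : eqw [vlc m] [vlc n]
      · rfl
      · rw [hb] at h2
        exact absurd h2 (by decide)
    have h4 := wprod_ne_of_eqw (cfe_valid1 m.2) (cfe_valid1 n.2) h3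
    rw [wprod_one, wprod_one] at h4
    exact h4 hmn

theorem cf_vl_conj : ∀ m, m ≠ 0 → ∃ k, qlP k * vlP 1 * (qlP k)⁻¹ = vlP m := by
  intro m hm
  have hm0 : (m : ℕ) ≠ 0 := fun h => hm (Fin.ext h)
  have h := allRange_spec _ _ _ chkVconj (m : ℕ) (by omega) (by have := m.2; omega)
  unfold vconjOK at h
  rw [Bool.and_eq_true] at h
  obtain ⟨h1, h2⟩ := h
  have hk : vcK m < 60 := blt_true h1
  refine ⟨⟨vcK m, hk⟩, ?_⟩
  have h3 := wprod_eq_of_eqw (cfe_valid_qv hk (by norm_num : 1 < 16)) (cfe_valid_vq hk m.2) h2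
  rw [wprod_two, wprod_two] at h3
  have h4 : qlP ⟨vcK m, hk⟩ * vlP 1 = vlP m * qlP ⟨vcK m, hk⟩ := h3
  rw [h4, mul_inv_cancel_right]

theorem cf_vl_conj' : ∀ k, ∃ m, qlP k * vlP 1 * (qlP k)⁻¹ = vlP m := by
  intro k
  have hv : vdM k < 16 := by
    unfold vdM
    exact Nat.lt_succ_of_le Nat.and_le_right
  refine ⟨⟨vdM k, hv⟩, ?_⟩
  have h := allRange_spec _ _ _ chkVconjp (k : ℕ) (Nat.zero_le _) (by have := k.2; omega)
  unfold vconjpOK at h
  have h3 := wprod_eq_of_eqw (cfe_valid_qv k.2 (by norm_num : 1 < 16)) (cfe_valid_vq k.2 hv) h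
  rw [wprod_two, wprod_two] at h3
  have h4 : qlP k * vlP 1 = vlP ⟨vdM k, hv⟩ * qlP k := h3
  rw [h4, mul_inv_cancel_right]

theorem cf_vl_one_mem : ∃ j k, vlP 1 = dcP j * qlP k := by
  have hj : v1J < 152 := by decide
  have hk : v1K < 60 := by decide
  refine ⟨⟨v1J, hj⟩, ⟨v1K, hk⟩, ?_⟩
  have h := wprod_eq_of_eqw (cfe_valid1 (by norm_num : 1 < 16)) (cfe_valid_dq hj hk) chkV1
  rw [wprod_one, wprod_two] at h
  exact h

theorem cf_vl_fix : ∀ m i, (BhP i).image (vlP m) = BhP i := by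
  intro m i
  have h1 := allRange_spec _ _ _ chkVfix (m : ℕ) (Nat.zero_le _) (by have := m.2; omega)
  unfold vfixOK at h1
  have h2 : mapsTo [vlc m] (bhm i) (bhm i) = true :=
    allRange_spec _ _ _ h1 (i : ℕ) (Nat.zero_le _) (by have := i.2; omega)
  have h := (image_bh_iff (cfe_valid1 m.2) i i).mpr h2
  rw [wprod_one] at h
  exact h

theorem cf_vl_move : ∀ p : Fin 22, (∀ i, p ∉ BhP i) → vlP 1 p ≠ p := by
  intro p hp
  have h := allRange_spec _ _ _ chkVmove (p : ℕ) (Nat.zero_le _) (by have := p.2; omega)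
  unfold vmoveOK at h
  rw [Bool.or_eq_true] at h
  rcases h with h | h
  · exfalso
    obtain ⟨i, -, hi, hb⟩ := anyRange_spec _ _ _ h
    have hi6 : i < 6 := by omega
    have hmem : p ∈ BhP ⟨i, hi6⟩ := (mem_maskSet (bhm i) p).mpr hb
    exact hp ⟨i, hi6⟩ hmem
  · intro hfix
    have h1 : ((toPerm (vlc 1) p : Fin 22) : ℕ) = ap (vlc 1) p :=
      toPerm_apply (vlc_valid (by norm_num : 1 < 16)) p
    have h2 : ((toPerm (vlc 1) p : Fin 22) : ℕ) = p := congrArg Fin.val hfix
    have h3 : ap (vlc 1) p = p := h1.symm.trans h2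
    rw [h3] at h
    have h4 : Nat.beq (p : ℕ) (p : ℕ) = true := Nat.beq_refl _
    rw [h4] at h
    exact absurd h (by decide)

theorem cf_vl_not_stabw : vlP 1 ∉ famStab BwP := by
  intro hmem
  have h := (mem_stabw_iff (cfe_valid1 (by norm_num : 1 < 16))).mp (by
    rw [wprod_one]
    exact hmem)
  rw [chkVNotStabw] at h
  exact Bool.false_ne_true h

end Vale.Agent.Lib.P183.Exc
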