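import Vale.Agent.Lib.P183.Exc.CBase

/-!
# Certificate field: the invariant subgroup certificates
-/

namespace Vale.Agent.Lib.P183.Exc

open Equiv

/-- Half of a conjugate code below 120 is an index in `Q`. -/
theorem cff_half_lt {c : ℕ} (h : Nat.blt c 120 = true) : Nat.div c 2 < 60 := by
  have hc : c < 120 := blt_true h
  show c / 2 < 60
  omega

/-- Every code in a conjugate word is the code of a permutation. -/
theorem cff_conjW_valid {j k : ℕ} (hj : j < 152) (hk : k < 60) (c : ℕ) :
    ∀ x ∈ conjW j k c, Valid x := by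
  intro x hx
  unfold conjW at hx
  cases h1 : Nat.blt c 120 with
  | false =>
    rw [h1, cond_false] at hx
    exact absurd hx List.not_mem_nil
  | true =>
    rw [h1, cond_true] at hx
    have ha : Nat.div c 2 < 60 := cff_half_lt h1
    cases h2 : Nat.beq (Nat.mod c 2) 0 with
    | true =>
      rw [h2, cond_true] at hx
      simp only [List.mem_cons, List.not_mem_nil, or_false] at hx
      rcases hx with rfl | rfl | rfl | rfl
      · exact qlc_valid ha
      · exact dcc_valid hj
      · exact qlc_valid hk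
      · exact qlc_valid (qinv_lt ha)
    | false =>
      rw [h2, cond_false] at hx
      simp only [List.mem_cons, List.not_mem_nil, or_false] at hx
      rcases hx with rfl | rfl | rfl | rfl
      · exact qlc_valid ha
      · exact qlc_valid (qinv_lt hk)
      · exact dci_valid hj
      · exact qlc_valid (qinv_lt ha)

/-- The product of a conjugate word with an even code is a conjugate. -/
theorem cff_even_eq (j : Fin 152) (k : Fin 60) {a : ℕ} (ha : a < 60) :
    toPerm (qlc a) * toPerm (dcc j) * toPerm (qlc k) * toPerm (qlc (qinv a)) =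
      qlP ⟨a, ha⟩ * (dcP j * qlP k) * (qlP ⟨a, ha⟩)⁻¹ := by
  rw [qlP_inv]
  unfold qlP dcP
  simp only [mul_assoc]

/-- The product of a conjugate word with an odd code is the inverse of a conjugate. -/
theorem cff_odd_eq (j : Fin 152) (k : Fin 60) {a : ℕ} (ha : a < 60) :
    toPerm (qlc a) * toPerm (qlc (qinv k)) * toPerm (dci j) * toPerm (qlc (qinv a)) =
      (qlP ⟨a, ha⟩ * (dcP j * qlP k) * (qlP ⟨a, ha⟩)⁻¹)⁻¹ := by
  rw [mul_inv_rev, mul_inv_rev, mul_inv_rev, inv_inv, qlP_inv k, dcP_inv, qlP_inv ⟨a, ha⟩]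
  unfold qlP
  simp only [mul_assoc]

/-- The product of a conjugate word lies in the subgroup generated by the conjugates. -/
theorem cff_conjW_mem (j : Fin 152) (k : Fin 60) (c : ℕ) :
    wprod (conjW j k c) ∈
      Subgroup.closure (Set.range fun a => qlP a * (dcP j * qlP k) * (qlP a)⁻¹) := by
  unfold conjW
  cases h1 : Nat.blt c 120 with
  | false =>
    rw [cond_false, wprod_nil]
    exact one_mem _
  | true =>
    rw [cond_true]
    have ha : Nat.div c 2 < 60 := cff_half_lt h1
    have hgen : qlP ⟨Nat.div c 2, ha⟩ * (dcP j * qlP k) * (qlP ⟨Nat.div c 2, ha⟩)⁻¹ ∈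
        Subgroup.closure (Set.range fun a => qlP a * (dcP j * qlP k) * (qlP a)⁻¹) :=
      Subgroup.subset_closure ⟨⟨Nat.div c 2, ha⟩, rfl⟩
    cases h2 : Nat.beq (Nat.mod c 2) 0 with
    | true =>
      rw [cond_true, wprod_four, cff_even_eq j k ha]
      exact hgen
    | false =>
      rw [cond_false, wprod_four, cff_odd_eq j k ha]
      exact inv_mem hgen

theorem cff_sigU_valid {j k : ℕ} (hj : j < 152) (hk : k < 60) (e : ℕ) :
    ∀ x ∈ sigU j k e, Valid x := by
  intro x hx
  unfold sigU at hx
  rw [List.mem_append, List.mem_append] at hx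
  rcases hx with h | h | h
  · exact cff_conjW_valid hj hk _ x h
  · exact cff_conjW_valid hj hk _ x h
  · exact cff_conjW_valid hj hk _ x h

theorem cff_sigV_valid {j k : ℕ} (hj : j < 152) (hk : k < 60) (e : ℕ) :
    ∀ x ∈ sigV j k e, Valid x := by
  intro x hx
  unfold sigV at hx
  rw [List.mem_append, List.mem_append] at hx
  rcases hx with h | h | h
  · exact cff_conjW_valid hj hk _ x h
  · exact cff_conjW_valid hj hk _ x h
  · exact cff_conjW_valid hj hk _ x h

theorem cff_sigU_mem (j : Fin 152) (k : Fin 60) (e : ℕ) :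
    wprod (sigU j k e) ∈
      Subgroup.closure (Set.range fun a => qlP a * (dcP j * qlP k) * (qlP a)⁻¹) := by
  unfold sigU
  rw [wprod_append, wprod_append]
  exact mul_mem (cff_conjW_mem j k _) (mul_mem (cff_conjW_mem j k _) (cff_conjW_mem j k _))

theorem cff_sigV_mem (j : Fin 152) (k : Fin 60) (e : ℕ) :
    wprod (sigV j k e) ∈
      Subgroup.closure (Set.range fun a => qlP a * (dcP j * qlP k) * (qlP a)⁻¹) := by
  unfold sigV
  rw [wprod_append, wprod_append]
  exact mul_mem (cff_conjW_mem j k _) (mul_mem (cff_conjW_mem j k _) (cff_conjW_mem j k _))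

/-- The first alternative of the certificate. -/
theorem cff_left (j : Fin 152) (k : Fin 60) {e : ℕ} (h1 : Nat.blt (sgT e) 16 = true)
    (h2 : eqw [dcc j, qlc k] [vlc (sgT e)] = true) : ∃ m, dcP j * qlP k = vlP m := by
  have hm : sgT e < 16 := blt_true h1
  refine ⟨⟨sgT e, hm⟩, ?_⟩
  have hu : ∀ c ∈ [dcc j, qlc k], Valid c := by
    intro c hc
    simp only [List.mem_cons, List.not_mem_nil, or_false] at hc
    rcases hc with rfl | rfl
    · exact dcc_valid j.2
    · exact qlc_valid k.2
  have hv : ∀ c ∈ [vlc (sgT e)], Valid c := by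
    intro c hc
    simp only [List.mem_cons, List.not_mem_nil, or_false] at hc
    rw [hc]
    exact vlc_valid hm
  have hw := wprod_eq_of_eqw hu hv h2
  rw [wprod_two, wprod_one] at hw
  exact hw

/-- The second alternative of the certificate. -/
theorem cff_right (j : Fin 152) (k : Fin 60) {e : ℕ} (h2 : Nat.blt (sgT e) 60 = true)
    (h3 : (!(Nat.beq (sgT e) 0)) = true)
    (h4 : eqw (sigU j k e ++ [qlc (sgT e)]) (sigV j k e) = true) :
    ∃ u v : Perm (Fin 22), ∃ t, t ≠ 0 ∧ u * qlP t = v ∧
      u ∈ Subgroup.closure (Set.range fun a => qlP a * (dcP j * qlP k) * (qlP a)⁻¹) ∧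
      v ∈ Subgroup.closure (Set.range fun a => qlP a * (dcP j * qlP k) * (qlP a)⁻¹) := by
  have ht : sgT e < 60 := blt_true h2
  refine ⟨wprod (sigU j k e), wprod (sigV j k e), ⟨sgT e, ht⟩, ?_, ?_,
    cff_sigU_mem j k e, cff_sigV_mem j k e⟩
  · intro h0
    have h00 : sgT e = 0 := congrArg Fin.val h0
    rw [h00] at h3
    exact absurd h3 (by decide)
  · have hu : ∀ c ∈ sigU j k e ++ [qlc (sgT e)], Valid c := by
      intro c hc
      rw [List.mem_append] at hc
      rcases hc with hc | hc
      · exact cff_sigU_valid j.2 k.2 e c hc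
      · simp only [List.mem_cons, List.not_mem_nil, or_false] at hc
        rw [hc]
        exact qlc_valid ht
    have hw := wprod_eq_of_eqw hu (cff_sigV_valid j.2 k.2 e) h4
    rw [wprod_append, wprod_one] at hw
    exact hw

theorem cf_sig_cert : ∀ j, j ≠ 0 → ∀ k, (∃ m, dcP j * qlP k = vlP m) ∨
    ∃ u v : Perm (Fin 22), ∃ t, t ≠ 0 ∧ u * qlP t = v ∧
      u ∈ Subgroup.closure (Set.range fun a => qlP a * (dcP j * qlP k) * (qlP a)⁻¹) ∧
      v ∈ Subgroup.closure (Set.range fun a => qlP a * (dcP j * qlP k) * (qlP a)⁻¹) := by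
  intro j hj0 k
  have hj1 : 1 ≤ (j : ℕ) := by
    rcases Nat.eq_zero_or_pos (j : ℕ) with h | h
    · exact absurd (Fin.ext h) hj0
    · exact h
  have h := chkSig j k hj1 j.2 k.2
  unfold sigOK at h
  rw [force_eq] at h
  obtain ⟨e, he⟩ : ∃ e, e = sigE j k := ⟨_, rfl⟩
  rw [← he] at h
  cases h1 : Nat.beq (Nat.land e 1) 0 with
  | true =>
    rw [h1, cond_true, Bool.and_eq_true] at h
    exact Or.inl (cff_left j k h.1 h.2)
  | false =>
    rw [h1, cond_false, Bool.and_eq_true, Bool.and_eq_true] at h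
    exact Or.inr (cff_right j k h.1.1 h.1.2 h.2)

end Vale.Agent.Lib.P183.Exc
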