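import Vale.Agent.Lib.P183.Exc.CBase

/-!
# Certificate field: the overgroup certificates
-/

namespace Vale.Agent.Lib.P183.Exc

open Equiv

/-- The codes of a repeated word of valid codes are valid. -/
theorem cfg_wpow_valid {W : List ℕ} (hW : ∀ c ∈ W, Valid c) (n : ℕ) :
    ∀ c ∈ wpow n W, Valid c := by
  induction n with
  | zero =>
    intro c hc
    change c ∈ ([] : List ℕ) at hc
    exact absurd hc List.not_mem_nil
  | succ n ih =>
    intro c hc
    change c ∈ W ++ wpow n W at hc
    rcases List.mem_append.mp hc with hc | hc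
    · exact hW c hc
    · exact ih c hc

/-- The word of an overgroup certificate: its codes are valid and its product lies in the
subgroup generated by `Q` and the representative. -/
theorem cfg_word (j : Fin 152) (a0 a1 : ℕ) (h0 : a0 < 60) (h1 : a1 < 60) (b : Bool) :
    (∀ c ∈ [dcc j, qlc a0] ++ cond b [dcc j, qlc a1] [], Valid c) ∧
    wprod ([dcc j, qlc a0] ++ cond b [dcc j, qlc a1] []) ∈
      Subgroup.closure (Set.range qlP ∪ {dcP j}) := by
  have hd : toPerm (dcc j) ∈ Subgroup.closure (Set.range qlP ∪ {dcP j}) :=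
    Subgroup.subset_closure (Or.inr rfl)
  have hq : ∀ a, a < 60 → toPerm (qlc a) ∈ Subgroup.closure (Set.range qlP ∪ {dcP j}) :=
    fun a ha => Subgroup.subset_closure (Or.inl ⟨⟨a, ha⟩, rfl⟩)
  cases b with
  | false =>
    refine ⟨?_, ?_⟩
    · intro c hc
      change c ∈ [dcc j, qlc a0] ++ [] at hc
      rw [List.append_nil] at hc
      simp only [List.mem_cons, List.not_mem_nil, or_false] at hc
      rcases hc with rfl | rfl
      · exact dcc_valid j.2
      · exact qlc_valid h0
    · change wprod ([dcc j, qlc a0] ++ []) ∈ _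
      rw [List.append_nil, wprod_two]
      exact Subgroup.mul_mem _ hd (hq a0 h0)
  | true =>
    refine ⟨?_, ?_⟩
    · intro c hc
      change c ∈ [dcc j, qlc a0] ++ [dcc j, qlc a1] at hc
      rcases List.mem_append.mp hc with hc | hc
      · simp only [List.mem_cons, List.not_mem_nil, or_false] at hc
        rcases hc with rfl | rfl
        · exact dcc_valid j.2
        · exact qlc_valid h0
      · simp only [List.mem_cons, List.not_mem_nil, or_false] at hc
        rcases hc with rfl | rfl
        · exact dcc_valid j.2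
        · exact qlc_valid h1
    · change wprod ([dcc j, qlc a0] ++ [dcc j, qlc a1]) ∈ _
      rw [wprod_append, wprod_two, wprod_two]
      exact Subgroup.mul_mem _ (Subgroup.mul_mem _ hd (hq a0 h0))
        (Subgroup.mul_mem _ hd (hq a1 h1))

/-- A word of valid codes whose power is trivial and which is not trivial itself. -/
theorem cfg_order {W : List ℕ} (hW : ∀ c ∈ W, Valid c) (n : ℕ)
    (h1 : eqw (wpow n W) [] = true) (h2 : eqw W [] = false) :
    wprod W ≠ 1 ∧ wprod W ^ n = 1 := by
  have hnil : ∀ c ∈ ([] : List ℕ), Valid c := fun c hc => absurd hc List.not_mem_nil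
  refine ⟨?_, ?_⟩
  · have h := wprod_ne_of_eqw hW hnil h2
    rwa [wprod_nil] at h
  · rw [← wprod_wpow, wprod_eq_of_eqw (cfg_wpow_valid hW n) hnil h1, wprod_nil]

theorem cf_small_cert : ∀ j, j ≠ 0 → j ≠ wI →
    (∃ y ∈ Subgroup.closure (Set.range qlP ∪ {dcP j}), y ≠ 1 ∧ (y ^ 7 = 1 ∨ y ^ 11 = 1)) ∨
    (∃ m, m ≠ 0 ∧ vlP m ∈ Subgroup.closure (Set.range qlP ∪ {dcP j})) := by
  intro j hj0 hjw
  have hj1 : 1 ≤ (j : ℕ) := by
    rcases Nat.eq_zero_or_pos (j : ℕ) with h | h
    · exact absurd (Fin.ext h) hj0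
    · exact h
  have hj2 : (j : ℕ) < 1 + 151 := by
    have := j.2
    omega
  have h := allRange_spec _ _ _ chkSmall (j : ℕ) hj1 hj2
  unfold smallOK at h
  rw [Bool.or_eq_true] at h
  rcases h with h | h
  · exact absurd (Fin.ext (beq_true h)) hjw
  rw [force_eq] at h
  simp only [Bool.and_eq_true] at h
  obtain ⟨⟨ha0, ha1⟩, hc⟩ := h
  have ha0' := blt_true ha0
  have ha1' := blt_true ha1
  obtain ⟨hW, hmem⟩ := cfg_word j _ _ ha0' ha1' (Nat.blt 1 (smR (smE j)))
  change ∀ c ∈ smW j (smE j), Valid c at hW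
  change wprod (smW j (smE j)) ∈ _ at hmem
  cases hT0 : Nat.beq (smT (smE j)) 0 with
  | true =>
    rw [hT0] at hc
    change (eqw (wpow 7 (smW j (smE j))) [] && !(eqw (smW j (smE j)) [])) = true at hc
    rw [Bool.and_eq_true, Bool.not_eq_true'] at hc
    obtain ⟨hne, hpow⟩ := cfg_order hW 7 hc.1 hc.2
    exact Or.inl ⟨_, hmem, hne, Or.inl hpow⟩
  | false =>
    rw [hT0] at hc
    change (cond (Nat.beq (smT (smE j)) 1)
      (eqw (wpow 11 (smW j (smE j))) [] && !(eqw (smW j (smE j)) []))
      (!(Nat.beq (smM (smE j)) 0) && eqw (smW j (smE j)) [vlc (smM (smE j))])) = true at hc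
    cases hT1 : Nat.beq (smT (smE j)) 1 with
    | true =>
      rw [hT1] at hc
      change (eqw (wpow 11 (smW j (smE j))) [] && !(eqw (smW j (smE j)) [])) = true at hc
      rw [Bool.and_eq_true, Bool.not_eq_true'] at hc
      obtain ⟨hne, hpow⟩ := cfg_order hW 11 hc.1 hc.2
      exact Or.inl ⟨_, hmem, hne, Or.inr hpow⟩
    | false =>
      rw [hT1] at hc
      change (!(Nat.beq (smM (smE j)) 0) && eqw (smW j (smE j)) [vlc (smM (smE j))]) = true
        at hc
      rw [Bool.and_eq_true, Bool.not_eq_true'] at hc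
      have hm16 : smM (smE j) < 16 := by
        unfold smM
        exact Nat.lt_succ_of_le Nat.and_le_right
      have hm0 : smM (smE j) ≠ 0 := Nat.ne_of_beq_eq_false hc.1
      have hv : ∀ c ∈ [vlc (smM (smE j))], Valid c := by
        intro c hc'
        simp only [List.mem_cons, List.not_mem_nil, or_false] at hc'
        rw [hc']
        exact vlc_valid hm16
      refine Or.inr ⟨⟨smM (smE j), hm16⟩, ?_, ?_⟩
      · intro hm
        exact hm0 (congrArg Fin.val hm)
      · have heq := wprod_eq_of_eqw hW hv hc.2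
        rw [wprod_one] at heq
        change toPerm (vlc (smM (smE j))) ∈ _
        rw [← heq]
        exact hmem

end Vale.Agent.Lib.P183.Exc
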