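import Vale.Agent.Lib.P183.Exc.CfgBasic

/-!
# The case analysis when the twisting homomorphism is surjective
-/

namespace Vale.Agent.Lib.P183.Exc

open Classical

variable {P T : Type} [Group P] [Group T]

/-- The order of a subgroup carrying a surjective homomorphism with kernel `K`. -/
theorem big_card (H K : Subgroup P) (f : H →* T) (hf : Function.Surjective f) (hKH : K ≤ H)
    (hker : ∀ x : H, f x = 1 ↔ (x : P) ∈ K) : Nat.card H = Nat.card K * Nat.card T := by
  have h1 : Nat.card H = Nat.card (H ⧸ f.ker) * Nat.card f.ker :=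
    Subgroup.card_eq_card_quotient_mul_card_subgroup f.ker
  have h2 : Nat.card (H ⧸ f.ker) = Nat.card T :=
    Nat.card_congr (QuotientGroup.quotientKerEquivOfSurjective f hf).toEquiv
  have h3 : Nat.card f.ker = Nat.card K := by
    have hk : f.ker = K.subgroupOf H := by
      ext x
      rw [MonoidHom.mem_ker, Subgroup.mem_subgroupOf]
      exact hker x
    rw [hk]
    exact Nat.card_congr (Subgroup.subgroupOfEquivOfLe hKH).toEquiv
  rw [h1, h2, h3, mul_comm]

/-- Two surjective homomorphisms onto a finite rigid group, with comparable kernels and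
agreeing on preimages of the rigidifying subgroup, coincide. -/
theorem big_hom_eq {G : Type} [Group G] [Finite T] (S : Subgroup T)
    (hrigid : ∀ β : T ≃* T, (∀ s ∈ S, β s = s) → ∀ t, β t = t)
    (ψ τ : G →* T) (hψ : Function.Surjective ψ) (hτ : Function.Surjective τ)
    (hker : ∀ x, ψ x = 1 → τ x = 1)
    (hS : ∀ s ∈ S, ∃ x : G, ψ x = s ∧ τ x = s) : ∀ x, τ x = ψ x := by
  have hle : ψ.ker ≤ τ.ker := by
    intro x hx
    rw [MonoidHom.mem_ker] at hx ⊢
    exact hker x hx
  obtain ⟨βh, hβ⟩ : ∃ βh : T →* T, ∀ x, βh (ψ x) = τ x :=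
    ⟨ψ.liftOfRightInverse (Function.surjInv hψ) (Function.rightInverse_surjInv hψ) ⟨τ, hle⟩,
      fun x => ψ.liftOfRightInverse_comp_apply (Function.surjInv hψ)
        (Function.rightInverse_surjInv hψ) ⟨τ, hle⟩ x⟩
  have hsurj : Function.Surjective βh := by
    intro t
    obtain ⟨x, hx⟩ := hτ t
    exact ⟨ψ x, by rw [hβ, hx]⟩
  have hbij : Function.Bijective βh := ⟨Finite.injective_iff_surjective.mpr hsurj, hsurj⟩
  have hfix : ∀ t, (MulEquiv.ofBijective βh hbij) t = t := by
    apply hrigid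
    intro s hs
    obtain ⟨x, hx1, hx2⟩ := hS s hs
    rw [MulEquiv.ofBijective_apply, ← hx1, hβ, hx2]
    exact hx1.symm
  intro x
  have h := hfix (ψ x)
  rw [MulEquiv.ofBijective_apply, hβ] at h
  exact h

section E
variable (c : Config P T)

theorem cases_big [Finite P] [Finite T] (R N R0 : Subgroup P) (τ : R0 →* T)
    (hQR0 : c.Q ≤ R0) (hR0R : R0 ≤ R) (hNR0 : N ≤ R0)
    (hN : ∀ r ∈ R, ∀ n ∈ N, r * n * r⁻¹ ∈ N) (hR0 : ∀ r ∈ R, ∀ x ∈ R0, r * x * r⁻¹ ∈ R0)
    (hker : ∀ x : R0, τ x = 1 ↔ (x : P) ∈ N)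
    (hτQ : ∀ q : c.Q, τ (Subgroup.inclusion hQR0 q) = c.iota q)
    (hτ : Function.Surjective τ) :
    (R = c.Rw ∧ R0 = c.Rw ∧ ∀ (x : R0) (h : (x : P) ∈ c.Rw), τ x = c.psiw ⟨x, h⟩) ∨
    (R = c.Rb ∧ R0 = c.Rb ∧ ∀ (x : R0) (h : (x : P) ∈ c.Rb), τ x = c.psib ⟨x, h⟩) := by
  have hNQ : N ⊓ c.Q = ⊥ := by
    rw [eq_bot_iff]
    intro n hn
    obtain ⟨hnN, hnQ⟩ := Subgroup.mem_inf.mp hn
    rw [Subgroup.mem_bot]
    have h1 : τ (Subgroup.inclusion hQR0 ⟨n, hnQ⟩) = 1 := (hker _).mpr hnN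
    rw [hτQ] at h1
    have h2 : (⟨n, hnQ⟩ : c.Q) = 1 := c.iota_injective (by rw [h1, map_one])
    exact congrArg Subtype.val h2
  have hinv : ∀ q ∈ c.Q, ∀ n ∈ N, q * n * q⁻¹ ∈ N :=
    fun q hq n hn => hN q (hR0R (hQR0 hq)) n hn
  rcases c.sig N hinv hNQ with hN0 | hNV
  · -- the kernel is trivial
    left
    subst hN0
    have hinj : Function.Injective τ := by
      rw [injective_iff_map_eq_one]
      intro x hx
      have h1 : (x : P) ∈ (⊥ : Subgroup P) := (hker x).mp hx
      rw [Subgroup.mem_bot] at h1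
      exact Subtype.ext h1
    have hcard : Nat.card R0 = Nat.card T := Nat.card_eq_of_bijective τ ⟨hinj, hτ⟩
    have hle : R0 ≤ c.Rw := c.small R0 hQR0 hcard
    have hcardw : Nat.card c.Rw = Nat.card T := Nat.card_eq_of_bijective c.psiw c.psiw_bij
    have hR0eq : R0 = c.Rw := Subgroup.eq_of_le_of_card_ge hle (by rw [hcardw, hcard])
    subst hR0eq
    have hReq : R = c.Rw := le_antisymm (fun r hr => c.normRw r (hR0 r hr)) hR0R
    refine ⟨hReq, rfl, ?_⟩
    have key := big_hom_eq c.S c.T_rigid c.psiw τ c.psiw_bij.2 hτ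
      (by
        intro x hx
        have h1 : x = 1 := c.psiw_bij.1 (by rw [hx, map_one])
        rw [h1, map_one])
      (by
        intro s hs
        obtain ⟨q, hq⟩ := (c.iota_range s).mp hs
        exact ⟨Subgroup.inclusion c.Q_le_Rw q, by rw [c.psiw_Q, hq],
          by rw [← hq]; exact hτQ q⟩)
    intro x h
    exact key x
  · -- the kernel is `V`
    right
    subst hNV
    have hRRb : R ≤ c.Rb := fun r hr => c.normV r (hN r hr)
    have hcard : Nat.card R0 = Nat.card c.V * Nat.card T := big_card R0 c.V τ hτ hNR0 hker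
    have hcardb : Nat.card c.Rb = Nat.card c.V * Nat.card T :=
      big_card c.Rb c.V c.psib c.psib_surj c.V_le_Rb c.psib_ker
    have hR0eq : R0 = c.Rb :=
      Subgroup.eq_of_le_of_card_ge (le_trans hR0R hRRb) (by rw [hcardb, hcard])
    subst hR0eq
    have hReq : R = c.Rb := le_antisymm hRRb hR0R
    refine ⟨hReq, rfl, ?_⟩
    have key := big_hom_eq c.S c.T_rigid c.psib τ c.psib_surj hτ
      (by
        intro x hx
        exact (hker x).mpr ((c.psib_ker x).mp hx))
      (by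
        intro s hs
        obtain ⟨q, hq⟩ := (c.iota_range s).mp hs
        exact ⟨Subgroup.inclusion c.Q_le_Rb q, by rw [c.psib_Q, hq],
          by rw [← hq]; exact hτQ q⟩)
    intro x h
    exact key x
end E

end Vale.Agent.Lib.P183.Exc
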