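import Vale.Agent.Lib.P183.Exc.CfgBasic

/-!
# The case analysis when the twisting homomorphism has image in the small subgroup
-/

namespace Vale.Agent.Lib.P183.Exc

open Classical

variable {P T : Type} [Group P] [Group T]

section E
variable (c : Config P T)

/-- Every element of `R0` is the product of an element of the kernel `N` and an element
of `Q` on which `τ` takes the same value. -/
theorem small_decomp (N R0 : Subgroup P) (τ : R0 →* T) (hQR0 : c.Q ≤ R0)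
    (hker : ∀ x : R0, τ x = 1 ↔ (x : P) ∈ N)
    (hτQ : ∀ q : c.Q, τ (Subgroup.inclusion hQR0 q) = c.iota q)
    (hτS : ∀ x : R0, τ x ∈ c.S) (x : R0) :
    ∃ q : c.Q, c.iota q = τ x ∧ (x : P) * (q : P)⁻¹ ∈ N := by
  obtain ⟨q, hq⟩ := (c.iota_range (τ x)).mp (hτS x)
  refine ⟨q, hq, ?_⟩
  have h1 : τ (x * (Subgroup.inclusion hQR0 q)⁻¹) = 1 := by
    rw [map_mul, map_inv, hτQ, hq, mul_inv_cancel]
  exact (hker _).mp h1

theorem cases_small [Finite P] [Finite T] (R N R0 : Subgroup P) (τ : R0 →* T)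
    (hQR0 : c.Q ≤ R0) (hR0R : R0 ≤ R) (hNR0 : N ≤ R0)
    (hN : ∀ r ∈ R, ∀ n ∈ N, r * n * r⁻¹ ∈ N) (hR0 : ∀ r ∈ R, ∀ x ∈ R0, r * x * r⁻¹ ∈ R0)
    (hker : ∀ x : R0, τ x = 1 ↔ (x : P) ∈ N)
    (hτQ : ∀ q : c.Q, τ (Subgroup.inclusion hQR0 q) = c.iota q)
    (hτS : ∀ x : R0, τ x ∈ c.S) :
    R = c.Q ∨ (R = c.Rc ∧ R0 = c.Rc ∧ ∀ (x : R0) (h : (x : P) ∈ c.Rc), τ x = c.psic ⟨x, h⟩) := by
  have hNQ : N ⊓ c.Q = ⊥ := by
    rw [eq_bot_iff]
    rintro x ⟨hxN, hxQ⟩
    have h1 : τ (Subgroup.inclusion hQR0 ⟨x, hxQ⟩) = 1 := (hker _).mpr hxN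
    rw [hτQ] at h1
    have h2 : (⟨x, hxQ⟩ : c.Q) = 1 := c.iota_injective (by rw [h1, map_one])
    have h3 : x = 1 := congrArg Subtype.val h2
    rw [Subgroup.mem_bot]
    exact h3
  have hNinv : ∀ q ∈ c.Q, ∀ n ∈ N, q * n * q⁻¹ ∈ N :=
    fun q hq n hn => hN q (hR0R (hQR0 hq)) n hn
  have hdec := small_decomp c N R0 τ hQR0 hker hτQ hτS
  rcases c.sig N hNinv hNQ with hbot | hV
  · left
    have hR0Q : R0 ≤ c.Q := by
      intro x hx
      obtain ⟨q, -, hq⟩ := hdec ⟨x, hx⟩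
      rw [hbot, Subgroup.mem_bot] at hq
      have hxq : x = (q : P) := mul_inv_eq_one.mp hq
      rw [hxq]
      exact q.2
    apply le_antisymm
    · intro r hr
      apply c.normQ
      intro q hq
      exact hR0Q (hR0 r hr q (hQR0 hq))
    · exact le_trans hQR0 hR0R
  · right
    have hR0Rc : R0 = c.Rc := by
      apply le_antisymm
      · intro x hx
        obtain ⟨q, -, hq⟩ := hdec ⟨x, hx⟩
        rw [hV] at hq
        have h1 : x = (x * (q : P)⁻¹) * (q : P) := by group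
        rw [h1]
        exact c.Rc.mul_mem (c.V_le_Rc hq) (c.Q_le_Rc q.2)
      · intro x hx
        obtain ⟨hxb, hxS⟩ := c.mem_Rc.mp hx
        obtain ⟨q, hq⟩ := (c.iota_range _).mp hxS
        have h1 : c.psib (⟨x, hxb⟩ * (Subgroup.inclusion c.Q_le_Rb q)⁻¹) = 1 := by
          rw [map_mul, map_inv, c.psib_Q, hq, mul_inv_cancel]
        have h2 : x * (q : P)⁻¹ ∈ c.V := (c.psib_ker _).mp h1
        have h2' : x * (q : P)⁻¹ ∈ N := by
          rw [hV]
          exact h2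
        have h3 : x = (x * (q : P)⁻¹) * (q : P) := by group
        rw [h3]
        exact R0.mul_mem (hNR0 h2') (hQR0 q.2)
    have hRRc : R = c.Rc := by
      apply le_antisymm
      · intro r hr
        have hrb : r ∈ c.Rb := by
          apply c.normV
          intro v hv
          have hvN : v ∈ N := by
            rw [hV]
            exact hv
          have h1 := hN r hr v hvN
          rw [hV] at h1
          exact h1
        rw [c.mem_Rc]
        refine ⟨hrb, ?_⟩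
        apply c.S_normalizer
        intro s hs
        obtain ⟨q, hq⟩ := (c.iota_range s).mp hs
        have hmem : r * (q : P) * r⁻¹ ∈ c.Rc := by
          rw [← hR0Rc]
          exact hR0 r hr q (hQR0 q.2)
        obtain ⟨hb, hS⟩ := c.mem_Rc.mp hmem
        have he : (⟨r * (q : P) * r⁻¹, hb⟩ : c.Rb)
            = ⟨r, hrb⟩ * Subgroup.inclusion c.Q_le_Rb q * (⟨r, hrb⟩ : c.Rb)⁻¹ :=
          Subtype.ext rfl
        have heq : c.psib ⟨r * (q : P) * r⁻¹, hb⟩
            = c.psib ⟨r, hrb⟩ * s * (c.psib ⟨r, hrb⟩)⁻¹ := by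
          rw [he, map_mul, map_mul, map_inv, c.psib_Q, hq]
        rw [← heq]
        exact hS
      · rw [← hR0Rc]
        exact hR0R
    refine ⟨hRRc, hR0Rc, ?_⟩
    intro x h
    obtain ⟨q, hq, hqN⟩ := hdec x
    rw [hV] at hqN
    rw [← hq]
    have hxb : (x : P) ∈ c.Rb := c.Rc_le h
    have h1 : c.psic ⟨x, h⟩ = c.psib ⟨x, hxb⟩ := rfl
    have hvb : (x : P) * (q : P)⁻¹ ∈ c.Rb := c.V_le_Rb hqN
    have h2 : (⟨x, hxb⟩ : c.Rb)
        = ⟨(x : P) * (q : P)⁻¹, hvb⟩ * Subgroup.inclusion c.Q_le_Rb q := by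
      apply Subtype.ext
      show (x : P) = (x : P) * (q : P)⁻¹ * (q : P)
      group
    have h3 : c.psib ⟨(x : P) * (q : P)⁻¹, hvb⟩ = 1 := (c.psib_ker _).mpr hqN
    rw [h1, h2, map_mul, c.psib_Q, h3, one_mul]

end E

end Vale.Agent.Lib.P183.Exc
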