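import Vale.Agent.Lib.P183.Exc.Defs

/-!
# Elementary consequences of the configuration axioms
-/

namespace Vale.Agent.Lib.P183.Exc

open Classical

variable {P T : Type} [Group P] [Group T]

section E
variable (c : Config P T)

theorem Config.iota_injective : Function.Injective c.iota := by
  intro q1 q2 h
  have h' : c.psiw (Subgroup.inclusion c.Q_le_Rw q1)
      = c.psiw (Subgroup.inclusion c.Q_le_Rw q2) := by
    rw [c.psiw_Q, c.psiw_Q, h]
  exact Subgroup.inclusion_injective c.Q_le_Rw (c.psiw_bij.1 h')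

theorem Config.mem_Rc {x : P} : x ∈ c.Rc ↔ ∃ h : x ∈ c.Rb, c.psib ⟨x, h⟩ ∈ c.S := by
  constructor
  · rintro ⟨y, hy, rfl⟩
    exact ⟨y.2, hy⟩
  · rintro ⟨h, hS⟩
    exact ⟨⟨x, h⟩, hS, rfl⟩

theorem Config.Q_le_Rc : c.Q ≤ c.Rc := by
  intro x hx
  rw [c.mem_Rc]
  refine ⟨c.Q_le_Rb hx, ?_⟩
  exact (c.iota_range _).mpr ⟨⟨x, hx⟩, (c.psib_Q ⟨x, hx⟩).symm⟩

theorem Config.V_le_Rc : c.V ≤ c.Rc := by
  intro x hx
  rw [c.mem_Rc]
  refine ⟨c.V_le_Rb hx, ?_⟩
  have h1 : c.psib ⟨x, c.V_le_Rb hx⟩ = 1 := (c.psib_ker _).mpr hx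
  rw [h1]
  exact c.S.one_mem

theorem Config.psic_Q (q : c.Q) : c.psic (Subgroup.inclusion c.Q_le_Rc q) = c.iota q :=
  c.psib_Q q

theorem Config.V_inf_Q : c.V ⊓ c.Q = ⊥ := by
  rw [eq_bot_iff]
  intro x hx
  obtain ⟨hV, hQ⟩ := Subgroup.mem_inf.mp hx
  rw [Subgroup.mem_bot]
  have h1 : c.psib ⟨x, c.V_le_Rb hV⟩ = 1 := (c.psib_ker _).mpr hV
  have h2 : c.psib ⟨x, c.Q_le_Rb hQ⟩ = c.iota ⟨x, hQ⟩ := c.psib_Q ⟨x, hQ⟩
  have h3 : c.iota ⟨x, hQ⟩ = 1 := by
    rw [← h2]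
    exact h1
  have h4 : (⟨x, hQ⟩ : c.Q) = 1 := c.iota_injective (by rw [h3, map_one])
  exact congrArg Subtype.val h4

theorem Config.V_ne_bot : c.V ≠ ⊥ := by
  intro h
  apply c.V_not_le
  rw [h]
  exact bot_le

theorem Config.S_center : ∀ t ∈ c.S, (∀ x ∈ c.S, t * x = x * t) → t = 1 := by
  intro t ht hcomm
  obtain ⟨N, hNdef⟩ : ∃ N : Subgroup T, N = c.S ⊓ Subgroup.centralizer (c.S : Set T) :=
    ⟨_, rfl⟩
  have hmem : ∀ n : T, n ∈ N ↔ n ∈ c.S ∧ ∀ s ∈ c.S, s * n = n * s := by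
    intro n
    rw [hNdef, Subgroup.mem_inf, Subgroup.mem_centralizer_iff]
    rfl
  have hN : N ≤ c.S := fun n hn => ((hmem n).mp hn).1
  have hinv : ∀ s ∈ c.S, ∀ n ∈ N, s * n * s⁻¹ ∈ N := by
    intro s hs n hn
    have hc : s * n = n * s := ((hmem n).mp hn).2 s hs
    have e : s * n * s⁻¹ = n := by rw [hc, mul_inv_cancel_right]
    rw [e]
    exact hn
  have htN : t ∈ N := (hmem t).mpr ⟨ht, fun x hx => (hcomm x hx).symm⟩
  rcases c.S_simple N hN hinv with h | h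
  · rw [h] at htN
    exact Subgroup.mem_bot.mp htN
  · exfalso
    obtain ⟨a, ha, b, hb, hab⟩ := c.S_noncomm
    have hbN : b ∈ N := by
      rw [h]
      exact hb
    exact hab (((hmem b).mp hbN).2 a ha)

include c in
theorem Config.T_center : ∀ t : T, (∀ x : T, t * x = x * t) → t = 1 := by
  intro t ht
  have hn : (Subgroup.center T).Normal := inferInstance
  have ht' : t ∈ Subgroup.center T := Subgroup.mem_center_iff.mpr (fun g => (ht g).symm)
  rcases c.T_simple _ hn with h | h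
  · rw [h] at ht'
    exact Subgroup.mem_bot.mp ht'
  · exfalso
    obtain ⟨a, _, b, _, hab⟩ := c.S_noncomm
    have hb' : b ∈ Subgroup.center T := by
      rw [h]
      exact Subgroup.mem_top b
    exact hab (Subgroup.mem_center_iff.mp hb' a)

theorem Config.S_normalizer [Finite T] : ∀ t : T, (∀ s ∈ c.S, t * s * t⁻¹ ∈ c.S) → t ∈ c.S := by
  intro t ht
  have hfin : Finite (c.S : Set T) := inferInstance
  have htK : t ∈ Subgroup.normalizer (c.S : Set T) := Subgroup.mem_normalizer_fintype ht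
  rcases c.S_max _ Subgroup.le_normalizer with h | h
  · rw [h] at htK
    exact htK
  · exfalso
    have hnorm : c.S.Normal := Subgroup.normalizer_eq_top_iff.mp h
    rcases c.T_simple _ hnorm with h2 | h2
    · obtain ⟨a, ha, b, hb, hab⟩ := c.S_noncomm
      rw [h2] at ha hb
      rw [Subgroup.mem_bot.mp ha, Subgroup.mem_bot.mp hb] at hab
      exact hab rfl
    · exact c.S_ne_top h2

theorem Config.S_core : ∀ t : T, (∀ u : T, u * t * u⁻¹ ∈ c.S) → t = 1 := by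
  intro t ht
  have hn : c.S.normalCore.Normal := inferInstance
  have ht' : t ∈ c.S.normalCore := ht
  rcases c.T_simple _ hn with h | h
  · rw [h] at ht'
    exact Subgroup.mem_bot.mp ht'
  · exfalso
    apply c.S_ne_top
    rw [eq_top_iff, ← h]
    exact Subgroup.normalCore_le c.S

end E

end Vale.Agent.Lib.P183.Exc
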