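import Vale.Agent.Lib.P183.Exc.Defs

/-!
# Functions supported on a single coset
-/

namespace Vale.Agent.Lib.P183.Exc

open Classical

variable {P T : Type} [Group P] [Group T]

section B2
variable {Q : Subgroup P} {ι : Q →* T} {Y : Subgroup (P → T)}

/-- the value of a delta function at a point of `Q` -/
theorem delta_apply_of_mem (t : T) {p : P} (hp : p ∈ Q) :
    delta Q ι t p = (ι ⟨p, hp⟩)⁻¹ * t * ι ⟨p, hp⟩ := dif_pos hp

/-- the value of a function of the base group at a point of `Q` -/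
theorem delta_base_apply {f : P → T} (hf : f ∈ base Q ι) {p : P} (hp : p ∈ Q) :
    f p = (ι ⟨p, hp⟩)⁻¹ * f 1 * ι ⟨p, hp⟩ := by
  have h : f (1 * p) = (ι ⟨p, hp⟩)⁻¹ * f 1 * ι ⟨p, hp⟩ := hf 1 ⟨p, hp⟩
  rw [one_mul] at h
  exact h

theorem delta_mem_base (t : T) : delta Q ι t ∈ base Q ι := by
  show ∀ (p : P) (q : Q), delta Q ι t (p * q) = (ι q)⁻¹ * delta Q ι t p * ι q
  intro p q
  by_cases hp : p ∈ Q
  · have hpq : p * (q : P) ∈ Q := Q.mul_mem hp q.2
    have e : (⟨p * (q : P), hpq⟩ : Q) = ⟨p, hp⟩ * q := rfl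
    rw [delta_apply_of_mem t hpq, delta_apply_of_mem t hp, e, map_mul]
    group
  · have hpq : p * (q : P) ∉ Q := by
      intro h
      apply hp
      have h2 := Q.mul_mem h (Q.inv_mem q.2)
      rwa [mul_inv_cancel_right] at h2
    have e1 : delta Q ι t (p * (q : P)) = 1 := dif_neg hpq
    have e2 : delta Q ι t p = 1 := dif_neg hp
    rw [e1, e2]
    group

theorem delta_apply_one (t : T) : delta Q ι t 1 = t := by
  rw [delta_apply_of_mem t Q.one_mem]
  have e : (⟨1, Q.one_mem⟩ : Q) = 1 := rfl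
  rw [e, map_one, inv_one, one_mul, mul_one]

theorem delta_apply_of_not_mem (t : T) {p : P} (hp : p ∉ Q) : delta Q ι t p = 1 := dif_neg hp

theorem delta_mul (s t : T) : delta Q ι (s * t) = delta Q ι s * delta Q ι t := by
  funext p
  by_cases hp : p ∈ Q
  · rw [Pi.mul_apply, delta_apply_of_mem _ hp, delta_apply_of_mem _ hp,
      delta_apply_of_mem _ hp]
    group
  · rw [Pi.mul_apply, delta_apply_of_not_mem _ hp, delta_apply_of_not_mem _ hp,
      delta_apply_of_not_mem _ hp, one_mul]

theorem delta_one : delta Q ι (1 : T) = 1 := by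
  funext p
  by_cases hp : p ∈ Q
  · rw [delta_apply_of_mem _ hp, Pi.one_apply]
    group
  · rw [delta_apply_of_not_mem _ hp, Pi.one_apply]

theorem delta_inv (t : T) : delta Q ι t⁻¹ = (delta Q ι t)⁻¹ := by
  funext p
  by_cases hp : p ∈ Q
  · rw [Pi.inv_apply, delta_apply_of_mem _ hp, delta_apply_of_mem _ hp]
    group
  · rw [Pi.inv_apply, delta_apply_of_not_mem _ hp, delta_apply_of_not_mem _ hp, inv_one]

theorem delta_conj_mem (hY : IsAdm Q ι Y) {f : P → T} (hf : f ∈ Y) {t : T}
    (ht : delta Q ι t ∈ Y) : delta Q ι (f 1 * t * (f 1)⁻¹) ∈ Y := by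
  have hfb : f ∈ base Q ι := hY.1 hf
  have e : delta Q ι (f 1 * t * (f 1)⁻¹) = f * delta Q ι t * f⁻¹ := by
    funext p
    by_cases hp : p ∈ Q
    · rw [Pi.mul_apply, Pi.mul_apply, Pi.inv_apply, delta_apply_of_mem _ hp,
        delta_apply_of_mem _ hp, delta_base_apply hfb hp]
      group
    · rw [Pi.mul_apply, Pi.mul_apply, Pi.inv_apply, delta_apply_of_not_mem _ hp,
        delta_apply_of_not_mem _ hp]
      group
  rw [e]
  exact Y.mul_mem (Y.mul_mem hf ht) (Y.inv_mem hf)

theorem delta_shift (q : Q) (t : T) :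
    shift (q : P) (delta Q ι t) = delta Q ι (ι q * t * (ι q)⁻¹) := by
  funext p
  show delta Q ι t ((q : P)⁻¹ * p) = delta Q ι (ι q * t * (ι q)⁻¹) p
  by_cases hp : p ∈ Q
  · have hqp : (q : P)⁻¹ * p ∈ Q := Q.mul_mem (Q.inv_mem q.2) hp
    have e : (⟨(q : P)⁻¹ * p, hqp⟩ : Q) = q⁻¹ * ⟨p, hp⟩ := rfl
    rw [delta_apply_of_mem _ hqp, delta_apply_of_mem _ hp, e, map_mul, map_inv]
    group
  · have hqp : (q : P)⁻¹ * p ∉ Q := by
      intro h
      apply hp
      have h2 := Q.mul_mem q.2 h
      rwa [mul_inv_cancel_left] at h2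
    rw [delta_apply_of_not_mem _ hqp, delta_apply_of_not_mem _ hp]

/-- a function of the base group supported on `Q` is a delta function -/
theorem eq_delta_of_support {f : P → T} (hf : f ∈ base Q ι) (h : ∀ p, p ∉ Q → f p = 1) :
    f = delta Q ι (f 1) := by
  funext p
  by_cases hp : p ∈ Q
  · rw [delta_apply_of_mem _ hp]
    exact delta_base_apply hf hp
  · rw [delta_apply_of_not_mem _ hp]
    exact h p hp

/-- the translate by `p` of the delta function with value `g p` agrees with `g` on the coset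
of `p` and is trivial elsewhere -/
theorem delta_shift_apply {g : P → T} (hg : g ∈ base Q ι) (p x : P) :
    shift p (delta Q ι (g p)) x = if p⁻¹ * x ∈ Q then g x else 1 := by
  show delta Q ι (g p) (p⁻¹ * x) = _
  by_cases hq : p⁻¹ * x ∈ Q
  · rw [if_pos hq, delta_apply_of_mem _ hq]
    have h' : g (p * (p⁻¹ * x)) = (ι ⟨p⁻¹ * x, hq⟩)⁻¹ * g p * ι ⟨p⁻¹ * x, hq⟩ :=
      hg p ⟨p⁻¹ * x, hq⟩
    rw [mul_inv_cancel_left] at h'
    exact h'.symm
  · rw [if_neg hq, delta_apply_of_not_mem _ hq]

theorem vals_le_of_delta [Finite P] (hY : IsAdm Q ι Y) (X : Subgroup T)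
    (h : ∀ t ∈ X, delta Q ι t ∈ Y) : vals Q ι X ≤ Y := by
  have key : ∀ n : ℕ, ∀ g : P → T, g ∈ vals Q ι X →
      Set.ncard {p | g p ≠ 1} = n → g ∈ Y := by
    intro n
    induction n using Nat.strong_induction_on with
    | _ n ih =>
      intro g hg hn
      by_cases hall : ∀ p, g p = 1
      · have e : g = 1 := funext hall
        rw [e]
        exact Y.one_mem
      · push Not at hall
        obtain ⟨p, hp⟩ := hall
        have hg2 : g ∈ base Q ι ∧ ∀ x, g x ∈ X := hg
        have hgb : g ∈ base Q ι := hg2.1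
        have hgX : ∀ x, g x ∈ X := hg2.2
        obtain ⟨k, hk⟩ : ∃ k : P → T, k = shift p (delta Q ι (g p)) := ⟨_, rfl⟩
        have hkY : k ∈ Y := by
          rw [hk]
          exact hY.2 p _ (h _ (hgX p))
        have hkval : ∀ x, k x = if p⁻¹ * x ∈ Q then g x else 1 := by
          intro x
          rw [hk]
          exact delta_shift_apply hgb p x
        have hval : ∀ x, (g * k⁻¹) x = if p⁻¹ * x ∈ Q then 1 else g x := by
          intro x
          rw [Pi.mul_apply, Pi.inv_apply, hkval x]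
          by_cases hq : p⁻¹ * x ∈ Q
          · rw [if_pos hq, if_pos hq, mul_inv_cancel]
          · rw [if_neg hq, if_neg hq, inv_one, mul_one]
        have hg' : g * k⁻¹ ∈ vals Q ι X := by
          show g * k⁻¹ ∈ base Q ι ∧ ∀ x, (g * k⁻¹) x ∈ X
          refine ⟨(base Q ι).mul_mem hgb ((base Q ι).inv_mem (hY.1 hkY)), fun x => ?_⟩
          rw [hval x]
          split_ifs
          · exact X.one_mem
          · exact hgX x
        have hlt : Set.ncard {x | (g * k⁻¹) x ≠ 1} < n := by
          rw [← hn]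
          apply Set.ncard_lt_ncard _ (Set.toFinite _)
          refine ⟨?_, ?_⟩
          · intro x hx
            have hx' : (g * k⁻¹) x ≠ 1 := hx
            rw [hval x] at hx'
            by_cases hq : p⁻¹ * x ∈ Q
            · rw [if_pos hq] at hx'
              exact absurd rfl hx'
            · rw [if_neg hq] at hx'
              exact hx'
          · intro hsub
            have hp' : (g * k⁻¹) p ≠ 1 := hsub hp
            have h1Q : p⁻¹ * p ∈ Q := by
              rw [inv_mul_cancel]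
              exact Q.one_mem
            rw [hval p, if_pos h1Q] at hp'
            exact hp' rfl
        have h1 := ih _ hlt _ hg' rfl
        have e : g = (g * k⁻¹) * k := by
          rw [inv_mul_cancel_right]
        rw [e]
        exact Y.mul_mem h1 hkY
  intro g hg
  exact key _ g hg rfl

theorem eq_vals_of_delta [Finite P] (hY : IsAdm Q ι Y)
    (h : ∀ t ∈ valsOf Y, delta Q ι t ∈ Y) : Y = vals Q ι (valsOf Y) := by
  apply le_antisymm
  · intro f hf
    show f ∈ base Q ι ∧ ∀ p, f p ∈ valsOf Y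
    refine ⟨hY.1 hf, fun p => ?_⟩
    refine Subgroup.mem_map.mpr ⟨shift p⁻¹ f, hY.2 _ f hf, ?_⟩
    show f ((p⁻¹)⁻¹ * 1) = f p
    rw [inv_inv, mul_one]
  · exact vals_le_of_delta hY (valsOf Y) h
end B2

end Vale.Agent.Lib.P183.Exc
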