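import Vale.Agent.Lib.P183.Exc.Defs

/-!
# The fixed subgroup of an admissible subgroup
-/

namespace Vale.Agent.Lib.P183.Exc

open Classical

variable {P T : Type} [Group P] [Group T]

section D2
variable {Q : Subgroup P} {ι : Q →* T} {Y : Subgroup (P → T)}

omit [Group T] in
private lemma fix_shift_apply (x p : P) (f : P → T) : shift x⁻¹ f p = f (x * p) := by
  unfold shift
  rw [inv_inv]

theorem one_mem_fixSet : (1 : P) ∈ fixSet Y := fun _ _ => rfl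

theorem mul_mem_fixSet (hY : IsAdm Q ι Y) {r s : P} (hr : r ∈ fixSet Y) (hs : s ∈ fixSet Y) :
    r * s ∈ fixSet Y := by
  intro f hf
  have hg : shift r⁻¹ f ∈ Y := hY.2 r⁻¹ f hf
  have h1 := hs (shift r⁻¹ f) hg
  rw [fix_shift_apply, fix_shift_apply, mul_one] at h1
  rw [h1]
  exact hr f hf

theorem inv_mem_fixSet (hY : IsAdm Q ι Y) {r : P} (hr : r ∈ fixSet Y) : r⁻¹ ∈ fixSet Y := by
  intro f hf
  have hg : shift r f ∈ Y := hY.2 r f hf
  have h1 := hr (shift r f) hg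
  unfold shift at h1
  rw [inv_mul_cancel, mul_one] at h1
  exact h1.symm

theorem fixSet_subset_blockSet {r : P} (hr : r ∈ fixSet Y) : r ∈ blockSet Y := by
  intro f hf h1
  rw [hr f hf, h1]

theorem conj_mem_fixSet (hY : IsAdm Q ι Y) {r n : P} (hr : r⁻¹ ∈ blockSet Y)
    (hn : n ∈ fixSet Y) : r * n * r⁻¹ ∈ fixSet Y := by
  intro f hf
  have hh : shift r⁻¹ f ∈ Y := hY.2 _ f hf
  have hh' : shift (r * n)⁻¹ f ∈ Y := hY.2 _ f hf
  have e1 : shift (r * n)⁻¹ f 1 = shift r⁻¹ f 1 := by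
    have h0 := hn (shift r⁻¹ f) hh
    rw [fix_shift_apply, fix_shift_apply, mul_one] at h0
    rw [fix_shift_apply, fix_shift_apply, mul_one, mul_one]
    exact h0
  have hk : shift (r * n)⁻¹ f * (shift r⁻¹ f)⁻¹ ∈ Y := Y.mul_mem hh' (Y.inv_mem hh)
  have hk1 : (shift (r * n)⁻¹ f * (shift r⁻¹ f)⁻¹) 1 = 1 := by
    rw [Pi.mul_apply, Pi.inv_apply, e1, mul_inv_cancel]
  have h2 := hr _ hk hk1
  rw [Pi.mul_apply, Pi.inv_apply] at h2
  have h3 : shift (r * n)⁻¹ f r⁻¹ = shift r⁻¹ f r⁻¹ := mul_inv_eq_one.mp h2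
  rw [fix_shift_apply, fix_shift_apply, mul_inv_cancel] at h3
  exact h3

theorem eq_one_of_mem_fixSet
    (hcent : ∀ q : Q, (∀ t ∈ valsOf Y, ι q * t = t * ι q) → q = 1) (q : Q)
    (hq : (q : P) ∈ fixSet Y) (hY : IsAdm Q ι Y) : q = 1 := by
  apply hcent q
  intro t ht
  obtain ⟨f, hf, rfl⟩ := ht
  have hb : ∀ (p : P) (q : Q), f (p * q) = (ι q)⁻¹ * f p * ι q := hY.1 hf
  have h1 := hb 1 q
  have h2 := hq f hf
  rw [one_mul, h2] at h1
  change ι q * f 1 = f 1 * ι q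
  have h3 : ι q * f 1 = ι q * ((ι q)⁻¹ * f 1 * ι q) := congrArg (fun z => ι q * z) h1
  rw [h3]
  group

/-- the fixed subgroup of `Y` -/
def fixOf (Y : Subgroup (P → T)) (hY : IsAdm Q ι Y) : Subgroup P where
  carrier := fixSet Y
  one_mem' := one_mem_fixSet
  mul_mem' := fun hr hs => mul_mem_fixSet hY hr hs
  inv_mem' := fun hr => inv_mem_fixSet hY hr
end D2

end Vale.Agent.Lib.P183.Exc
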