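import Vale.Agent.Lib.P183.Exc.Defs

/-!
# Identification of a diagonal subgroup
-/

namespace Vale.Agent.Lib.P183.Exc

open Classical

variable {P T : Type} [Group P] [Group T]

section D5
variable {Q : Subgroup P} {ι : Q →* T} {Y : Subgroup (P → T)}

/-- An admissible subgroup with a twisting law along `R` lies in the diagonal subgroup. -/
theorem ident_le (hY : IsAdm Q ι Y) (R : Subgroup P) (ψ : R →* T)
    (h1 : ∀ f ∈ Y, ∀ r : R, f (r : P) = (ψ r)⁻¹ * f 1 * ψ r) :
    Y ≤ diag Q ι R ψ (valsOf Y) := by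
  intro f hf
  have hshift : ∀ p : P, shift p⁻¹ f ∈ Y := fun p => hY.2 p⁻¹ f hf
  have hval : ∀ p : P, shift p⁻¹ f 1 = f p := by
    intro p
    simp [shift]
  refine ⟨hY.1 hf, fun p => ?_, fun p r => ?_⟩
  · exact Subgroup.mem_map.mpr ⟨shift p⁻¹ f, hshift p, hval p⟩
  · have h := h1 (shift p⁻¹ f) (hshift p) r
    simp only [shift, inv_inv, mul_one] at h
    exact h

theorem eq_diag [Finite P] (hY : IsAdm Q ι Y) (R : Subgroup P) (ψ : R →* T)
    (h1 : ∀ f ∈ Y, ∀ r : R, f (r : P) = (ψ r)⁻¹ * f 1 * ψ r)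
    (h2 : ∀ x ∈ valsOf Y, ∃ f ∈ Y, f 1 = x ∧ ∀ p, p ∉ R → f p = 1) :
    Y = diag Q ι R ψ (valsOf Y) := by
  have hle := ident_le hY R ψ h1
  refine le_antisymm hle ?_
  have : Fintype P := Fintype.ofFinite P
  have key : ∀ n : ℕ, ∀ g : P → T, g ∈ diag Q ι R ψ (valsOf Y) →
      (Finset.univ.filter (fun p => g p ≠ 1)).card = n → g ∈ Y := by
    intro n
    induction n using Nat.strong_induction_on with
    | _ n ih =>
      intro g hg hn
      by_cases hg1 : ∀ p, g p = 1
      · have hone : g = 1 := funext hg1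
        rw [hone]
        exact Y.one_mem
      · push Not at hg1
        obtain ⟨p, hp⟩ := hg1
        obtain ⟨f, hfY, hf1, hfR⟩ := h2 (g p) (hg.2.1 p)
        have hhY : shift p f ∈ Y := hY.2 p f hfY
        have hhD : shift p f ∈ diag Q ι R ψ (valsOf Y) := hle hhY
        have hh_on : ∀ x : P, p⁻¹ * x ∈ R → shift p f x = g x := by
          intro x hx
          have e1 : shift p f x = f ((⟨p⁻¹ * x, hx⟩ : R) : P) := rfl
          have e2 : g x = g (p * ((⟨p⁻¹ * x, hx⟩ : R) : P)) := by
            simp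
          rw [e1, e2, h1 f hfY ⟨p⁻¹ * x, hx⟩, hf1, hg.2.2 p ⟨p⁻¹ * x, hx⟩]
        have hh_off : ∀ x : P, p⁻¹ * x ∉ R → shift p f x = 1 := fun x hx => hfR _ hx
        have hg'D : g * (shift p f)⁻¹ ∈ diag Q ι R ψ (valsOf Y) :=
          (diag Q ι R ψ (valsOf Y)).mul_mem hg ((diag Q ι R ψ (valsOf Y)).inv_mem hhD)
        have hval_on : ∀ x : P, p⁻¹ * x ∈ R → (g * (shift p f)⁻¹) x = 1 := by
          intro x hx
          rw [Pi.mul_apply, Pi.inv_apply, hh_on x hx, mul_inv_cancel]
        have hval_off : ∀ x : P, p⁻¹ * x ∉ R → (g * (shift p f)⁻¹) x = g x := by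
          intro x hx
          rw [Pi.mul_apply, Pi.inv_apply, hh_off x hx, inv_one, mul_one]
        have hpR : p⁻¹ * p ∈ R := by
          rw [inv_mul_cancel]
          exact R.one_mem
        have hsub : Finset.univ.filter (fun x => (g * (shift p f)⁻¹) x ≠ 1)
            ⊂ Finset.univ.filter (fun x => g x ≠ 1) := by
          refine ⟨fun x hx => ?_, fun hsup => ?_⟩
          · rw [Finset.mem_filter] at hx ⊢
            refine ⟨Finset.mem_univ x, ?_⟩
            by_cases hxR : p⁻¹ * x ∈ R
            · exact absurd (hval_on x hxR) hx.2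
            · rw [← hval_off x hxR]
              exact hx.2
          · have hpmem : p ∈ Finset.univ.filter (fun x => g x ≠ 1) :=
              Finset.mem_filter.mpr ⟨Finset.mem_univ p, hp⟩
            have h3 := (Finset.mem_filter.mp (hsup hpmem)).2
            exact h3 (hval_on p hpR)
        have hlt : (Finset.univ.filter (fun x => (g * (shift p f)⁻¹) x ≠ 1)).card < n := by
          rw [← hn]
          exact Finset.card_lt_card hsub
        have hg'Y := ih _ hlt (g * (shift p f)⁻¹) hg'D rfl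
        have hsplit : g = (g * (shift p f)⁻¹) * shift p f := by
          rw [inv_mul_cancel_right]
        rw [hsplit]
        exact Y.mul_mem hg'Y hhY
  intro g hg
  exact key _ g hg rfl
end D5

end Vale.Agent.Lib.P183.Exc
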