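import Vale.Agent.Lib.P183.Exc.Defs

/-!
# The inner subgroup of an admissible subgroup
-/

namespace Vale.Agent.Lib.P183.Exc

open Classical

variable {P T : Type} [Group P] [Group T]

omit [Group T] in
theorem inner_shift_apply (x : P) (f : P → T) (p : P) : shift x⁻¹ f p = f (x * p) := by
  simp [shift]

theorem inner_mem_valsOf {Y : Subgroup (P → T)} {t : T} :
    t ∈ valsOf Y ↔ ∃ f ∈ Y, f 1 = t := by
  unfold valsOf
  rw [Subgroup.mem_map]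
  rfl

section D3
variable {Q : Subgroup P} {ι : Q →* T} {Y : Subgroup (P → T)}

theorem rel_one : Rel Y (1 : P) (1 : T) := by
  intro f _
  simp

theorem rel_mul (hY : IsAdm Q ι Y) {r s : P} {t u : T} (hr : Rel Y r t) (hs : Rel Y s u) :
    Rel Y (r * s) (t * u) := by
  intro f hf
  have hg : shift r⁻¹ f ∈ Y := hY.2 r⁻¹ f hf
  have h1 := hs (shift r⁻¹ f) hg
  rw [inner_shift_apply, inner_shift_apply, mul_one, hr f hf] at h1
  rw [h1]
  group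

theorem rel_inv (hY : IsAdm Q ι Y) {r : P} {t : T} (hr : Rel Y r t) : Rel Y r⁻¹ t⁻¹ := by
  intro f hf
  have hg : shift r f ∈ Y := hY.2 r f hf
  have h1 := hr (shift r f) hg
  simp only [shift, inv_mul_cancel, mul_one] at h1
  rw [h1]
  group

theorem rel_subgroup (hY : IsAdm Q ι Y) (q : Q) : Rel Y (q : P) (ι q) := by
  intro f hf
  have hb : ∀ (p : P) (q : Q), f (p * q) = (ι q)⁻¹ * f p * ι q := hY.1 hf
  have h := hb 1 q
  rw [one_mul] at h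
  exact h

theorem rel_unique (hcen : ∀ t ∈ valsOf Y, (∀ x ∈ valsOf Y, t * x = x * t) → t = 1)
    {r : P} {t u : T} (ht : t ∈ valsOf Y) (hu : u ∈ valsOf Y) (h1 : Rel Y r t)
    (h2 : Rel Y r u) : t = u := by
  have hz : u * t⁻¹ = 1 := by
    apply hcen _ (Subgroup.mul_mem _ hu (Subgroup.inv_mem _ ht))
    intro x hx
    obtain ⟨f, hf, rfl⟩ := inner_mem_valsOf.mp hx
    have e3 : t⁻¹ * f 1 * t = u⁻¹ * f 1 * u := (h1 f hf).symm.trans (h2 f hf)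
    calc u * t⁻¹ * f 1 = u * (t⁻¹ * f 1 * t) * t⁻¹ := by group
      _ = u * (u⁻¹ * f 1 * u) * t⁻¹ := by rw [e3]
      _ = f 1 * (u * t⁻¹) := by group
  exact (mul_inv_eq_one.mp hz).symm

theorem rel_one_iff {r : P} : Rel Y r 1 ↔ r ∈ fixSet Y := by
  constructor
  · intro h
    show ∀ f ∈ Y, f r = f 1
    intro f hf
    have h1 := h f hf
    rw [inv_one, one_mul, mul_one] at h1
    exact h1
  · intro h f hf
    have h1 : ∀ f ∈ Y, f r = f 1 := h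
    rw [inv_one, one_mul, mul_one]
    exact h1 f hf

theorem one_mem_innSet : (1 : P) ∈ innSet Y :=
  ⟨1, Subgroup.one_mem _, rel_one⟩

theorem mul_mem_innSet (hY : IsAdm Q ι Y) {r s : P} (hr : r ∈ innSet Y) (hs : s ∈ innSet Y) :
    r * s ∈ innSet Y := by
  obtain ⟨t, ht, hrt⟩ := hr
  obtain ⟨u, hu, hsu⟩ := hs
  exact ⟨t * u, Subgroup.mul_mem _ ht hu, rel_mul hY hrt hsu⟩

theorem inv_mem_innSet (hY : IsAdm Q ι Y) {r : P} (hr : r ∈ innSet Y) : r⁻¹ ∈ innSet Y := by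
  obtain ⟨t, ht, hrt⟩ := hr
  exact ⟨t⁻¹, Subgroup.inv_mem _ ht, rel_inv hY hrt⟩

theorem innSet_subset_blockSet {r : P} (hr : r ∈ innSet Y) : r ∈ blockSet Y := by
  obtain ⟨t, _, hrt⟩ := hr
  show ∀ f ∈ Y, f 1 = 1 → f r = 1
  intro f hf h1
  rw [hrt f hf, h1, mul_one, inv_mul_cancel]

theorem fixSet_subset_innSet {r : P} (hr : r ∈ fixSet Y) : r ∈ innSet Y :=
  ⟨1, Subgroup.one_mem _, rel_one_iff.mpr hr⟩

theorem subgroup_subset_innSet (hY : IsAdm Q ι Y) (hS : ∀ q : Q, ι q ∈ valsOf Y) {q : P}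
    (hq : q ∈ Q) : q ∈ innSet Y :=
  ⟨ι ⟨q, hq⟩, hS ⟨q, hq⟩, rel_subgroup hY ⟨q, hq⟩⟩

theorem conj_mem_innSet (hY : IsAdm Q ι Y) {r x : P} (hr : r ∈ blockSet Y)
    (hr' : r⁻¹ ∈ blockSet Y) (hx : x ∈ innSet Y) : r * x * r⁻¹ ∈ innSet Y := by
  have _ := hr
  obtain ⟨t, ht, hxt⟩ := hx
  obtain ⟨g0, hg0, hg0t⟩ := inner_mem_valsOf.mp ht
  have hg : shift r g0 ∈ Y := hY.2 r g0 hg0
  have hgr : shift r g0 r = t := by
    simp only [shift, inv_mul_cancel]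
    exact hg0t
  refine ⟨shift r g0 1, inner_mem_valsOf.mpr ⟨shift r g0, hg, rfl⟩, ?_⟩
  intro f hf
  have hk : (shift r g0)⁻¹ * f * shift r g0 ∈ Y :=
    Y.mul_mem (Y.mul_mem (Y.inv_mem hg) hf) hg
  have hk' : shift r⁻¹ ((shift r g0)⁻¹ * f * shift r g0) ∈ Y := hY.2 r⁻¹ _ hk
  have hh' : shift (r * x)⁻¹ f ∈ Y := hY.2 _ f hf
  have hm : shift (r * x)⁻¹ f * (shift r⁻¹ ((shift r g0)⁻¹ * f * shift r g0))⁻¹ ∈ Y :=
    Y.mul_mem hh' (Y.inv_mem hk')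
  have hf' : shift r⁻¹ f ∈ Y := hY.2 r⁻¹ f hf
  have e1 : f (r * x) = t⁻¹ * f r * t := by
    have h := hxt (shift r⁻¹ f) hf'
    rw [inner_shift_apply, inner_shift_apply, mul_one] at h
    exact h
  have hm1 : (shift (r * x)⁻¹ f * (shift r⁻¹ ((shift r g0)⁻¹ * f * shift r g0))⁻¹) 1 = 1 := by
    simp only [Pi.mul_apply, Pi.inv_apply, inner_shift_apply, mul_one]
    rw [hgr, e1]
    group
  have hb : ∀ f ∈ Y, f 1 = 1 → f r⁻¹ = 1 := hr'
  have hm2 := hb _ hm hm1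
  simp only [Pi.mul_apply, Pi.inv_apply, inner_shift_apply, mul_inv_cancel] at hm2
  exact mul_inv_eq_one.mp hm2

/-- the inner subgroup of `Y` -/
def innOf (Y : Subgroup (P → T)) (hY : IsAdm Q ι Y) : Subgroup P where
  carrier := innSet Y
  one_mem' := one_mem_innSet
  mul_mem' := fun hr hs => mul_mem_innSet hY hr hs
  inv_mem' := fun hr => inv_mem_innSet hY hr
end D3

end Vale.Agent.Lib.P183.Exc
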