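import Vale.Agent.Lib.P183.Exc.Defs

/-!
# Functions supported on a single block
-/

namespace Vale.Agent.Lib.P183.Exc

open Classical

variable {P T : Type} [Group P] [Group T]

/-- The functions of `Y` vanishing on the set `s`. -/
def scottVan (Y : Subgroup (P → T)) (s : Set P) : Subgroup (P → T) where
  carrier := {f | f ∈ Y ∧ ∀ p ∈ s, f p = 1}
  one_mem' := ⟨Y.one_mem, fun _ _ => rfl⟩
  mul_mem' := by
    intro f g hf hg
    refine ⟨Y.mul_mem hf.1 hg.1, fun p hp => ?_⟩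
    rw [Pi.mul_apply, hf.2 p hp, hg.2 p hp, one_mul]
  inv_mem' := by
    intro f hf
    refine ⟨Y.inv_mem hf.1, fun p hp => ?_⟩
    rw [Pi.inv_apply, hf.2 p hp, inv_one]

omit [Group P] in
lemma scott_van_le (Y : Subgroup (P → T)) (s : Set P) : scottVan Y s ≤ Y := fun _ hf => hf.1

omit [Group P] in
lemma scott_van_norm (Y : Subgroup (P → T)) (s : Set P) :
    ∀ g ∈ Y, ∀ f ∈ scottVan Y s, g * f * g⁻¹ ∈ scottVan Y s := by
  intro g hg f hf
  refine ⟨Y.mul_mem (Y.mul_mem hg hf.1) (Y.inv_mem hg), fun p hp => ?_⟩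
  rw [Pi.mul_apply, Pi.mul_apply, Pi.inv_apply, hf.2 p hp, mul_one, mul_inv_cancel]

lemma scott_mem_valsOf {Y : Subgroup (P → T)} {x : T} :
    x ∈ valsOf Y ↔ ∃ f ∈ Y, f 1 = x := by
  unfold valsOf
  rw [Subgroup.mem_map]
  rfl

/-- A subgroup of `Y` normalised by `Y` and not vanishing identically at `1` has the same
values at `1` as `Y`. -/
lemma scott_full {Y : Subgroup (P → T)}
    (hsimp : ∀ N : Subgroup T, N ≤ valsOf Y → (∀ x ∈ valsOf Y, ∀ n ∈ N, x * n * x⁻¹ ∈ N) →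
      N = ⊥ ∨ N = valsOf Y)
    (A : Subgroup (P → T)) (hAY : A ≤ Y) (hnorm : ∀ g ∈ Y, ∀ f ∈ A, g * f * g⁻¹ ∈ A)
    (hne : ∃ f ∈ A, f 1 ≠ 1) : valsOf A = valsOf Y := by
  have hle : valsOf A ≤ valsOf Y := Subgroup.map_mono hAY
  have hinv : ∀ x ∈ valsOf Y, ∀ n ∈ valsOf A, x * n * x⁻¹ ∈ valsOf A := by
    intro x hx n hn
    obtain ⟨g, hg, rfl⟩ := scott_mem_valsOf.mp hx
    obtain ⟨f, hf, rfl⟩ := scott_mem_valsOf.mp hn
    exact scott_mem_valsOf.mpr ⟨g * f * g⁻¹, hnorm g hg f hf, rfl⟩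
  rcases hsimp (valsOf A) hle hinv with h | h
  · exfalso
    obtain ⟨f, hf, hf1⟩ := hne
    have hmem : f 1 ∈ valsOf A := scott_mem_valsOf.mpr ⟨f, hf, rfl⟩
    rw [h, Subgroup.mem_bot] at hmem
    exact hf1 hmem
  · exact h

section D4
variable {Q : Subgroup P} {ι : Q →* T} {Y : Subgroup (P → T)}

/-- Outside the block set there is a function of `Y` vanishing at the point but not at `1`. -/
lemma scott_exists [Finite P] [Finite T] (hY : IsAdm Q ι Y) (p : P) (hp : p ∉ blockSet Y) :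
    ∃ k ∈ Y, k p = 1 ∧ k 1 ≠ 1 := by
  by_contra hcon
  have hcon' : ∀ k ∈ Y, k p = 1 → k 1 = 1 := by
    intro k hk hkp
    by_contra hk1
    exact hcon ⟨k, hk, hkp, hk1⟩
  have hsub : {f : P → T | f ∈ Y ∧ f p = 1} ⊆ {f : P → T | f ∈ Y ∧ f 1 = 1} := by
    intro f hf
    exact ⟨hf.1, hcon' f hf.1 hf.2⟩
  have hcard : Set.ncard {f : P → T | f ∈ Y ∧ f 1 = 1}
      ≤ Set.ncard {f : P → T | f ∈ Y ∧ f p = 1} := by
    apply Set.ncard_le_ncard_of_injOn (shift p)
    · intro f hf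
      refine ⟨hY.2 p f hf.1, ?_⟩
      unfold shift
      rw [inv_mul_cancel]
      exact hf.2
    · intro f _ g _ hfg
      funext q
      have h := congrFun hfg (p * q)
      unfold shift at h
      rw [inv_mul_cancel_left] at h
      exact h
  have heq := Set.eq_of_subset_of_ncard_le hsub hcard (Set.toFinite _)
  have hp' : ∃ f0 ∈ Y, f0 1 = 1 ∧ f0 p ≠ 1 := by
    by_contra hno
    apply hp
    intro f hf hf1
    by_contra hfp
    exact hno ⟨f, hf, hf1, hfp⟩
  obtain ⟨f0, hf0, hf01, hf0p⟩ := hp'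
  have hmem : f0 ∈ {f : P → T | f ∈ Y ∧ f p = 1} := by
    rw [heq]
    exact ⟨hf0, hf01⟩
  exact hf0p hmem.2

/-- The functions of `Y` vanishing on a finite set of points outside the block set still take
every value of `valsOf Y` at `1`. -/
lemma scott_claim [Finite P] [Finite T] (hY : IsAdm Q ι Y)
    (hsimp : ∀ N : Subgroup T, N ≤ valsOf Y → (∀ x ∈ valsOf Y, ∀ n ∈ N, x * n * x⁻¹ ∈ N) →
      N = ⊥ ∨ N = valsOf Y)
    (hnc : ∃ a ∈ valsOf Y, ∃ b ∈ valsOf Y, a * b ≠ b * a) :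
    ∀ s : Finset P, (∀ p ∈ s, p ∉ blockSet Y) → valsOf (scottVan Y (↑s : Set P)) = valsOf Y := by
  intro s
  induction s using Finset.induction_on with
  | empty =>
    intro _
    have h : scottVan Y (↑(∅ : Finset P) : Set P) = Y := by
      ext f
      constructor
      · intro hf
        exact hf.1
      · intro hf
        refine ⟨hf, fun p hp => ?_⟩
        simp at hp
    rw [h]
  | insert p s hps ih =>
    intro hall
    have ih' := ih (fun q hq => hall q (Finset.mem_insert_of_mem hq))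
    have hp := hall p (Finset.mem_insert_self p s)
    obtain ⟨k0, hk0Y, hk0p, hk01⟩ := scott_exists hY p hp
    have hK : valsOf (scottVan Y ({p} : Set P)) = valsOf Y := by
      refine scott_full hsimp _ (scott_van_le Y _) (scott_van_norm Y _) ⟨k0, ⟨hk0Y, ?_⟩, hk01⟩
      intro q hq
      rw [Set.mem_singleton_iff] at hq
      rw [hq]
      exact hk0p
    obtain ⟨a, ha, b, hb, hab⟩ := hnc
    rw [← ih'] at ha
    rw [← hK] at hb
    obtain ⟨f, hf, rfl⟩ := scott_mem_valsOf.mp ha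
    obtain ⟨k, hk, rfl⟩ := scott_mem_valsOf.mp hb
    refine scott_full hsimp _ (scott_van_le Y _) (scott_van_norm Y _)
      ⟨f * k * f⁻¹ * k⁻¹, ⟨?_, ?_⟩, ?_⟩
    · exact Y.mul_mem (Y.mul_mem (Y.mul_mem hf.1 hk.1) (Y.inv_mem hf.1)) (Y.inv_mem hk.1)
    · intro q hq
      rw [Finset.coe_insert, Set.mem_insert_iff] at hq
      simp only [Pi.mul_apply, Pi.inv_apply]
      rcases hq with hq | hq
      · rw [hq, hk.2 p (Set.mem_singleton p)]
        group
      · rw [hf.2 q hq]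
        group
    · intro h1
      simp only [Pi.mul_apply, Pi.inv_apply] at h1
      apply hab
      calc f 1 * k 1 = (f 1 * k 1 * (f 1)⁻¹ * (k 1)⁻¹) * (k 1 * f 1) := by group
        _ = k 1 * f 1 := by rw [h1, one_mul]

theorem scott [Finite P] [Finite T] (hY : IsAdm Q ι Y)
    (hsimp : ∀ N : Subgroup T, N ≤ valsOf Y → (∀ x ∈ valsOf Y, ∀ n ∈ N, x * n * x⁻¹ ∈ N) →
      N = ⊥ ∨ N = valsOf Y)
    (hnc : ∃ a ∈ valsOf Y, ∃ b ∈ valsOf Y, a * b ≠ b * a) :
    ∀ x ∈ valsOf Y, ∃ f ∈ Y, f 1 = x ∧ ∀ p, p ∉ blockSet Y → f p = 1 := by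
  intro x hx
  have hfin : ((blockSet Y)ᶜ : Set P).Finite := Set.toFinite _
  have hclaim := scott_claim hY hsimp hnc hfin.toFinset (by
    intro p hp
    rw [Set.Finite.mem_toFinset] at hp
    exact hp)
  rw [← hclaim] at hx
  obtain ⟨f, hf, hfx⟩ := scott_mem_valsOf.mp hx
  refine ⟨f, hf.1, hfx, fun p hp => hf.2 p ?_⟩
  rw [Set.Finite.coe_toFinset]
  exact hp
end D4

end Vale.Agent.Lib.P183.Exc
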