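import Vale.Agent.Lib.P183.Exc.Defs

/-!
# The twisting homomorphism of an admissible subgroup
-/

namespace Vale.Agent.Lib.P183.Exc

open Classical

variable {P T : Type} [Group P] [Group T]

section D3b
variable {Q : Subgroup P} {ι : Q →* T} {Y : Subgroup (P → T)}

theorem tau_rel_mul (hY : IsAdm Q ι Y) {r s : P} {t u : T} (h1 : Rel Y r t)
    (h2 : Rel Y s u) : Rel Y (r * s) (t * u) := by
  intro f hf
  have hg : shift r⁻¹ f ∈ Y := hY.2 r⁻¹ f hf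
  have h3 := h2 _ hg
  simp only [shift, inv_inv, mul_one] at h3
  rw [h3, h1 f hf]
  group

theorem tau_rel_unique
    (hcen : ∀ t ∈ valsOf Y, (∀ x ∈ valsOf Y, t * x = x * t) → t = 1)
    {r : P} {t u : T} (ht : t ∈ valsOf Y) (hu : u ∈ valsOf Y)
    (h1 : Rel Y r t) (h2 : Rel Y r u) : t = u := by
  have h3 : u * t⁻¹ = 1 := by
    apply hcen _ ((valsOf Y).mul_mem hu ((valsOf Y).inv_mem ht))
    intro x hx
    obtain ⟨f, hf, rfl⟩ := hx
    have e : t⁻¹ * f 1 * t = u⁻¹ * f 1 * u := by rw [← h1 f hf, ← h2 f hf]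
    simp only [Pi.evalMonoidHom_apply]
    calc u * t⁻¹ * f 1 = u * (t⁻¹ * f 1 * t) * t⁻¹ := by group
      _ = u * (u⁻¹ * f 1 * u) * t⁻¹ := by rw [e]
      _ = f 1 * (u * t⁻¹) := by group
  exact (mul_inv_eq_one.mp h3).symm

theorem exists_tau (hY : IsAdm Q ι Y)
    (hcen : ∀ t ∈ valsOf Y, (∀ x ∈ valsOf Y, t * x = x * t) → t = 1)
    (hS : ∀ q : Q, ι q ∈ valsOf Y) (R0 : Subgroup P) (hR0 : ∀ r, r ∈ R0 ↔ r ∈ innSet Y) :
    ∃ τ : R0 →* T, (∀ x : R0, Rel Y (x : P) (τ x)) ∧ (∀ x : R0, τ x ∈ valsOf Y) ∧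
      (∀ x : R0, τ x = 1 ↔ (x : P) ∈ fixSet Y) ∧
      (∀ (q : Q) (h : (q : P) ∈ R0), τ ⟨q, h⟩ = ι q) := by
  have hex : ∀ x : R0, ∃ t, t ∈ valsOf Y ∧ Rel Y (x : P) t := by
    intro x
    obtain ⟨t, ht, hr⟩ := (hR0 x).mp x.2
    exact ⟨t, ht, hr⟩
  choose τ0 hτ0 using hex
  have hmul : ∀ x y : R0, τ0 (x * y) = τ0 x * τ0 y := by
    intro x y
    refine tau_rel_unique hcen (hτ0 _).1 ((valsOf Y).mul_mem (hτ0 x).1 (hτ0 y).1) (hτ0 _).2 ?_
    exact tau_rel_mul hY (hτ0 x).2 (hτ0 y).2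
  refine ⟨MonoidHom.mk' τ0 hmul, fun x => (hτ0 x).2, fun x => (hτ0 x).1, ?_, ?_⟩
  · intro x
    constructor
    · intro h f hf
      have h2 := (hτ0 x).2 f hf
      rw [show τ0 x = 1 from h] at h2
      simpa using h2
    · intro h
      have h1 : Rel Y (x : P) 1 := by
        intro f hf
        simpa using h f hf
      exact tau_rel_unique hcen (hτ0 x).1 (valsOf Y).one_mem (hτ0 x).2 h1
  · intro q h
    have h1 : Rel Y (q : P) (ι q) := by
      intro f hf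
      have h2 := hY.1 hf 1 q
      simpa using h2
    exact tau_rel_unique hcen (hτ0 _).1 (hS q) (hτ0 _).2 h1
end D3b

end Vale.Agent.Lib.P183.Exc
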