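import Vale.Agent.Lib.P183.Exc.Basics
import Vale.Agent.Lib.P183.Exc.Delta
import Vale.Agent.Lib.P183.Exc.Block
import Vale.Agent.Lib.P183.Exc.Fix
import Vale.Agent.Lib.P183.Exc.Inner
import Vale.Agent.Lib.P183.Exc.Tau
import Vale.Agent.Lib.P183.Exc.Scott
import Vale.Agent.Lib.P183.Exc.Ident
import Vale.Agent.Lib.P183.Exc.CasesSmall
import Vale.Agent.Lib.P183.Exc.CasesBig

/-!
# Classification of the admissible subgroups
-/

namespace Vale.Agent.Lib.P183.Exc

open Classical

variable {P T : Type} [Group P] [Group T]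

section G1
variable (c : Config P T)

/-- A subgroup `X` normalised by `S` with `X ⊔ S = ⊤` is normal. -/
theorem classify_normal_of_sup (X S : Subgroup T)
    (hS : ∀ s ∈ S, ∀ x ∈ X, s * x * s⁻¹ ∈ X) (htop : X ⊔ S = ⊤) : X.Normal := by
  have h1 : X ≤ Subgroup.normalizer (X : Set T) :=
    Subgroup.le_normalizer_iff.mpr
      (fun h hh k hk => X.mul_mem (X.mul_mem hh hk) (X.inv_mem hh))
  have h2 : S ≤ Subgroup.normalizer (X : Set T) := Subgroup.le_normalizer_iff.mpr hS
  have h3 : Subgroup.normalizer (X : Set T) = ⊤ := by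
    refine top_le_iff.mp ?_
    rw [← htop]
    exact sup_le h1 h2
  exact Subgroup.normalizer_eq_top_iff.mp h3

/-- A subgroup of `T` normalised by `S` is trivial, equal to `S`, or everything. -/
theorem classify_trichotomy (X : Subgroup T)
    (hS : ∀ s ∈ c.S, ∀ x ∈ X, s * x * s⁻¹ ∈ X) : X = ⊥ ∨ X = c.S ∨ X = ⊤ := by
  by_cases hle : X ≤ c.S
  · rcases c.S_simple X hle hS with h | h
    · exact Or.inl h
    · exact Or.inr (Or.inl h)
  · have hK : X ⊔ c.S = ⊤ := by
      rcases c.S_max (X ⊔ c.S) le_sup_right with h | h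
      · exact absurd (le_sup_left.trans h.le) hle
      · exact h
    have hn : X.Normal := classify_normal_of_sup X c.S hS hK
    rcases c.T_simple X hn with h | h
    · exact absurd (h.le.trans bot_le) hle
    · exact Or.inr (Or.inr h)

/-- The values `t` whose delta function lies in `Y`. -/
noncomputable def classify_X0 (Q : Subgroup P) (ι : Q →* T) (Y : Subgroup (P → T)) :
    Subgroup T where
  carrier := {t | delta Q ι t ∈ Y}
  one_mem' := by
    show delta Q ι 1 ∈ Y
    rw [delta_one]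
    exact Y.one_mem
  mul_mem' := by
    intro s t hs ht
    show delta Q ι (s * t) ∈ Y
    rw [delta_mul]
    exact Y.mul_mem hs ht
  inv_mem' := by
    intro t ht
    show delta Q ι t⁻¹ ∈ Y
    rw [delta_inv]
    exact Y.inv_mem ht

theorem classify_mem_X0 (Q : Subgroup P) (ι : Q →* T) (Y : Subgroup (P → T)) (t : T) :
    t ∈ classify_X0 Q ι Y ↔ delta Q ι t ∈ Y := Iff.rfl

/-- Identification of `Y` with a diagonal subgroup once its block, inner subgroup and twisting
homomorphism are known. -/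
theorem classify_ident [Finite P] (Y : Subgroup (P → T)) (hY : IsAdm c.Q c.iota Y)
    (R' : Subgroup P) (ψ : R' →* T)
    (hR : blockOf Y hY = R') (hR0 : innOf Y hY = R')
    (τ : innOf Y hY →* T) (hrel : ∀ x : innOf Y hY, Rel Y (x : P) (τ x))
    (hτ : ∀ (x : innOf Y hY) (h : (x : P) ∈ R'), τ x = ψ ⟨x, h⟩)
    (hsc : ∀ x ∈ valsOf Y, ∃ f ∈ Y, f 1 = x ∧ ∀ p, p ∉ blockSet Y → f p = 1) :
    Y = diag c.Q c.iota R' ψ (valsOf Y) := by
  refine eq_diag hY R' ψ ?_ ?_
  · intro f hf r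
    have hr : (r : P) ∈ innOf Y hY := by
      rw [hR0]
      exact r.2
    have h1 := hrel ⟨r, hr⟩ f hf
    have h2 := hτ ⟨r, hr⟩ r.2
    rw [h2] at h1
    exact h1
  · intro x hx
    obtain ⟨f, hf, hf1, hsupp⟩ := hsc x hx
    refine ⟨f, hf, hf1, fun p hp => hsupp p (fun hp' => hp ?_)⟩
    have h3 : p ∈ blockOf Y hY := hp'
    rw [hR] at h3
    exact h3

/-- The diagonal case: no nontrivial delta function lies in `Y`. -/
theorem classify_diag [Finite P] [Finite T] (Y : Subgroup (P → T))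
    (hY : IsAdm c.Q c.iota Y) (hX : valsOf Y = c.S ∨ valsOf Y = ⊤)
    (hX0 : ∀ t : T, delta c.Q c.iota t ∈ Y → t = 1) :
    Y = c.Ea ∨ Y = c.Eb ∨ Y = c.Ew ∨ Y = c.Ec := by
  have hSle : c.S ≤ valsOf Y := by
    rcases hX with h | h
    · rw [h]
    · rw [h]
      exact le_top
  have hιS : ∀ q : c.Q, c.iota q ∈ c.S := fun q => (c.iota_range _).mpr ⟨q, rfl⟩
  have hS : ∀ q : c.Q, c.iota q ∈ valsOf Y := fun q => hSle (hιS q)
  have hcen : ∀ t ∈ valsOf Y, (∀ x ∈ valsOf Y, t * x = x * t) → t = 1 := by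
    rcases hX with h | h
    · rw [h]
      exact c.S_center
    · rw [h]
      intro t _ ht
      exact c.T_center t (fun x => ht x (Subgroup.mem_top x))
  have hsimp : ∀ N : Subgroup T, N ≤ valsOf Y →
      (∀ x ∈ valsOf Y, ∀ n ∈ N, x * n * x⁻¹ ∈ N) → N = ⊥ ∨ N = valsOf Y := by
    rcases hX with h | h
    · rw [h]
      exact c.S_simple
    · rw [h]
      intro N _ hN
      have hn : N.Normal := ⟨fun n hn g => hN g (Subgroup.mem_top g) n hn⟩
      exact c.T_simple N hn
  have hnc : ∃ a ∈ valsOf Y, ∃ b ∈ valsOf Y, a * b ≠ b * a := by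
    obtain ⟨a, ha, b, hb, hab⟩ := c.S_noncomm
    exact ⟨a, hSle ha, b, hSle hb, hab⟩
  have hsc := scott hY hsimp hnc
  obtain ⟨τ, hrel, hval, hker, hτQ⟩ :=
    exists_tau hY hcen hS (innOf Y hY) (fun r => Iff.rfl)
  have hQR0 : c.Q ≤ innOf Y hY := fun q hq => subgroup_subset_innSet hY hS hq
  have hR0R : innOf Y hY ≤ blockOf Y hY := fun r hr => innSet_subset_blockSet hr
  have hNR0 : fixOf Y hY ≤ innOf Y hY := fun r hr => fixSet_subset_innSet hr
  have hN : ∀ r ∈ blockOf Y hY, ∀ n ∈ fixOf Y hY, r * n * r⁻¹ ∈ fixOf Y hY :=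
    fun r hr n hn => conj_mem_fixSet hY (inv_mem_blockSet hY hr) hn
  have hR0 : ∀ r ∈ blockOf Y hY, ∀ x ∈ innOf Y hY, r * x * r⁻¹ ∈ innOf Y hY :=
    fun r hr x hx => conj_mem_innSet hY hr (inv_mem_blockSet hY hr) hx
  have hker' : ∀ x : innOf Y hY, τ x = 1 ↔ (x : P) ∈ fixOf Y hY := hker
  have hτQ' : ∀ q : c.Q, τ (Subgroup.inclusion hQR0 q) = c.iota q := fun q => hτQ q _
  have hnotQ : blockOf Y hY ≠ c.Q := by
    intro hRQ
    obtain ⟨a, ha, b, hb, hab⟩ := c.S_noncomm
    have ha1 : a ≠ 1 := by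
      rintro rfl
      exact hab (by simp)
    obtain ⟨f, hf, hf1, hsupp⟩ := hsc a (hSle ha)
    have hfd : f = delta c.Q c.iota (f 1) := by
      refine eq_delta_of_support (hY.1 hf) (fun p hp => hsupp p (fun hp' => hp ?_))
      have h3 : p ∈ blockOf Y hY := hp'
      rw [hRQ] at h3
      exact h3
    have h4 : delta c.Q c.iota a ∈ Y := by
      rw [← hf1, ← hfd]
      exact hf
    exact ha1 (hX0 a h4)
  have hsmall : (∀ x : innOf Y hY, τ x ∈ c.S) →
      Y = diag c.Q c.iota c.Rc c.psic (valsOf Y) := by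
    intro hτS
    rcases cases_small c (blockOf Y hY) (fixOf Y hY) (innOf Y hY) τ hQR0 hR0R hNR0 hN hR0
      hker' hτQ' hτS with h | ⟨h1, h2, h3⟩
    · exact absurd h hnotQ
    · exact classify_ident c Y hY c.Rc c.psic h1 h2 τ hrel h3 hsc
  rcases hX with h | h
  · left
    have h5 := hsmall (fun x => by
      rw [← h]
      exact hval x)
    rw [h] at h5
    exact h5
  · have hrange : c.S ≤ τ.range := by
      intro s hs
      obtain ⟨q, rfl⟩ := (c.iota_range s).mp hs
      exact ⟨Subgroup.inclusion hQR0 q, hτQ' q⟩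
    rcases c.S_max τ.range hrange with hr | hr
    · right; right; right
      have h5 := hsmall (fun x => by
        rw [← hr]
        exact ⟨x, rfl⟩)
      rw [h] at h5
      exact h5
    · have hsurj : Function.Surjective τ := MonoidHom.range_eq_top.mp hr
      rcases cases_big c (blockOf Y hY) (fixOf Y hY) (innOf Y hY) τ hQR0 hR0R hNR0 hN hR0
        hker' hτQ' hsurj with ⟨h1, h2, h3⟩ | ⟨h1, h2, h3⟩
      · right; right; left
        have h5 := classify_ident c Y hY c.Rw c.psiw h1 h2 τ hrel h3 hsc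
        rw [h] at h5
        exact h5
      · right; left
        have h5 := classify_ident c Y hY c.Rb c.psib h1 h2 τ hrel h3 hsc
        rw [h] at h5
        exact h5

theorem classify [Finite P] [Finite T] (Y : Subgroup (P → T)) (hY : IsAdm c.Q c.iota Y) :
    Y = ⊥ ∨ Y = c.Ea ∨ Y = c.Eb ∨ Y = c.Ew ∨ Y = c.Ec ∨ Y = c.Ed ∨ Y = base c.Q c.iota := by
  have hXS : ∀ s ∈ c.S, ∀ x ∈ valsOf Y, s * x * s⁻¹ ∈ valsOf Y := by
    intro s hs x hx
    obtain ⟨q, rfl⟩ := (c.iota_range s).mp hs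
    exact valsOf_conj hY q hx
  have hX0le : classify_X0 c.Q c.iota Y ≤ valsOf Y := by
    intro t ht
    exact mem_valsOf.mpr ⟨delta c.Q c.iota t, ht, delta_apply_one t⟩
  have hX0X : ∀ x ∈ valsOf Y, ∀ t ∈ classify_X0 c.Q c.iota Y,
      x * t * x⁻¹ ∈ classify_X0 c.Q c.iota Y := by
    intro x hx t ht
    obtain ⟨f, hf, rfl⟩ := mem_valsOf.mp hx
    exact delta_conj_mem hY hf ht
  have hX0S : ∀ s ∈ c.S, ∀ t ∈ classify_X0 c.Q c.iota Y,
      s * t * s⁻¹ ∈ classify_X0 c.Q c.iota Y := by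
    intro s hs t ht
    obtain ⟨q, rfl⟩ := (c.iota_range s).mp hs
    show delta c.Q c.iota (c.iota q * t * (c.iota q)⁻¹) ∈ Y
    rw [← delta_shift]
    exact hY.2 (q : P) _ ht
  have hlift : (Y = c.Ea ∨ Y = c.Eb ∨ Y = c.Ew ∨ Y = c.Ec) →
      (Y = ⊥ ∨ Y = c.Ea ∨ Y = c.Eb ∨ Y = c.Ew ∨ Y = c.Ec ∨ Y = c.Ed ∨
        Y = base c.Q c.iota) := by
    rintro (h | h | h | h)
    · exact Or.inr (Or.inl h)
    · exact Or.inr (Or.inr (Or.inl h))
    · exact Or.inr (Or.inr (Or.inr (Or.inl h)))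
    · exact Or.inr (Or.inr (Or.inr (Or.inr (Or.inl h))))
  have hdiag : classify_X0 c.Q c.iota Y = ⊥ → (valsOf Y = c.S ∨ valsOf Y = ⊤) →
      (Y = ⊥ ∨ Y = c.Ea ∨ Y = c.Eb ∨ Y = c.Ew ∨ Y = c.Ec ∨ Y = c.Ed ∨
        Y = base c.Q c.iota) := by
    intro h0 hX
    refine hlift (classify_diag c Y hY hX (fun t ht => ?_))
    have h1 : t ∈ classify_X0 c.Q c.iota Y := ht
    rw [h0] at h1
    exact Subgroup.mem_bot.mp h1
  have hfull : (∀ t ∈ valsOf Y, delta c.Q c.iota t ∈ Y) →
      Y = vals c.Q c.iota (valsOf Y) := fun h => eq_vals_of_delta hY h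
  rcases classify_trichotomy c (valsOf Y) hXS with hX | hX | hX
  · left
    refine (Subgroup.eq_bot_iff_forall _).mpr (fun f hf => ?_)
    funext p
    have h1 := apply_mem_valsOf hY hf p
    rw [hX] at h1
    exact Subgroup.mem_bot.mp h1
  · have hle : classify_X0 c.Q c.iota Y ≤ c.S := by
      rw [← hX]
      exact hX0le
    rcases c.S_simple (classify_X0 c.Q c.iota Y) hle hX0S with h0 | h0
    · exact hdiag h0 (Or.inl hX)
    · right; right; right; right; right; left
      have h1 := hfull (fun t ht => by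
        have h2 : t ∈ classify_X0 c.Q c.iota Y := by
          rw [h0, ← hX]
          exact ht
        exact h2)
      rw [hX] at h1
      exact h1
  · have hn : (classify_X0 c.Q c.iota Y).Normal :=
      ⟨fun n hn g => hX0X g (by rw [hX]; exact Subgroup.mem_top g) n hn⟩
    rcases c.T_simple _ hn with h0 | h0
    · exact hdiag h0 (Or.inr hX)
    · right; right; right; right; right; right
      have h1 := hfull (fun t _ => by
        have h2 : t ∈ classify_X0 c.Q c.iota Y := by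
          rw [h0]
          exact Subgroup.mem_top t
        exact h2)
      rw [hX] at h1
      rw [h1]
      ext f
      constructor
      · intro hf
        exact (show f ∈ base c.Q c.iota ∧ ∀ p, f p ∈ (⊤ : Subgroup T) from hf).1
      · intro hf
        exact (show f ∈ base c.Q c.iota ∧ ∀ p, f p ∈ (⊤ : Subgroup T) from
          ⟨hf, fun p => Subgroup.mem_top _⟩)
end G1

end Vale.Agent.Lib.P183.Exc
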