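import Vale.Agent.Lib.P183.Exc.L7

/-!
# The exceptional seven-element lattice: definitions for the construction

The lattice `L7` itself is defined in the file `L7`.  This file sets up the base group of a
twisted wreath product: for a group `P`, a
subgroup `Q` and a homomorphism `ι : Q →* T`, the group of all functions `f : P → T` with
`f (p * q) = (ι q)⁻¹ * f p * ι q`, on which `P` acts by left translation.
-/

namespace Vale.Agent.Lib.P183.Exc

open Classical

section Base

variable {P T : Type} [Group P] [Group T]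

/-- Left translation of a function on `P` by `x`. -/
def shift (x : P) (f : P → T) : P → T := fun p => f (x⁻¹ * p)

/-- The base group of the twisted wreath product: functions `f : P → T` with
`f (p * q) = (ι q)⁻¹ * f p * ι q` for all `q` in `Q`, under pointwise multiplication. -/
def base (Q : Subgroup P) (ι : Q →* T) : Subgroup (P → T) where
  carrier := {f | ∀ (p : P) (q : Q), f (p * q) = (ι q)⁻¹ * f p * ι q}
  one_mem' := by
    intro p q
    simp
  mul_mem' := by
    intro f g hf hg p q
    simp only [Pi.mul_apply, hf p q, hg p q]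
    group
  inv_mem' := by
    intro f hf p q
    simp only [Pi.inv_apply, hf p q]
    group

/-- A subgroup of the function group is admissible if it lies in the base group and is
invariant under all left translations. -/
def IsAdm (Q : Subgroup P) (ι : Q →* T) (Y : Subgroup (P → T)) : Prop :=
  Y ≤ base Q ι ∧ ∀ (x : P), ∀ f ∈ Y, shift x f ∈ Y

/-- The admissible subgroups, ordered by inclusion. -/
abbrev Adm (Q : Subgroup P) (ι : Q →* T) : Type := {Y : Subgroup (P → T) // IsAdm Q ι Y}

/-- The functions of the base group all of whose values lie in `X`. -/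
def vals (Q : Subgroup P) (ι : Q →* T) (X : Subgroup T) : Subgroup (P → T) where
  carrier := {f | f ∈ base Q ι ∧ ∀ p, f p ∈ X}
  one_mem' := ⟨(base Q ι).one_mem, fun _ => X.one_mem⟩
  mul_mem' := fun hf hg => ⟨(base Q ι).mul_mem hf.1 hg.1, fun p => X.mul_mem (hf.2 p) (hg.2 p)⟩
  inv_mem' := fun hf => ⟨(base Q ι).inv_mem hf.1, fun p => X.inv_mem (hf.2 p)⟩

/-- The functions of the base group with values in `X` which are twisted-equivariant along
the subgroup `R` with respect to `ψ`. -/
def diag (Q : Subgroup P) (ι : Q →* T) (R : Subgroup P) (ψ : R →* T) (X : Subgroup T) :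
    Subgroup (P → T) where
  carrier := {f | f ∈ base Q ι ∧ (∀ p, f p ∈ X) ∧
    ∀ (p : P) (r : R), f (p * r) = (ψ r)⁻¹ * f p * ψ r}
  one_mem' := ⟨(base Q ι).one_mem, fun _ => X.one_mem, by intro p r; simp⟩
  mul_mem' := by
    intro f g hf hg
    refine ⟨(base Q ι).mul_mem hf.1 hg.1, fun p => X.mul_mem (hf.2.1 p) (hg.2.1 p), ?_⟩
    intro p r
    simp only [Pi.mul_apply, hf.2.2 p r, hg.2.2 p r]
    group
  inv_mem' := by
    intro f hf
    refine ⟨(base Q ι).inv_mem hf.1, fun p => X.inv_mem (hf.2.1 p), ?_⟩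
    intro p r
    simp only [Pi.inv_apply, hf.2.2 p r]
    group

/-- The set of values at `1` of the functions in `Y`. -/
def valsOf (Y : Subgroup (P → T)) : Subgroup T :=
  Y.map (Pi.evalMonoidHom (fun _ : P => T) 1)

/-- The function supported on `Q` with value `t` at `1`. -/
noncomputable def delta (Q : Subgroup P) (ι : Q →* T) (t : T) : P → T :=
  fun p => if h : p ∈ Q then (ι ⟨p, h⟩)⁻¹ * t * ι ⟨p, h⟩ else 1

/-- The function supported on `R` with value `t` at `1`, twisted by `ψ`. -/
noncomputable def blockFn (R : Subgroup P) (ψ : R →* T) (t : T) : P → T :=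
  fun p => if h : p ∈ R then (ψ ⟨p, h⟩)⁻¹ * t * ψ ⟨p, h⟩ else 1

/-- The points at which every function of `Y` vanishing at `1` vanishes. -/
def blockSet (Y : Subgroup (P → T)) : Set P := {r | ∀ f ∈ Y, f 1 = 1 → f r = 1}

/-- The points at which every function of `Y` takes the same value as at `1`. -/
def fixSet (Y : Subgroup (P → T)) : Set P := {r | ∀ f ∈ Y, f r = f 1}

/-- The value at `r` is the conjugate by `t` of the value at `1`, for all functions of `Y`. -/
def Rel (Y : Subgroup (P → T)) (r : P) (t : T) : Prop := ∀ f ∈ Y, f r = t⁻¹ * f 1 * t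

/-- The points whose value is an inner twist of the value at `1`. -/
def innSet (Y : Subgroup (P → T)) : Set P := {r | ∃ t ∈ valsOf Y, Rel Y r t}

end Base

/-- The group-theoretic configuration that produces `L7`. -/
structure Config (P T : Type) [Group P] [Group T] where
  /-- the subgroup over which the wreath product is twisted -/
  Q : Subgroup P
  /-- the unique nontrivial subgroup normalised by `Q` and meeting it trivially -/
  V : Subgroup P
  /-- the normaliser of `V` -/
  Rb : Subgroup P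
  /-- a second overgroup of `Q`, isomorphic to `T` -/
  Rw : Subgroup P
  /-- the image of `Q` in `T` -/
  S : Subgroup T
  /-- the twisting homomorphism -/
  iota : Q →* T
  /-- a surjection of `Rb` onto `T` with kernel `V` -/
  psib : Rb →* T
  /-- an isomorphism of `Rw` onto `T` -/
  psiw : Rw →* T
  Q_le_Rb : Q ≤ Rb
  Q_le_Rw : Q ≤ Rw
  V_le_Rb : V ≤ Rb
  psib_Q : ∀ q : Q, psib (Subgroup.inclusion Q_le_Rb q) = iota q
  psiw_Q : ∀ q : Q, psiw (Subgroup.inclusion Q_le_Rw q) = iota q
  iota_range : ∀ t : T, t ∈ S ↔ ∃ q : Q, iota q = t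
  psiw_bij : Function.Bijective psiw
  psib_surj : Function.Surjective psib
  psib_ker : ∀ r : Rb, psib r = 1 ↔ (r : P) ∈ V
  T_simple : ∀ N : Subgroup T, N.Normal → N = ⊥ ∨ N = ⊤
  S_simple : ∀ N : Subgroup T, N ≤ S → (∀ s ∈ S, ∀ n ∈ N, s * n * s⁻¹ ∈ N) → N = ⊥ ∨ N = S
  S_max : ∀ K : Subgroup T, S ≤ K → K = S ∨ K = ⊤
  S_ne_top : S ≠ ⊤
  S_noncomm : ∃ a ∈ S, ∃ b ∈ S, a * b ≠ b * a
  T_rigid : ∀ β : T ≃* T, (∀ s ∈ S, β s = s) → ∀ t, β t = t
  normQ : ∀ x : P, (∀ q ∈ Q, x * q * x⁻¹ ∈ Q) → x ∈ Q
  sig : ∀ N : Subgroup P, (∀ q ∈ Q, ∀ n ∈ N, q * n * q⁻¹ ∈ N) → N ⊓ Q = ⊥ → N = ⊥ ∨ N = V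
  small : ∀ R : Subgroup P, Q ≤ R → Nat.card R = Nat.card T → R ≤ Rw
  normV : ∀ x : P, (∀ v ∈ V, x * v * x⁻¹ ∈ V) → x ∈ Rb
  normRw : ∀ x : P, (∀ r ∈ Rw, x * r * x⁻¹ ∈ Rw) → x ∈ Rw
  Rw_not_le : ¬ Rw ≤ Rb
  V_not_le : ¬ V ≤ Rw

section Seven

variable {P T : Type} [Group P] [Group T] (c : Config P T)

/-- The preimage of `S` under `psib`, as a subgroup of `P`. -/
def Config.Rc : Subgroup P := (c.S.comap c.psib).map c.Rb.subtype

theorem Config.Rc_le : c.Rc ≤ c.Rb := by
  rintro x ⟨y, _, rfl⟩
  exact y.2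

/-- The restriction of `psib` to `Rc`. -/
def Config.psic : c.Rc →* T := c.psib.comp (Subgroup.inclusion c.Rc_le)

/-- The atom `a`. -/
def Config.Ea : Subgroup (P → T) := diag c.Q c.iota c.Rc c.psic c.S

/-- The coatom `c`. -/
def Config.Ec : Subgroup (P → T) := diag c.Q c.iota c.Rc c.psic ⊤

/-- The atom `b`. -/
def Config.Eb : Subgroup (P → T) := diag c.Q c.iota c.Rb c.psib ⊤

/-- The isolated element `w`. -/
def Config.Ew : Subgroup (P → T) := diag c.Q c.iota c.Rw c.psiw ⊤

/-- The coatom `d`. -/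
def Config.Ed : Subgroup (P → T) := vals c.Q c.iota c.S

end Seven

end Vale.Agent.Lib.P183.Exc
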