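import Mathlib

/-!
# The stabiliser of a finite family of finite sets and its action on the indices
-/

namespace Vale.Agent.Lib.P183.Exc

open Equiv

variable {α : Type} [DecidableEq α] [Fintype α] {n : ℕ}

theorem fam_image_one (S : Finset α) : S.image ((1 : Perm α) : α → α) = S := by
  rw [Perm.coe_one, Finset.image_id]

theorem fam_image_mul (S : Finset α) (x y : Perm α) :
    S.image ((x * y : Perm α) : α → α) = (S.image (y : α → α)).image (x : α → α) := by
  rw [Finset.image_image, Perm.coe_mul]

theorem fam_image_inv (S T : Finset α) (x : Perm α) (h : S.image (x : α → α) = T) :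
    T.image ((x⁻¹ : Perm α) : α → α) = S := by
  rw [← h, ← fam_image_mul, inv_mul_cancel, fam_image_one]

theorem fam_inv_aux (B : Fin n → Finset α) (x : Perm α)
    (hx : ∀ i, ∃ j, (B i).image (x : α → α) = B j) (i : Fin n) :
    ∃ j, (B i).image ((x⁻¹ : Perm α) : α → α) = B j := by
  classical
  obtain ⟨T, hT⟩ : ∃ T : Finset (Finset α), T = Finset.univ.image B := ⟨_, rfl⟩
  have hmem : ∀ S, S ∈ T ↔ ∃ j, B j = S := by
    intro S
    rw [hT, Finset.mem_image]
    constructor
    · rintro ⟨j, -, hj⟩
      exact ⟨j, hj⟩
    · rintro ⟨j, hj⟩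
      exact ⟨j, Finset.mem_univ j, hj⟩
  have hinj : Function.Injective (fun S : Finset α => S.image (x : α → α)) :=
    Finset.image_injective x.injective
  have hsub : T.image (fun S : Finset α => S.image (x : α → α)) ⊆ T := by
    intro S hS
    rw [Finset.mem_image] at hS
    obtain ⟨S', hS', rfl⟩ := hS
    obtain ⟨j, rfl⟩ := (hmem S').mp hS'
    obtain ⟨k, hk⟩ := hx j
    exact (hmem _).mpr ⟨k, hk.symm⟩
  have heq : T.image (fun S : Finset α => S.image (x : α → α)) = T :=
    Finset.eq_of_subset_of_card_le hsub (Finset.card_image_of_injective T hinj).ge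
  have hi : B i ∈ T.image (fun S : Finset α => S.image (x : α → α)) := by
    rw [heq]
    exact (hmem _).mpr ⟨i, rfl⟩
  rw [Finset.mem_image] at hi
  obtain ⟨S, hS, hSi⟩ := hi
  obtain ⟨j, rfl⟩ := (hmem S).mp hS
  exact ⟨j, fam_image_inv _ _ x hSi⟩

/-- The permutations of `α` that permute the members of the family `B` among themselves. -/
def famStab (B : Fin n → Finset α) : Subgroup (Perm α) where
  carrier := {x | ∀ i, ∃ j, (B i).image x = B j}
  one_mem' := by
    intro i
    exact ⟨i, fam_image_one (B i)⟩
  mul_mem' := by
    intro x y hx hy i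
    obtain ⟨j, hj⟩ := hy i
    obtain ⟨k, hk⟩ := hx j
    exact ⟨k, by rw [fam_image_mul, hj, hk]⟩
  inv_mem' := by
    intro x hx i
    exact fam_inv_aux B x hx i

theorem mem_famStab {B : Fin n → Finset α} {x : Perm α} :
    x ∈ famStab B ↔ ∀ i, ∃ j, (B i).image x = B j := Iff.rfl

/-- The index to which a member of the stabiliser sends the index `i`. -/
noncomputable def fam_idx (B : Fin n → Finset α) (x : famStab B) (i : Fin n) : Fin n :=
  Classical.choose (mem_famStab.mp x.2 i)

theorem fam_idx_spec (B : Fin n → Finset α) (x : famStab B) (i : Fin n) :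
    (B i).image ((x : Perm α) : α → α) = B (fam_idx B x i) :=
  Classical.choose_spec (mem_famStab.mp x.2 i)

theorem fam_idx_eq_iff (B : Fin n → Finset α) (hB : Function.Injective B)
    (x : famStab B) (i j : Fin n) :
    fam_idx B x i = j ↔ (B i).image ((x : Perm α) : α → α) = B j := by
  rw [fam_idx_spec B x i]
  exact ⟨fun h => by rw [h], fun h => hB h⟩

theorem fam_idx_one (B : Fin n → Finset α) (hB : Function.Injective B) (i : Fin n) :
    fam_idx B (1 : famStab B) i = i := by
  rw [fam_idx_eq_iff B hB]
  exact fam_image_one (B i)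

theorem fam_idx_mul (B : Fin n → Finset α) (hB : Function.Injective B) (x y : famStab B)
    (i : Fin n) : fam_idx B (x * y) i = fam_idx B x (fam_idx B y i) := by
  rw [fam_idx_eq_iff B hB]
  have h : (((x * y : famStab B) : Perm α) : α → α) = (((x : Perm α) * (y : Perm α) : Perm α) : α → α) :=
    rfl
  rw [h, fam_image_mul, fam_idx_spec B y i, fam_idx_spec B x]

/-- The action of the stabiliser of an injective family on the indices. -/
noncomputable def famHom (B : Fin n → Finset α) (hB : Function.Injective B) :
    famStab B →* Perm (Fin n) where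
  toFun x :=
    { toFun := fam_idx B x
      invFun := fam_idx B x⁻¹
      left_inv := fun i => by
        rw [← fam_idx_mul B hB, inv_mul_cancel, fam_idx_one B hB]
      right_inv := fun i => by
        rw [← fam_idx_mul B hB, mul_inv_cancel, fam_idx_one B hB] }
  map_one' := by
    ext i
    exact congrArg Fin.val (fam_idx_one B hB i)
  map_mul' x y := by
    ext i
    exact congrArg Fin.val (fam_idx_mul B hB x y i)

theorem fam_famHom_apply (B : Fin n → Finset α) (hB : Function.Injective B)
    (x : famStab B) (i : Fin n) : famHom B hB x i = fam_idx B x i := rfl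

theorem famHom_apply_eq_iff (B : Fin n → Finset α) (hB : Function.Injective B)
    (x : famStab B) (i j : Fin n) :
    famHom B hB x i = j ↔ (B i).image (x : Perm α) = B j := by
  rw [fam_famHom_apply]
  exact fam_idx_eq_iff B hB x i j

theorem famHom_image (B : Fin n → Finset α) (hB : Function.Injective B)
    (x : famStab B) (i : Fin n) :
    (B i).image (x : Perm α) = B (famHom B hB x i) := by
  rw [fam_famHom_apply]
  exact fam_idx_spec B x i

end Vale.Agent.Lib.P183.Exc
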