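import Vale.Agent.Lib.P183.Exc.Defs
import Vale.Agent.Lib.P183.GroupInterval

/-!
# The admissible subgroups form an interval in a subgroup lattice

The admissible subgroups of the base group correspond to the subgroups of the twisted wreath
product (the semidirect product of the base group by `P`) that contain the complement `P`.
-/

namespace Vale.Agent.Lib.P183.Exc

open Classical

variable {P T : Type} [Group P] [Group T]

theorem interval_shift_mem (Q : Subgroup P) (ι : Q →* T) (x : P) {f : P → T}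
    (hf : f ∈ base Q ι) : shift x f ∈ base Q ι := by
  change ∀ (p : P) (q : Q), shift x f (p * q) = (ι q)⁻¹ * shift x f p * ι q
  intro p q
  change f (x⁻¹ * (p * q)) = (ι q)⁻¹ * f (x⁻¹ * p) * ι q
  rw [← mul_assoc]
  exact hf (x⁻¹ * p) q

/-- Left translation by `x`, as an automorphism of the base group. -/
def interval_aut (Q : Subgroup P) (ι : Q →* T) (x : P) : ↥(base Q ι) ≃* ↥(base Q ι) where
  toFun m := ⟨shift x m.1, interval_shift_mem Q ι x m.2⟩
  invFun m := ⟨shift x⁻¹ m.1, interval_shift_mem Q ι x⁻¹ m.2⟩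
  left_inv m := by
    apply Subtype.ext
    funext p
    simp [shift]
  right_inv m := by
    apply Subtype.ext
    funext p
    simp [shift]
  map_mul' m n := by
    apply Subtype.ext
    funext p
    rfl

theorem interval_aut_apply (Q : Subgroup P) (ι : Q →* T) (x : P) (m : ↥(base Q ι)) :
    ((interval_aut Q ι x m : ↥(base Q ι)) : P → T) = shift x (m : P → T) := rfl

/-- The translation action of `P` on the base group. -/
def interval_phi (Q : Subgroup P) (ι : Q →* T) : P →* MulAut ↥(base Q ι) where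
  toFun x := interval_aut Q ι x
  map_one' := by
    apply MulEquiv.ext
    intro m
    apply Subtype.ext
    funext p
    rw [interval_aut_apply]
    simp [shift]
  map_mul' x y := by
    apply MulEquiv.ext
    intro m
    apply Subtype.ext
    funext p
    rw [MulAut.mul_apply, interval_aut_apply, interval_aut_apply, interval_aut_apply]
    simp [shift, mul_assoc]

theorem interval_phi_apply (Q : Subgroup P) (ι : Q →* T) (x : P) (m : ↥(base Q ι)) :
    ((interval_phi Q ι x m : ↥(base Q ι)) : P → T) = shift x (m : P → T) := rfl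

/-- The admissible subgroup attached to a subgroup of the semidirect product. -/
def interval_toAdm (Q : Subgroup P) (ι : Q →* T)
    (K : Subgroup (SemidirectProduct ↥(base Q ι) P (interval_phi Q ι))) : Subgroup (P → T) :=
  (K.comap SemidirectProduct.inl).map (base Q ι).subtype

theorem interval_mem_toAdm (Q : Subgroup P) (ι : Q →* T)
    (K : Subgroup (SemidirectProduct ↥(base Q ι) P (interval_phi Q ι))) (f : P → T) :
    f ∈ interval_toAdm Q ι K ↔
      ∃ hf : f ∈ base Q ι,
        (SemidirectProduct.inl ⟨f, hf⟩ : SemidirectProduct ↥(base Q ι) P (interval_phi Q ι)) ∈ K := by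
  constructor
  · rintro ⟨m, hm, rfl⟩
    exact ⟨m.2, hm⟩
  · rintro ⟨hf, h⟩
    exact ⟨⟨f, hf⟩, h, rfl⟩

theorem interval_toAdm_isAdm (Q : Subgroup P) (ι : Q →* T)
    (K : Subgroup (SemidirectProduct ↥(base Q ι) P (interval_phi Q ι)))
    (hK : (SemidirectProduct.inr :
      P →* SemidirectProduct ↥(base Q ι) P (interval_phi Q ι)).range ≤ K) :
    IsAdm Q ι (interval_toAdm Q ι K) := by
  refine ⟨?_, ?_⟩
  · rintro f ⟨m, -, rfl⟩
    exact m.2
  · intro x f hf
    obtain ⟨hfb, hfK⟩ := (interval_mem_toAdm Q ι K f).1 hf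
    refine (interval_mem_toAdm Q ι K (shift x f)).2 ⟨interval_shift_mem Q ι x hfb, ?_⟩
    have h := SemidirectProduct.inl_aut (φ := interval_phi Q ι) x ⟨f, hfb⟩
    have e : (interval_phi Q ι x) ⟨f, hfb⟩
        = (⟨shift x f, interval_shift_mem Q ι x hfb⟩ : ↥(base Q ι)) := rfl
    rw [e] at h
    rw [h]
    exact K.mul_mem (K.mul_mem (hK ⟨x, rfl⟩) hfK) (hK ⟨x⁻¹, rfl⟩)

/-- The subgroup of the semidirect product attached to an admissible subgroup. -/
def interval_ofAdm (Q : Subgroup P) (ι : Q →* T) (Y : Subgroup (P → T)) (hY : IsAdm Q ι Y) :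
    Subgroup (SemidirectProduct ↥(base Q ι) P (interval_phi Q ι)) where
  carrier := {g | (g.left : P → T) ∈ Y}
  one_mem' := Y.one_mem
  mul_mem' := by
    intro g h hg hh
    change (((g * h).left : ↥(base Q ι)) : P → T) ∈ Y
    rw [SemidirectProduct.mul_left, Subgroup.coe_mul, interval_phi_apply]
    exact Y.mul_mem hg (hY.2 g.right _ hh)
  inv_mem' := by
    intro g hg
    change (((g⁻¹).left : ↥(base Q ι)) : P → T) ∈ Y
    rw [SemidirectProduct.inv_left, interval_phi_apply, Subgroup.coe_inv]
    exact hY.2 g.right⁻¹ _ (Y.inv_mem hg)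

theorem interval_mem_ofAdm (Q : Subgroup P) (ι : Q →* T) (Y : Subgroup (P → T))
    (hY : IsAdm Q ι Y) (g : SemidirectProduct ↥(base Q ι) P (interval_phi Q ι)) :
    g ∈ interval_ofAdm Q ι Y hY ↔ (g.left : P → T) ∈ Y := Iff.rfl

theorem interval_range_le_ofAdm (Q : Subgroup P) (ι : Q →* T) (Y : Subgroup (P → T))
    (hY : IsAdm Q ι Y) :
    (SemidirectProduct.inr :
      P →* SemidirectProduct ↥(base Q ι) P (interval_phi Q ι)).range
        ≤ interval_ofAdm Q ι Y hY := by
  rintro g ⟨x, rfl⟩
  rw [interval_mem_ofAdm, SemidirectProduct.left_inr]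
  exact Y.one_mem

theorem interval_ofAdm_toAdm (Q : Subgroup P) (ι : Q →* T)
    (K : Subgroup (SemidirectProduct ↥(base Q ι) P (interval_phi Q ι)))
    (hK : (SemidirectProduct.inr :
      P →* SemidirectProduct ↥(base Q ι) P (interval_phi Q ι)).range ≤ K) :
    interval_ofAdm Q ι (interval_toAdm Q ι K) (interval_toAdm_isAdm Q ι K hK) = K := by
  ext g
  rw [interval_mem_ofAdm, interval_mem_toAdm]
  have hr : (SemidirectProduct.inr g.right :
      SemidirectProduct ↥(base Q ι) P (interval_phi Q ι)) ∈ K := hK ⟨g.right, rfl⟩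
  have hg := SemidirectProduct.inl_left_mul_inr_right g
  constructor
  · rintro ⟨hf, h⟩
    have e : (⟨(g.left : P → T), hf⟩ : ↥(base Q ι)) = g.left := rfl
    rw [e] at h
    rw [← hg]
    exact K.mul_mem h hr
  · intro h
    refine ⟨g.left.2, ?_⟩
    have e : (⟨(g.left : P → T), g.left.2⟩ : ↥(base Q ι)) = g.left := rfl
    rw [e]
    have h2 : (SemidirectProduct.inl g.left :
        SemidirectProduct ↥(base Q ι) P (interval_phi Q ι))
        = g * (SemidirectProduct.inr g.right)⁻¹ := by
      rw [eq_mul_inv_iff_mul_eq]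
      exact hg
    rw [h2]
    exact K.mul_mem h (K.inv_mem hr)

theorem interval_toAdm_ofAdm (Q : Subgroup P) (ι : Q →* T) (Y : Subgroup (P → T))
    (hY : IsAdm Q ι Y) : interval_toAdm Q ι (interval_ofAdm Q ι Y hY) = Y := by
  ext f
  rw [interval_mem_toAdm]
  constructor
  · rintro ⟨hf, h⟩
    rw [interval_mem_ofAdm, SemidirectProduct.left_inl] at h
    exact h
  · intro h
    refine ⟨hY.1 h, ?_⟩
    rw [interval_mem_ofAdm, SemidirectProduct.left_inl]
    exact h

theorem exists_group_interval [Finite P] [Finite T] (Q : Subgroup P) (ι : Q →* T) :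
    ∃ (G : Type) (_ : Group G) (_ : Finite G) (H : Subgroup G),
      Nonempty (Set.Ici H ≃o Adm Q ι) := by
  refine ⟨SemidirectProduct ↥(base Q ι) P (interval_phi Q ι), inferInstance,
    Finite.of_equiv _ SemidirectProduct.equivProd.symm,
    (SemidirectProduct.inr :
      P →* SemidirectProduct ↥(base Q ι) P (interval_phi Q ι)).range, ⟨?_⟩⟩
  refine Equiv.toOrderIso
    { toFun := fun K => ⟨interval_toAdm Q ι K.1, interval_toAdm_isAdm Q ι K.1 K.2⟩
      invFun := fun Y => ⟨interval_ofAdm Q ι Y.1 Y.2, interval_range_le_ofAdm Q ι Y.1 Y.2⟩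
      left_inv := fun K => Subtype.ext (interval_ofAdm_toAdm Q ι K.1 K.2)
      right_inv := fun Y => Subtype.ext (interval_toAdm_ofAdm Q ι Y.1 Y.2) } ?_ ?_
  · intro K K' hKK'
    change interval_toAdm Q ι K.1 ≤ interval_toAdm Q ι K'.1
    exact Subgroup.map_mono (Subgroup.comap_mono hKK')
  · intro Y Y' hYY'
    change interval_ofAdm Q ι Y.1 Y.2 ≤ interval_ofAdm Q ι Y'.1 Y'.2
    intro g hg
    rw [interval_mem_ofAdm] at hg ⊢
    exact hYY' hg

end Vale.Agent.Lib.P183.Exc
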