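import Vale.Agent.Lib.P183.Exc.CfgBasic

/-!
# Inclusions and non-inclusions between the seven subgroups
-/

namespace Vale.Agent.Lib.P183.Exc

open Classical

variable {P T : Type} [Group P] [Group T]

section F
variable {Q : Subgroup P} {ι : Q →* T}

theorem order_mem_diag (R : Subgroup P) (ψ : R →* T) (X : Subgroup T) (f : P → T) :
    f ∈ diag Q ι R ψ X ↔ f ∈ base Q ι ∧ (∀ p, f p ∈ X) ∧
      ∀ (p : P) (r : R), f (p * r) = (ψ r)⁻¹ * f p * ψ r := Iff.rfl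

theorem order_mem_vals (X : Subgroup T) (f : P → T) :
    f ∈ vals Q ι X ↔ f ∈ base Q ι ∧ ∀ p, f p ∈ X := Iff.rfl

theorem order_mem_base (f : P → T) :
    f ∈ base Q ι ↔ ∀ (p : P) (q : Q), f (p * q) = (ι q)⁻¹ * f p * ι q := Iff.rfl

/-- the twisted equivariance of a block function along its own block -/
theorem order_blockFn_equiv (R : Subgroup P) (ψ : R →* T) (t : T) (p : P) (r : R) :
    blockFn R ψ t (p * r) = (ψ r)⁻¹ * blockFn R ψ t p * ψ r := by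
  by_cases hp : p ∈ R
  · have hpr : p * (r : P) ∈ R := R.mul_mem hp r.2
    have e : (⟨p * (r : P), hpr⟩ : R) = ⟨p, hp⟩ * r := rfl
    simp only [blockFn, dif_pos hpr, dif_pos hp]
    rw [e, map_mul]
    group
  · have hpr : p * (r : P) ∉ R := fun h => hp ((Subgroup.mul_mem_cancel_right R r.2).mp h)
    simp only [blockFn, dif_neg hpr, dif_neg hp]
    group

theorem blockFn_mem_diag (R : Subgroup P) (ψ : R →* T) (X : Subgroup T) (hQR : Q ≤ R)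
    (hψ : ∀ q : Q, ψ (Subgroup.inclusion hQR q) = ι q) {t : T} (ht : t ∈ X)
    (hX : ∀ r : R, (ψ r)⁻¹ * t * ψ r ∈ X) : blockFn R ψ t ∈ diag Q ι R ψ X := by
  rw [order_mem_diag]
  refine ⟨?_, ?_, ?_⟩
  · rw [order_mem_base]
    intro p q
    have h := order_blockFn_equiv R ψ t p (Subgroup.inclusion hQR q)
    rw [hψ q] at h
    exact h
  · intro p
    by_cases hp : p ∈ R
    · have h := hX ⟨p, hp⟩
      simp only [blockFn, dif_pos hp]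
      exact h
    · simp only [blockFn, dif_neg hp]
      exact X.one_mem
  · intro p r
    have _ht := ht
    exact order_blockFn_equiv R ψ t p r

theorem blockFn_apply_one (R : Subgroup P) (ψ : R →* T) (t : T) : blockFn R ψ t 1 = t := by
  have e : (⟨1, R.one_mem⟩ : R) = 1 := rfl
  simp only [blockFn, dif_pos R.one_mem]
  rw [e, map_one]
  group

theorem blockFn_apply_of_not_mem (R : Subgroup P) (ψ : R →* T) (t : T) {p : P} (hp : p ∉ R) :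
    blockFn R ψ t p = 1 := by
  simp only [blockFn, dif_neg hp]

/-- if one diagonal subgroup with a nontrivial block function lies in another then the blocks
are nested the other way -/
theorem block_le_of_diag_le (R₁ R₂ : Subgroup P) (ψ₁ : R₁ →* T) (ψ₂ : R₂ →* T)
    (X₁ X₂ : Subgroup T) (hQR : Q ≤ R₁) (hψ : ∀ q : Q, ψ₁ (Subgroup.inclusion hQR q) = ι q)
    {t : T} (ht : t ∈ X₁) (ht1 : t ≠ 1) (hX : ∀ r : R₁, (ψ₁ r)⁻¹ * t * ψ₁ r ∈ X₁)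
    (hle : diag Q ι R₁ ψ₁ X₁ ≤ diag Q ι R₂ ψ₂ X₂) : R₂ ≤ R₁ := by
  intro r hr
  by_contra hr1
  have hg : blockFn R₁ ψ₁ t ∈ diag Q ι R₂ ψ₂ X₂ :=
    hle (blockFn_mem_diag R₁ ψ₁ X₁ hQR hψ ht hX)
  rw [order_mem_diag] at hg
  have h1 : blockFn R₁ ψ₁ t (1 * r)
      = (ψ₂ ⟨r, hr⟩)⁻¹ * blockFn R₁ ψ₁ t 1 * ψ₂ ⟨r, hr⟩ := hg.2.2 1 ⟨r, hr⟩
  rw [one_mul, blockFn_apply_one, blockFn_apply_of_not_mem R₁ ψ₁ t hr1] at h1
  apply ht1
  have h2 : t = ψ₂ ⟨r, hr⟩ * ((ψ₂ ⟨r, hr⟩)⁻¹ * t * ψ₂ ⟨r, hr⟩) * (ψ₂ ⟨r, hr⟩)⁻¹ := by group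
  rw [h2, ← h1]
  group

/-- the function `delta` is the block function of `Q` itself -/
theorem order_delta_eq (t : T) : delta Q ι t = blockFn Q ι t := rfl

theorem order_delta_one (t : T) : delta Q ι t 1 = t := by
  rw [order_delta_eq, blockFn_apply_one]

theorem order_delta_of_not_mem (t : T) {p : P} (hp : p ∉ Q) : delta Q ι t p = 1 := by
  rw [order_delta_eq, blockFn_apply_of_not_mem Q ι t hp]

theorem order_delta_mem_vals (X : Subgroup T) {t : T} (ht : t ∈ X)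
    (hX : ∀ q : Q, (ι q)⁻¹ * t * ι q ∈ X) : delta Q ι t ∈ vals Q ι X := by
  have h : blockFn Q ι t ∈ diag Q ι Q ι X :=
    blockFn_mem_diag Q ι X (le_refl Q) (fun q => rfl) ht hX
  rw [order_mem_diag] at h
  rw [order_mem_vals, order_delta_eq]
  exact ⟨h.1, h.2.1⟩

variable (c : Config P T)

theorem order_mem_Ea (f : P → T) :
    f ∈ c.Ea ↔ f ∈ base c.Q c.iota ∧ (∀ p, f p ∈ c.S) ∧
      ∀ (p : P) (r : c.Rc), f (p * r) = (c.psic r)⁻¹ * f p * c.psic r := Iff.rfl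

theorem order_mem_Ec (f : P → T) :
    f ∈ c.Ec ↔ f ∈ base c.Q c.iota ∧ (∀ p, f p ∈ (⊤ : Subgroup T)) ∧
      ∀ (p : P) (r : c.Rc), f (p * r) = (c.psic r)⁻¹ * f p * c.psic r := Iff.rfl

theorem order_mem_Eb (f : P → T) :
    f ∈ c.Eb ↔ f ∈ base c.Q c.iota ∧ (∀ p, f p ∈ (⊤ : Subgroup T)) ∧
      ∀ (p : P) (r : c.Rb), f (p * r) = (c.psib r)⁻¹ * f p * c.psib r := Iff.rfl

theorem order_mem_Ew (f : P → T) :
    f ∈ c.Ew ↔ f ∈ base c.Q c.iota ∧ (∀ p, f p ∈ (⊤ : Subgroup T)) ∧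
      ∀ (p : P) (r : c.Rw), f (p * r) = (c.psiw r)⁻¹ * f p * c.psiw r := Iff.rfl

theorem order_mem_Ed (f : P → T) :
    f ∈ c.Ed ↔ f ∈ base c.Q c.iota ∧ ∀ p, f p ∈ c.S := Iff.rfl

theorem order_exists_ne_one : ∃ a ∈ c.S, a ≠ 1 := by
  obtain ⟨a, ha, b, -, hab⟩ := c.S_noncomm
  refine ⟨a, ha, ?_⟩
  intro h
  apply hab
  rw [h, one_mul, mul_one]

theorem order_psic_mem (r : c.Rc) : c.psic r ∈ c.S := by
  obtain ⟨h, hS⟩ := (c.mem_Rc).mp r.2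
  exact hS

theorem order_psic_conj_mem {a : T} (ha : a ∈ c.S) (r : c.Rc) :
    (c.psic r)⁻¹ * a * c.psic r ∈ c.S :=
  c.S.mul_mem (c.S.mul_mem (c.S.inv_mem (order_psic_mem c r)) ha) (order_psic_mem c r)

theorem order_V_exists : ∃ v ∈ c.V, v ≠ 1 := by
  by_contra h
  apply c.V_ne_bot
  rw [Subgroup.eq_bot_iff_forall]
  intro v hv
  by_contra hv1
  exact h ⟨v, hv, hv1⟩

theorem Ea_le_Ed : c.Ea ≤ c.Ed := by
  intro f hf
  rw [order_mem_Ea] at hf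
  rw [order_mem_Ed]
  exact ⟨hf.1, hf.2.1⟩

theorem Ea_le_Ec : c.Ea ≤ c.Ec := by
  intro f hf
  rw [order_mem_Ea] at hf
  rw [order_mem_Ec]
  exact ⟨hf.1, fun _ => Subgroup.mem_top _, hf.2.2⟩

theorem Eb_le_Ec : c.Eb ≤ c.Ec := by
  intro f hf
  rw [order_mem_Eb] at hf
  rw [order_mem_Ec]
  refine ⟨hf.1, fun _ => Subgroup.mem_top _, fun p r => ?_⟩
  exact hf.2.2 p (Subgroup.inclusion c.Rc_le r)

theorem Ea_ne_bot : c.Ea ≠ ⊥ := by
  obtain ⟨a, ha, ha1⟩ := order_exists_ne_one c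
  intro hbot
  have hmem : blockFn c.Rc c.psic a ∈ c.Ea :=
    blockFn_mem_diag c.Rc c.psic c.S c.Q_le_Rc c.psic_Q ha
      (fun r => order_psic_conj_mem c ha r)
  rw [hbot, Subgroup.mem_bot] at hmem
  apply ha1
  have h1 := congrFun hmem 1
  rw [blockFn_apply_one] at h1
  exact h1

theorem Eb_ne_bot : c.Eb ≠ ⊥ := by
  obtain ⟨a, -, ha1⟩ := order_exists_ne_one c
  intro hbot
  have hmem : blockFn c.Rb c.psib a ∈ c.Eb :=
    blockFn_mem_diag c.Rb c.psib ⊤ c.Q_le_Rb c.psib_Q (Subgroup.mem_top a)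
      (fun _ => Subgroup.mem_top _)
  rw [hbot, Subgroup.mem_bot] at hmem
  apply ha1
  have h1 := congrFun hmem 1
  rw [blockFn_apply_one] at h1
  exact h1

theorem Ew_ne_bot : c.Ew ≠ ⊥ := by
  obtain ⟨a, -, ha1⟩ := order_exists_ne_one c
  intro hbot
  have hmem : blockFn c.Rw c.psiw a ∈ c.Ew :=
    blockFn_mem_diag c.Rw c.psiw ⊤ c.Q_le_Rw c.psiw_Q (Subgroup.mem_top a)
      (fun _ => Subgroup.mem_top _)
  rw [hbot, Subgroup.mem_bot] at hmem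
  apply ha1
  have h1 := congrFun hmem 1
  rw [blockFn_apply_one] at h1
  exact h1

theorem Eb_inf_Ed : c.Eb ⊓ c.Ed = ⊥ := by
  rw [Subgroup.eq_bot_iff_forall]
  intro f hf
  obtain ⟨hb, hd⟩ := Subgroup.mem_inf.mp hf
  rw [order_mem_Eb] at hb
  rw [order_mem_Ed] at hd
  funext p
  show f p = 1
  apply c.S_core
  intro u
  obtain ⟨r, hr⟩ := c.psib_surj u⁻¹
  have h1 := hb.2.2 p r
  rw [hr, inv_inv] at h1
  rw [← h1]
  exact hd.2 (p * r)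

theorem Ew_inf_Ed : c.Ew ⊓ c.Ed = ⊥ := by
  rw [Subgroup.eq_bot_iff_forall]
  intro f hf
  obtain ⟨hb, hd⟩ := Subgroup.mem_inf.mp hf
  rw [order_mem_Ew] at hb
  rw [order_mem_Ed] at hd
  funext p
  show f p = 1
  apply c.S_core
  intro u
  obtain ⟨r, hr⟩ := c.psiw_bij.2 u⁻¹
  have h1 := hb.2.2 p r
  rw [hr, inv_inv] at h1
  rw [← h1]
  exact hd.2 (p * r)

theorem not_Ew_le_Ec : ¬ c.Ew ≤ c.Ec := by
  intro hle
  obtain ⟨a, -, ha1⟩ := order_exists_ne_one c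
  have h : c.Rc ≤ c.Rw :=
    block_le_of_diag_le c.Rw c.Rc c.psiw c.psic ⊤ ⊤ c.Q_le_Rw c.psiw_Q (Subgroup.mem_top a) ha1
      (fun _ => Subgroup.mem_top _) hle
  exact c.V_not_le (le_trans c.V_le_Rc h)

theorem not_Ea_le_Ew : ¬ c.Ea ≤ c.Ew := by
  intro hle
  obtain ⟨a, ha, ha1⟩ := order_exists_ne_one c
  have h : c.Rw ≤ c.Rc :=
    block_le_of_diag_le c.Rc c.Rw c.psic c.psiw c.S ⊤ c.Q_le_Rc c.psic_Q ha ha1
      (fun r => order_psic_conj_mem c ha r) hle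
  exact c.Rw_not_le (le_trans h c.Rc_le)

theorem not_Eb_le_Ew : ¬ c.Eb ≤ c.Ew := by
  intro hle
  obtain ⟨a, -, ha1⟩ := order_exists_ne_one c
  have h : c.Rw ≤ c.Rb :=
    block_le_of_diag_le c.Rb c.Rw c.psib c.psiw ⊤ ⊤ c.Q_le_Rb c.psib_Q (Subgroup.mem_top a) ha1
      (fun _ => Subgroup.mem_top _) hle
  exact c.Rw_not_le h

theorem not_Ea_le_Eb : ¬ c.Ea ≤ c.Eb := by
  intro hle
  obtain ⟨a, ha, ha1⟩ := order_exists_ne_one c
  have h : c.Rb ≤ c.Rc :=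
    block_le_of_diag_le c.Rc c.Rb c.psic c.psib c.S ⊤ c.Q_le_Rc c.psic_Q ha ha1
      (fun r => order_psic_conj_mem c ha r) hle
  apply c.S_ne_top
  rw [eq_top_iff]
  intro u _
  obtain ⟨r, hr⟩ := c.psib_surj u
  obtain ⟨h', hS⟩ := (c.mem_Rc).mp (h r.2)
  rw [← hr]
  exact hS

theorem not_Ed_le_Ec : ¬ c.Ed ≤ c.Ec := by
  intro hle
  obtain ⟨s, hs, hs1⟩ := order_exists_ne_one c
  obtain ⟨v, hv, hv1⟩ := order_V_exists c
  have hvQ : v ∉ c.Q := by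
    intro hq
    have hmem : v ∈ c.V ⊓ c.Q := Subgroup.mem_inf.mpr ⟨hv, hq⟩
    rw [c.V_inf_Q, Subgroup.mem_bot] at hmem
    exact hv1 hmem
  have hd : delta c.Q c.iota s ∈ c.Ed := by
    refine order_delta_mem_vals c.S hs (fun q => ?_)
    have hq : c.iota q ∈ c.S := (c.iota_range (c.iota q)).mpr ⟨q, rfl⟩
    exact c.S.mul_mem (c.S.mul_mem (c.S.inv_mem hq) hs) hq
  have hc := hle hd
  rw [order_mem_Ec] at hc
  have hvRc : v ∈ c.Rc := c.V_le_Rc hv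
  have h1 : delta c.Q c.iota s (1 * v)
      = (c.psic ⟨v, hvRc⟩)⁻¹ * delta c.Q c.iota s 1 * c.psic ⟨v, hvRc⟩ := hc.2.2 1 ⟨v, hvRc⟩
  have hpsi : c.psic ⟨v, hvRc⟩ = 1 :=
    (c.psib_ker ⟨v, c.Rc_le hvRc⟩).mpr hv
  rw [hpsi, one_mul, order_delta_one, order_delta_of_not_mem s hvQ, inv_one, one_mul,
    mul_one] at h1
  exact hs1 h1.symm

end F

end Vale.Agent.Lib.P183.Exc
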