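import Vale.Agent.Lib.P183.Exc.Basics
import Vale.Agent.Lib.P183.Exc.OrderFacts
import Vale.Agent.Lib.P183.Exc.Classify

/-!
# The order isomorphism with the seven-element lattice
-/

namespace Vale.Agent.Lib.P183.Exc

open Classical

variable {P T : Type} [Group P] [Group T]

section G3
variable (c : Config P T)

/-- The four subgroups whose containment pattern encodes an admissible subgroup. -/
noncomputable def iso_gen : Fin 4 → Subgroup (P → T) := ![c.Ea, c.Eb, c.Ed, c.Ew]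

/-- The set of indices of the four encoding subgroups contained in `Y`. -/
noncomputable def iso_code (Y : Subgroup (P → T)) : Finset (Fin 4) :=
  Finset.univ.filter (fun i => iso_gen c i ≤ Y)

theorem iso_mem_code (Y : Subgroup (P → T)) (i : Fin 4) :
    i ∈ iso_code c Y ↔ iso_gen c i ≤ Y := by
  simp [iso_code]

theorem iso_code_mono {Y Y' : Subgroup (P → T)} (h : Y ≤ Y') :
    iso_code c Y ≤ iso_code c Y' := by
  intro i hi
  rw [iso_mem_code] at hi ⊢
  exact le_trans hi h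

theorem iso_code_eq (Y : Subgroup (P → T)) (s : Finset (Fin 4))
    (h0 : c.Ea ≤ Y ↔ (0 : Fin 4) ∈ s) (h1 : c.Eb ≤ Y ↔ (1 : Fin 4) ∈ s)
    (h2 : c.Ed ≤ Y ↔ (2 : Fin 4) ∈ s) (h3 : c.Ew ≤ Y ↔ (3 : Fin 4) ∈ s) :
    iso_code c Y = s := by
  ext i
  rw [iso_mem_code]
  fin_cases i
  · exact h0
  · exact h1
  · exact h2
  · exact h3

theorem iso_Ed_ne_bot : c.Ed ≠ ⊥ := by
  intro h
  apply Ea_ne_bot c
  have h1 := Ea_le_Ed c
  rw [h] at h1
  exact le_bot_iff.mp h1

theorem iso_not_Eb_le_Ed : ¬ c.Eb ≤ c.Ed := by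
  intro h
  apply Eb_ne_bot c
  have h1 := Eb_inf_Ed c
  rw [inf_eq_left.mpr h] at h1
  exact h1

theorem iso_not_Ew_le_Ed : ¬ c.Ew ≤ c.Ed := by
  intro h
  apply Ew_ne_bot c
  have h1 := Ew_inf_Ed c
  rw [inf_eq_left.mpr h] at h1
  exact h1

theorem iso_not_Eb_le_Ea : ¬ c.Eb ≤ c.Ea := fun h =>
  iso_not_Eb_le_Ed c (le_trans h (Ea_le_Ed c))

theorem iso_not_Ew_le_Ea : ¬ c.Ew ≤ c.Ea := fun h =>
  iso_not_Ew_le_Ed c (le_trans h (Ea_le_Ed c))

theorem iso_not_Ed_le_Ea : ¬ c.Ed ≤ c.Ea := fun h =>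
  not_Ed_le_Ec c (le_trans h (Ea_le_Ec c))

theorem iso_not_Ed_le_Eb : ¬ c.Ed ≤ c.Eb := fun h =>
  not_Ed_le_Ec c (le_trans h (Eb_le_Ec c))

theorem iso_not_Ew_le_Eb : ¬ c.Ew ≤ c.Eb := fun h =>
  not_Ew_le_Ec c (le_trans h (Eb_le_Ec c))

theorem iso_not_Ed_le_Ew : ¬ c.Ed ≤ c.Ew := fun h =>
  not_Ea_le_Ew c (le_trans (Ea_le_Ed c) h)

theorem iso_adm_Ea : IsAdm c.Q c.iota c.Ea := isAdm_diag c.Rc c.psic c.S

theorem iso_adm_Eb : IsAdm c.Q c.iota c.Eb := isAdm_diag c.Rb c.psib ⊤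

theorem iso_adm_Ew : IsAdm c.Q c.iota c.Ew := isAdm_diag c.Rw c.psiw ⊤

theorem iso_adm_Ec : IsAdm c.Q c.iota c.Ec := isAdm_diag c.Rc c.psic ⊤

theorem iso_adm_Ed : IsAdm c.Q c.iota c.Ed := isAdm_vals c.S

theorem iso_code_bot : iso_code c (⊥ : Subgroup (P → T)) = ∅ := by
  apply iso_code_eq
  · exact iff_of_false (fun h => Ea_ne_bot c (le_bot_iff.mp h)) (by decide)
  · exact iff_of_false (fun h => Eb_ne_bot c (le_bot_iff.mp h)) (by decide)
  · exact iff_of_false (fun h => iso_Ed_ne_bot c (le_bot_iff.mp h)) (by decide)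
  · exact iff_of_false (fun h => Ew_ne_bot c (le_bot_iff.mp h)) (by decide)

theorem iso_code_Ea : iso_code c c.Ea = {0} := by
  apply iso_code_eq
  · exact iff_of_true le_rfl (by decide)
  · exact iff_of_false (iso_not_Eb_le_Ea c) (by decide)
  · exact iff_of_false (iso_not_Ed_le_Ea c) (by decide)
  · exact iff_of_false (iso_not_Ew_le_Ea c) (by decide)

theorem iso_code_Eb : iso_code c c.Eb = {1} := by
  apply iso_code_eq
  · exact iff_of_false (not_Ea_le_Eb c) (by decide)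
  · exact iff_of_true le_rfl (by decide)
  · exact iff_of_false (iso_not_Ed_le_Eb c) (by decide)
  · exact iff_of_false (iso_not_Ew_le_Eb c) (by decide)

theorem iso_code_Ew : iso_code c c.Ew = {3} := by
  apply iso_code_eq
  · exact iff_of_false (not_Ea_le_Ew c) (by decide)
  · exact iff_of_false (not_Eb_le_Ew c) (by decide)
  · exact iff_of_false (iso_not_Ed_le_Ew c) (by decide)
  · exact iff_of_true le_rfl (by decide)

theorem iso_code_Ec : iso_code c c.Ec = {0, 1} := by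
  apply iso_code_eq
  · exact iff_of_true (Ea_le_Ec c) (by decide)
  · exact iff_of_true (Eb_le_Ec c) (by decide)
  · exact iff_of_false (not_Ed_le_Ec c) (by decide)
  · exact iff_of_false (not_Ew_le_Ec c) (by decide)

theorem iso_code_Ed : iso_code c c.Ed = {0, 2} := by
  apply iso_code_eq
  · exact iff_of_true (Ea_le_Ed c) (by decide)
  · exact iff_of_false (iso_not_Eb_le_Ed c) (by decide)
  · exact iff_of_true le_rfl (by decide)
  · exact iff_of_false (iso_not_Ew_le_Ed c) (by decide)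

theorem iso_code_base : iso_code c (base c.Q c.iota) = Finset.univ := by
  apply iso_code_eq
  · exact iff_of_true (iso_adm_Ea c).1 (by decide)
  · exact iff_of_true (iso_adm_Eb c).1 (by decide)
  · exact iff_of_true (iso_adm_Ed c).1 (by decide)
  · exact iff_of_true (iso_adm_Ew c).1 (by decide)

theorem iso_code_mem [Finite P] [Finite T] (Y : Subgroup (P → T)) (hY : IsAdm c.Q c.iota Y) :
    iso_code c Y ∈ L7set := by
  rcases classify c Y hY with h | h | h | h | h | h | h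
  · rw [h, iso_code_bot]; decide
  · rw [h, iso_code_Ea]; decide
  · rw [h, iso_code_Eb]; decide
  · rw [h, iso_code_Ew]; decide
  · rw [h, iso_code_Ec]; decide
  · rw [h, iso_code_Ed]; decide
  · rw [h, iso_code_base]; decide

theorem iso_le_of_code_le [Finite P] [Finite T] (Y Y' : Subgroup (P → T))
    (hY : IsAdm c.Q c.iota Y) (hY' : IsAdm c.Q c.iota Y')
    (h : iso_code c Y ≤ iso_code c Y') : Y ≤ Y' := by
  rcases classify c Y hY with e | e | e | e | e | e | e <;>
  rcases classify c Y' hY' with e' | e' | e' | e' | e' | e' | e' <;>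
  subst e <;> subst e' <;>
  first
    | exact bot_le
    | exact le_rfl
    | exact Ea_le_Ec c
    | exact Ea_le_Ed c
    | exact Eb_le_Ec c
    | exact (iso_adm_Ea c).1
    | exact (iso_adm_Eb c).1
    | exact (iso_adm_Ew c).1
    | exact (iso_adm_Ec c).1
    | exact (iso_adm_Ed c).1
    | (exfalso
       simp only [iso_code_bot, iso_code_Ea, iso_code_Eb, iso_code_Ew, iso_code_Ec,
         iso_code_Ed, iso_code_base] at h
       revert h
       decide)

/-- The encoding map from admissible subgroups to the seven-element lattice. -/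
noncomputable def iso_map [Finite P] [Finite T] (Y : Adm c.Q c.iota) : L7 :=
  ⟨iso_code c Y.1, iso_code_mem c Y.1 Y.2⟩

theorem iso_map_le_iff [Finite P] [Finite T] (Y Y' : Adm c.Q c.iota) :
    iso_map c Y ≤ iso_map c Y' ↔ Y ≤ Y' := by
  constructor
  · intro h
    exact iso_le_of_code_le c Y.1 Y'.1 Y.2 Y'.2 h
  · intro h
    exact iso_code_mono c h

theorem iso_map_surjective [Finite P] [Finite T] : Function.Surjective (iso_map c) := by
  rintro ⟨s, hs⟩
  simp only [L7set, Finset.mem_insert, Finset.mem_singleton] at hs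
  rcases hs with h | h | h | h | h | h | h
  · exact ⟨⟨⊥, isAdm_bot⟩, Subtype.ext ((iso_code_bot c).trans h.symm)⟩
  · exact ⟨⟨c.Ea, iso_adm_Ea c⟩, Subtype.ext ((iso_code_Ea c).trans h.symm)⟩
  · exact ⟨⟨c.Eb, iso_adm_Eb c⟩, Subtype.ext ((iso_code_Eb c).trans h.symm)⟩
  · exact ⟨⟨c.Ew, iso_adm_Ew c⟩, Subtype.ext ((iso_code_Ew c).trans h.symm)⟩
  · exact ⟨⟨c.Ec, iso_adm_Ec c⟩, Subtype.ext ((iso_code_Ec c).trans h.symm)⟩
  · exact ⟨⟨c.Ed, iso_adm_Ed c⟩, Subtype.ext ((iso_code_Ed c).trans h.symm)⟩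
  · exact ⟨⟨base c.Q c.iota, isAdm_base⟩, Subtype.ext ((iso_code_base c).trans h.symm)⟩

theorem exists_orderIso [Finite P] [Finite T] : Nonempty (L7 ≃o Adm c.Q c.iota) :=
  ⟨(RelIso.ofSurjective (OrderEmbedding.ofMapLEIff (iso_map c) (iso_map_le_iff c))
    (iso_map_surjective c)).symm⟩
end G3

end Vale.Agent.Lib.P183.Exc
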