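import Mathlib

/-!
# The exceptional seven-element lattice

`L7` is the seven-element lattice `{0, a, b, w, c, d, 1}` whose only strict relations, apart
from `0 < x < 1`, are `a < c`, `b < c` and `a < d`.  It is realised here as seven subsets of
`{0, 1, 2, 3}` ordered by inclusion:
`0 = {}`, `a = {0}`, `b = {1}`, `w = {3}`, `c = {0, 1}`, `d = {0, 2}`, `1 = {0, 1, 2, 3}`.
-/

namespace Vale.Agent.Lib.P183.Exc

/-- The seven subsets of `{0, 1, 2, 3}` forming the lattice `L7` under inclusion. -/
def L7set : Finset (Finset (Fin 4)) :=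
  {∅, {0}, {1}, {3}, {0, 1}, {0, 2}, Finset.univ}

/-- The seven-element lattice `L7`, ordered by inclusion. -/
abbrev L7 : Type := {s : Finset (Fin 4) // s ∈ L7set}

end Vale.Agent.Lib.P183.Exc
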