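import Vale.Agent.Lib.P183.Exc.MSig
import Vale.Agent.Lib.P183.Exc.AltSixA

/-!
# The two homomorphisms onto the alternating group of degree six
-/

namespace Vale.Agent.Lib.P183.Exc

open Equiv

variable (d : Cert)

theorem mhoms_mem_RbS (x : Perm (Fin 22)) : x ∈ d.RbS ↔ x ∈ d.P ∧ x ∈ famStab d.Bh :=
  Subgroup.mem_inf

theorem mhoms_mem_RwS (x : Perm (Fin 22)) : x ∈ d.RwS ↔ x ∈ d.P ∧ x ∈ famStab d.Bw :=
  Subgroup.mem_inf

theorem mhoms_mem_Qs (x : Perm (Fin 22)) :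
    x ∈ d.Qs ↔ x ∈ d.P ∧ x ∈ famStab d.Bh ∧ x ∈ famStab d.Bw := by
  unfold Cert.Qs
  rw [Subgroup.mem_inf, Subgroup.mem_inf]

theorem mhoms_mem_Vs (x : Perm (Fin 22)) : x ∈ d.Vs ↔ ∃ m, d.vl m = x := Iff.rfl

/-- The index action does not depend on the proof of membership. -/
theorem mhoms_famHom_congr {B : Fin 6 → Finset (Fin 22)} (hB : Function.Injective B)
    {x y : Perm (Fin 22)} (hx : x ∈ famStab B) (hy : y ∈ famStab B) (h : x = y) :
    famHom B hB ⟨x, hx⟩ = famHom B hB ⟨y, hy⟩ := by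
  subst h
  rfl

/-- The index action of a product of three elements of the stabiliser. -/
theorem mhoms_famHom_mul3 {B : Fin 6 → Finset (Fin 22)} (hB : Function.Injective B)
    {r x y z : Perm (Fin 22)} (hr : r ∈ famStab B) (hx : x ∈ famStab B) (hy : y ∈ famStab B)
    (hz : z ∈ famStab B) (h : r = x * y * z) :
    famHom B hB ⟨r, hr⟩ = famHom B hB ⟨x, hx⟩ * famHom B hB ⟨y, hy⟩ * famHom B hB ⟨z, hz⟩ := by
  rw [← map_mul, ← map_mul]
  exact congrArg (famHom B hB) (Subtype.ext h)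

theorem mhoms_sign_qlh (k : Fin 60) :
    Perm.sign (famHom d.Bh d.Bh_inj ⟨d.ql k, (d.ql_stab k).1⟩) = 1 := by
  obtain ⟨s, t, hst⟩ := d.ql_square k
  have hs := (d.ql_stab s).1
  have ht := (d.ql_stab t).1
  have h1 : famHom d.Bh d.Bh_inj ⟨d.ql k, (d.ql_stab k).1⟩
      = famHom d.Bh d.Bh_inj ⟨d.ql s, hs⟩ * famHom d.Bh d.Bh_inj ⟨d.ql s, hs⟩
        * (famHom d.Bh d.Bh_inj ⟨d.ql t, ht⟩ * famHom d.Bh d.Bh_inj ⟨d.ql t, ht⟩) := by
    rw [← map_mul, ← map_mul, ← map_mul]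
    exact congrArg (famHom d.Bh d.Bh_inj) (Subtype.ext hst)
  rw [h1, map_mul, map_mul, map_mul, Int.units_mul_self, Int.units_mul_self, mul_one]

theorem mhoms_sign_qlw (k : Fin 60) :
    Perm.sign (famHom d.Bw d.Bw_inj ⟨d.ql k, (d.ql_stab k).2⟩) = 1 := by
  rw [← d.ql_act k]
  exact mhoms_sign_qlh d k

theorem mhoms_qlh_zero : famHom d.Bh d.Bh_inj ⟨d.ql 0, (d.ql_stab 0).1⟩ = 1 := by
  have h : (⟨d.ql 0, (d.ql_stab 0).1⟩ : famStab d.Bh) = 1 := Subtype.ext d.ql_zero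
  rw [h, map_one]

theorem mhoms_qlw_fix (k : Fin 60) :
    famHom d.Bw d.Bw_inj ⟨d.ql k, (d.ql_stab k).2⟩ 0 = 0 := by
  rw [← d.ql_act k]
  exact d.ql_act0 k

theorem Cert.hb_even (r : d.RbS) : Perm.sign (d.hb r) = 1 := by
  have hr := (mhoms_mem_RbS d r.1).mp r.2
  obtain ⟨a, j, b, hx⟩ := d.cover_all r.1 hr.1
  have ha := (d.ql_stab a).1
  have hb := (d.ql_stab b).1
  have hj : d.dc j ∈ famStab d.Bh := by
    have h1 : d.dc j = (d.ql a)⁻¹ * (r : Perm (Fin 22)) * (d.ql b)⁻¹ := by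
      rw [hx]
      group
    rw [h1]
    exact (famStab d.Bh).mul_mem ((famStab d.Bh).mul_mem ((famStab d.Bh).inv_mem ha) hr.2)
      ((famStab d.Bh).inv_mem hb)
  have h2 : d.hb r = famHom d.Bh d.Bh_inj ⟨d.ql a, ha⟩ * famHom d.Bh d.Bh_inj ⟨d.dc j, hj⟩
      * famHom d.Bh d.Bh_inj ⟨d.ql b, hb⟩ :=
    mhoms_famHom_mul3 d.Bh_inj hr.2 ha hj hb hx
  rw [h2, map_mul, map_mul, mhoms_sign_qlh, mhoms_sign_qlh, d.dc_sign j hj, one_mul, one_mul]

theorem Cert.hw_even (r : d.RwS) : Perm.sign (d.hw r) = 1 := by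
  have hr := (mhoms_mem_RwS d r.1).mp r.2
  rcases (d.mem_RwS_iff r.1).mp r.2 with ⟨k, hk⟩ | ⟨a, b, hx⟩
  · have h2 : d.hw r = famHom d.Bw d.Bw_inj ⟨d.ql k, (d.ql_stab k).2⟩ :=
      mhoms_famHom_congr d.Bw_inj hr.2 (d.ql_stab k).2 hk
    rw [h2]
    exact mhoms_sign_qlw d k
  · have ha := (d.ql_stab a).2
    have hb := (d.ql_stab b).2
    have h2 : d.hw r = famHom d.Bw d.Bw_inj ⟨d.ql a, ha⟩
        * famHom d.Bw d.Bw_inj ⟨d.dc d.w, d.dcw_stabw⟩ * famHom d.Bw d.Bw_inj ⟨d.ql b, hb⟩ :=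
      mhoms_famHom_mul3 d.Bw_inj hr.2 ha d.dcw_stabw hb hx
    rw [h2, map_mul, map_mul, mhoms_sign_qlw, mhoms_sign_qlw, d.dcw_sign, one_mul, one_mul]

/-- The action on the first family, as a map to the alternating group. -/
noncomputable def Cert.psibS : ↥d.RbS →* alternatingGroup (Fin 6) :=
  d.hb.codRestrict (alternatingGroup (Fin 6)) (fun r => Perm.mem_alternatingGroup.mpr (d.hb_even r))

/-- The action on the second family, as a map to the alternating group. -/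
noncomputable def Cert.psiwS : ↥d.RwS →* alternatingGroup (Fin 6) :=
  d.hw.codRestrict (alternatingGroup (Fin 6)) (fun r => Perm.mem_alternatingGroup.mpr (d.hw_even r))

theorem mhoms_psibS_val (r : d.RbS) (hr : (r : Perm (Fin 22)) ∈ famStab d.Bh) :
    ((d.psibS r : alternatingGroup (Fin 6)) : Perm (Fin 6))
      = famHom d.Bh d.Bh_inj ⟨r.1, hr⟩ := rfl

theorem mhoms_psiwS_val (r : d.RwS) (hr : (r : Perm (Fin 22)) ∈ famStab d.Bw) :
    ((d.psiwS r : alternatingGroup (Fin 6)) : Perm (Fin 6))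
      = famHom d.Bw d.Bw_inj ⟨r.1, hr⟩ := rfl

theorem Cert.Qs_le_RbS : d.Qs ≤ d.RbS := by
  intro x hx
  have h := (mhoms_mem_Qs d x).mp hx
  exact (mhoms_mem_RbS d x).mpr ⟨h.1, h.2.1⟩

theorem Cert.Qs_le_RwS : d.Qs ≤ d.RwS := by
  intro x hx
  have h := (mhoms_mem_Qs d x).mp hx
  exact (mhoms_mem_RwS d x).mpr ⟨h.1, h.2.2⟩

theorem Cert.Vs_le_RbS : d.Vs ≤ d.RbS := by
  intro x hx
  refine (mhoms_mem_RbS d x).mpr ⟨d.Vs_le_P hx, ?_⟩
  obtain ⟨m, rfl⟩ := (mhoms_mem_Vs d x).mp hx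
  rw [mem_famStab]
  intro i
  exact ⟨i, d.vl_fix m i⟩

/-- The value of the first map at one of the sixty elements. -/
theorem mhoms_psibS_Qs (q : d.Qs) (k : Fin 60) (hk : (q : Perm (Fin 22)) = d.ql k) :
    ((d.psibS (Subgroup.inclusion d.Qs_le_RbS q) : alternatingGroup (Fin 6)) : Perm (Fin 6))
      = famHom d.Bh d.Bh_inj ⟨d.ql k, (d.ql_stab k).1⟩ := by
  have hq := (mhoms_mem_Qs d q.1).mp q.2
  have h1 : ((d.psibS (Subgroup.inclusion d.Qs_le_RbS q) : alternatingGroup (Fin 6)) :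
      Perm (Fin 6)) = famHom d.Bh d.Bh_inj ⟨q.1, hq.2.1⟩ := rfl
  rw [h1]
  exact mhoms_famHom_congr d.Bh_inj hq.2.1 (d.ql_stab k).1 hk

/-- The value of the second map at one of the sixty elements. -/
theorem mhoms_psiwS_Qs (q : d.Qs) (k : Fin 60) (hk : (q : Perm (Fin 22)) = d.ql k) :
    ((d.psiwS (Subgroup.inclusion d.Qs_le_RwS q) : alternatingGroup (Fin 6)) : Perm (Fin 6))
      = famHom d.Bh d.Bh_inj ⟨d.ql k, (d.ql_stab k).1⟩ := by
  have hq := (mhoms_mem_Qs d q.1).mp q.2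
  have h1 : ((d.psiwS (Subgroup.inclusion d.Qs_le_RwS q) : alternatingGroup (Fin 6)) :
      Perm (Fin 6)) = famHom d.Bw d.Bw_inj ⟨q.1, hq.2.2⟩ := rfl
  rw [h1, d.ql_act k]
  exact mhoms_famHom_congr d.Bw_inj hq.2.2 (d.ql_stab k).2 hk

theorem Cert.psib_eq_psiw (q : d.Qs) :
    d.psibS (Subgroup.inclusion d.Qs_le_RbS q) = d.psiwS (Subgroup.inclusion d.Qs_le_RwS q) := by
  obtain ⟨k, hk⟩ := (d.mem_Qs_iff q.1).mp q.2
  apply Subtype.ext
  rw [mhoms_psibS_Qs d q k hk, mhoms_psiwS_Qs d q k hk]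

/-- The second map sends the sixty elements into the point stabiliser. -/
theorem mhoms_psiwS_Qs_mem (q : d.Qs) :
    d.psiwS (Subgroup.inclusion d.Qs_le_RwS q) ∈ stabZero := by
  obtain ⟨k, hk⟩ := (d.mem_Qs_iff q.1).mp q.2
  rw [mem_stabZero, mhoms_psiwS_Qs d q k hk]
  exact d.ql_act0 k

theorem Cert.psiw_range_Qs (t : alternatingGroup (Fin 6)) :
    t ∈ stabZero ↔ ∃ q : d.Qs, d.psiwS (Subgroup.inclusion d.Qs_le_RwS q) = t := by
  constructor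
  · intro ht
    have hinj : Function.Injective (fun q : d.Qs =>
        (⟨d.psiwS (Subgroup.inclusion d.Qs_le_RwS q), mhoms_psiwS_Qs_mem d q⟩ : stabZero)) := by
      intro q1 q2 h
      have h' : d.psiwS (Subgroup.inclusion d.Qs_le_RwS q1)
          = d.psiwS (Subgroup.inclusion d.Qs_le_RwS q2) := congrArg Subtype.val h
      obtain ⟨k1, hk1⟩ := (d.mem_Qs_iff q1.1).mp q1.2
      obtain ⟨k2, hk2⟩ := (d.mem_Qs_iff q2.1).mp q2.2
      have h'' := congrArg Subtype.val h'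
      rw [mhoms_psiwS_Qs d q1 k1 hk1, mhoms_psiwS_Qs d q2 k2 hk2] at h''
      have hk := d.ql_act_inj k1 k2 h''
      apply Subtype.ext
      rw [hk1, hk2, hk]
    have hbij := hinj.bijective_of_nat_card_le (by rw [card_stabZero, d.card_Qs])
    obtain ⟨q, hq⟩ := hbij.2 ⟨t, ht⟩
    exact ⟨q, congrArg Subtype.val hq⟩
  · rintro ⟨q, rfl⟩
    exact mhoms_psiwS_Qs_mem d q

theorem Cert.psiwS_bijective : Function.Bijective d.psiwS := by
  constructor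
  · rw [injective_iff_map_eq_one]
    intro r hr1
    have hr := (mhoms_mem_RwS d r.1).mp r.2
    have h1 : famHom d.Bw d.Bw_inj ⟨r.1, hr.2⟩ = 1 := congrArg Subtype.val hr1
    rcases (d.mem_RwS_iff r.1).mp r.2 with ⟨k, hk⟩ | ⟨a, b, hx⟩
    · rw [mhoms_famHom_congr d.Bw_inj hr.2 (d.ql_stab k).2 hk, ← d.ql_act k] at h1
      have hk0 : k = 0 := d.ql_act_inj k 0 (by rw [h1, mhoms_qlh_zero])
      apply Subtype.ext
      show (r : Perm (Fin 22)) = 1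
      rw [hk, hk0, d.ql_zero]
    · exfalso
      have ha := (d.ql_stab a).2
      have hb := (d.ql_stab b).2
      rw [mhoms_famHom_mul3 d.Bw_inj hr.2 ha d.dcw_stabw hb hx] at h1
      have h3 : (famHom d.Bw d.Bw_inj ⟨d.ql a, ha⟩
          * famHom d.Bw d.Bw_inj ⟨d.dc d.w, d.dcw_stabw⟩ * famHom d.Bw d.Bw_inj ⟨d.ql b, hb⟩) 0
          = (1 : Perm (Fin 6)) 0 := by rw [h1]
      rw [Perm.mul_apply, Perm.mul_apply, mhoms_qlw_fix d b, Perm.one_apply] at h3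
      apply d.dcw_act0
      apply (famHom d.Bw d.Bw_inj ⟨d.ql a, ha⟩).injective
      rw [h3, mhoms_qlw_fix d a]
  · rw [← MonoidHom.range_eq_top]
    have hle : stabZero ≤ d.psiwS.range := by
      intro t ht
      obtain ⟨q, hq⟩ := (d.psiw_range_Qs t).mp ht
      exact ⟨_, hq⟩
    rcases stabZero_max _ hle with h | h
    · exfalso
      have hdw : d.dc d.w ∈ d.RwS := (mhoms_mem_RwS d _).mpr ⟨d.dc_mem' d.w, d.dcw_stabw⟩
      have hmem : d.psiwS ⟨d.dc d.w, hdw⟩ ∈ d.psiwS.range := ⟨_, rfl⟩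
      rw [h, mem_stabZero] at hmem
      exact d.dcw_act0 hmem
    · exact h

theorem Cert.psibS_surjective : Function.Surjective d.psibS := by
  rw [← MonoidHom.range_eq_top]
  have hle : stabZero ≤ d.psibS.range := by
    intro t ht
    obtain ⟨q, hq⟩ := (d.psiw_range_Qs t).mp ht
    exact ⟨_, (d.psib_eq_psiw q).trans hq⟩
  rcases stabZero_max _ hle with h | h
  · exfalso
    obtain ⟨j, hj, hne⟩ := d.exists_b
    have hdj : d.dc j ∈ d.RbS := (mhoms_mem_RbS d _).mpr ⟨d.dc_mem' j, hj⟩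
    have hmem : d.psibS ⟨d.dc j, hdj⟩ ∈ d.psibS.range := ⟨_, rfl⟩
    rw [h, mem_stabZero] at hmem
    exact hne hmem
  · exact h

theorem Cert.psibS_ker (r : d.RbS) : d.psibS r = 1 ↔ (r : Perm (Fin 22)) ∈ d.Vs := by
  have hr := (mhoms_mem_RbS d r.1).mp r.2
  constructor
  · intro h1
    have hNP : d.psibS.ker.map d.RbS.subtype ≤ d.P := by
      rintro x ⟨y, -, rfl⟩
      exact ((mhoms_mem_RbS d y.1).mp y.2).1
    have hNnorm : ∀ q ∈ d.Qs, ∀ n ∈ d.psibS.ker.map d.RbS.subtype,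
        q * n * q⁻¹ ∈ d.psibS.ker.map d.RbS.subtype := by
      rintro q hq n ⟨y, hy, rfl⟩
      have hy' : d.psibS y = 1 := hy
      refine ⟨⟨q, d.Qs_le_RbS hq⟩ * y * (⟨q, d.Qs_le_RbS hq⟩ : d.RbS)⁻¹, ?_, rfl⟩
      show d.psibS (⟨q, d.Qs_le_RbS hq⟩ * y * (⟨q, d.Qs_le_RbS hq⟩ : d.RbS)⁻¹) = 1
      rw [map_mul, map_mul, hy', mul_one, map_inv, mul_inv_cancel]
    have hNQ : d.psibS.ker.map d.RbS.subtype ⊓ d.Qs = ⊥ := by
      rw [eq_bot_iff]
      rintro x ⟨⟨y, hy, rfl⟩, hxQ⟩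
      obtain ⟨k, hk⟩ := (d.mem_Qs_iff _).mp hxQ
      have hk' : (y : Perm (Fin 22)) = d.ql k := hk
      have hy' : d.psibS y = 1 := hy
      have hyb := (mhoms_mem_RbS d y.1).mp y.2
      have h2 : famHom d.Bh d.Bh_inj ⟨y.1, hyb.2⟩ = 1 := congrArg Subtype.val hy'
      rw [mhoms_famHom_congr d.Bh_inj hyb.2 (d.ql_stab k).1 hk'] at h2
      have hk0 : k = 0 := d.ql_act_inj k 0 (by rw [h2, mhoms_qlh_zero])
      rw [Subgroup.mem_bot]
      show (y : Perm (Fin 22)) = 1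
      rw [hk', hk0, d.ql_zero]
    have hrN : (r : Perm (Fin 22)) ∈ d.psibS.ker.map d.RbS.subtype := ⟨r, h1, rfl⟩
    rcases d.sig _ hNP hNnorm hNQ with h | h
    · rw [h, Subgroup.mem_bot] at hrN
      rw [hrN]
      exact d.Vs.one_mem
    · rw [h] at hrN
      exact hrN
  · intro hV
    obtain ⟨m, hm⟩ := (mhoms_mem_Vs d _).mp hV
    apply Subtype.ext
    show famHom d.Bh d.Bh_inj ⟨r.1, hr.2⟩ = 1
    refine Perm.ext (fun i => ?_)
    rw [Perm.one_apply, famHom_apply_eq_iff]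
    show (d.Bh i).image (r : Perm (Fin 22)) = d.Bh i
    rw [← hm]
    exact d.vl_fix m i

theorem Cert.RwS_not_le : ¬ d.RwS ≤ d.RbS := by
  intro h
  have hdw : d.dc d.w ∈ d.RwS := (mhoms_mem_RwS d _).mpr ⟨d.dc_mem' d.w, d.dcw_stabw⟩
  exact d.dcw_not_stabh ((mhoms_mem_RbS d _).mp (h hdw)).2

theorem Cert.Vs_not_le : ¬ d.Vs ≤ d.RwS := by
  intro h
  have hv : d.vl 1 ∈ d.Vs := (mhoms_mem_Vs d _).mpr ⟨1, rfl⟩
  exact d.vl_not_stabw ((mhoms_mem_RwS d _).mp (h hv)).2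

end Vale.Agent.Lib.P183.Exc
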