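import Vale.Agent.Lib.P183.Exc.MCover

/-!
# Normalisers of the second overgroup and of the sixteen-element subgroup
-/

namespace Vale.Agent.Lib.P183.Exc

open Equiv

variable (d : Cert)

theorem mnorm_ql_mem_RwS (k : Fin 60) : d.ql k ∈ d.RwS :=
  ⟨d.ql_mem k, (d.ql_stab k).2⟩

theorem mnorm_dcw_mem_RwS : d.dc d.w ∈ d.RwS :=
  ⟨d.dc_mem' d.w, d.dcw_stabw⟩

/-- If an element in normal form normalises the second overgroup, so does its double coset
representative. -/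
theorem mnorm_conj_dc (a : Fin 60) (j : Fin 152) (b : Fin 60)
    (h : ∀ r ∈ d.RwS,
      (d.ql a * d.dc j * d.ql b) * r * (d.ql a * d.dc j * d.ql b)⁻¹ ∈ d.RwS)
    (r : Perm (Fin 22)) (hr : r ∈ d.RwS) : d.dc j * r * (d.dc j)⁻¹ ∈ d.RwS := by
  have h1 : (d.ql b)⁻¹ * r * d.ql b ∈ d.RwS :=
    d.RwS.mul_mem (d.RwS.mul_mem (d.RwS.inv_mem (mnorm_ql_mem_RwS d b)) hr)
      (mnorm_ql_mem_RwS d b)
  have h2 := h _ h1
  have h3 : d.dc j * r * (d.dc j)⁻¹ =
      (d.ql a)⁻¹ * ((d.ql a * d.dc j * d.ql b) * ((d.ql b)⁻¹ * r * d.ql b) *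
        (d.ql a * d.dc j * d.ql b)⁻¹) * d.ql a := by
    group
  rw [h3]
  exact d.RwS.mul_mem (d.RwS.mul_mem (d.RwS.inv_mem (mnorm_ql_mem_RwS d a)) h2)
    (mnorm_ql_mem_RwS d a)

theorem Cert.normRw : ∀ x ∈ d.P, (∀ r ∈ d.RwS, x * r * x⁻¹ ∈ d.RwS) → x ∈ d.RwS := by
  intro x hx h
  obtain ⟨a, j, b, rfl⟩ := d.cover_all x hx
  have hc := mnorm_conj_dc d a j b h
  by_cases h0 : j = 0
  · rw [d.mem_RwS_iff]
    left
    obtain ⟨c, hc'⟩ := d.ql_mul a b
    exact ⟨c, by rw [h0, d.dc_zero, mul_one, hc']⟩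
  by_cases hw : j = d.w
  · rw [d.mem_RwS_iff]
    right
    exact ⟨a, b, by rw [hw]⟩
  exfalso
  rcases d.normW_wit j h0 hw with ⟨k, hk⟩ | hk
  · exact hk (hc _ (mnorm_ql_mem_RwS d k)).2
  · exact hk (hc _ (mnorm_dcw_mem_RwS d)).2

/-- Conjugation by an element normalising the sixteen-element subgroup reaches every
element of it. -/
theorem mnorm_exists_conj (x : Perm (Fin 22)) (h : ∀ v ∈ d.Vs, x * v * x⁻¹ ∈ d.Vs) :
    ∃ m, x * d.vl m * x⁻¹ = d.vl 1 := by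
  have hmem : ∀ m, ∃ n, d.vl n = x * d.vl m * x⁻¹ := fun m => h (d.vl m) ⟨m, rfl⟩
  choose f hf using hmem
  have hinj : Function.Injective f := by
    intro m n hmn
    apply d.vl_inj
    have h1 : x * d.vl m * x⁻¹ = x * d.vl n * x⁻¹ := by rw [← hf m, ← hf n, hmn]
    have h2 : d.vl m = x⁻¹ * (x * d.vl m * x⁻¹) * x := by group
    have h3 : d.vl n = x⁻¹ * (x * d.vl n * x⁻¹) * x := by group
    rw [h2, h3, h1]
  obtain ⟨m, hm⟩ := (Finite.injective_iff_surjective.mp hinj) 1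
  exact ⟨m, by rw [← hf m, hm]⟩

/-- Every element of the sixteen-element subgroup fixes the point of each singleton member of
the first family. -/
theorem mnorm_fix (m : Fin 16) (i : Fin 6) (p : Fin 22) (hp : d.Bh i = {p}) :
    d.vl m p = p := by
  have h := d.vl_fix m i
  rw [hp, Finset.image_singleton] at h
  exact Finset.singleton_injective h

theorem Cert.normV : ∀ x ∈ d.P, (∀ v ∈ d.Vs, x * v * x⁻¹ ∈ d.Vs) → x ∈ d.RbS := by
  intro x hx h
  obtain ⟨m, hm⟩ := mnorm_exists_conj d x h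
  refine ⟨hx, mem_famStab.mpr ?_⟩
  intro i
  obtain ⟨p, hp⟩ := d.Bh_single i
  have hfix : d.vl m p = p := mnorm_fix d m i p hp
  have h1 : d.vl 1 (x p) = x p := by
    have h3 : (x * d.vl m * x⁻¹) (x p) = x (d.vl m (x⁻¹ (x p))) := rfl
    have h4 : x⁻¹ (x p) = p := by
      rw [← Perm.mul_apply, inv_mul_cancel, Perm.one_apply]
    rw [← hm, h3, h4, hfix]
  have h2 : ∃ j, x p ∈ d.Bh j := by
    by_contra hcon
    exact d.vl_move (x p) (fun j hj => hcon ⟨j, hj⟩) h1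
  obtain ⟨j, hj⟩ := h2
  obtain ⟨p', hp'⟩ := d.Bh_single j
  refine ⟨j, ?_⟩
  rw [hp'] at hj ⊢
  rw [hp, Finset.image_singleton]
  rw [Finset.mem_singleton] at hj
  rw [hj]

end Vale.Agent.Lib.P183.Exc
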