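import Vale.Agent.Lib.P183.Exc.MCover

/-!
# The subgroup of sixty elements is self-normalising
-/

namespace Vale.Agent.Lib.P183.Exc

open Equiv

variable (d : Cert)

theorem Cert.mnormq_ql_mem_Qs (k : Fin 60) : d.ql k ∈ d.Qs :=
  (d.mem_Qs_iff _).mpr ⟨k, rfl⟩

theorem Cert.normQ : ∀ x ∈ d.P, (∀ q ∈ d.Qs, x * q * x⁻¹ ∈ d.Qs) → x ∈ d.Qs := by
  intro x hx hnorm
  obtain ⟨a, j, b, rfl⟩ := d.cover_all x hx
  by_cases hj : j = 0
  · subst hj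
    rw [d.dc_zero, mul_one]
    exact d.Qs.mul_mem (d.mnormq_ql_mem_Qs a) (d.mnormq_ql_mem_Qs b)
  · exfalso
    obtain ⟨k, hk⟩ := d.normQ_wit j hj
    have hy : d.dc j * d.ql k * (d.dc j)⁻¹ ∈ d.Qs := by
      have h1 : (d.ql b)⁻¹ * d.ql k * d.ql b ∈ d.Qs :=
        d.Qs.mul_mem (d.Qs.mul_mem (d.Qs.inv_mem (d.mnormq_ql_mem_Qs b))
          (d.mnormq_ql_mem_Qs k)) (d.mnormq_ql_mem_Qs b)
      have h2 := hnorm _ h1
      have h3 : (d.ql a)⁻¹ * ((d.ql a * d.dc j * d.ql b) * ((d.ql b)⁻¹ * d.ql k * d.ql b)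
          * (d.ql a * d.dc j * d.ql b)⁻¹) * d.ql a ∈ d.Qs :=
        d.Qs.mul_mem (d.Qs.mul_mem (d.Qs.inv_mem (d.mnormq_ql_mem_Qs a)) h2)
          (d.mnormq_ql_mem_Qs a)
      have e : (d.ql a)⁻¹ * ((d.ql a * d.dc j * d.ql b) * ((d.ql b)⁻¹ * d.ql k * d.ql b)
          * (d.ql a * d.dc j * d.ql b)⁻¹) * d.ql a = d.dc j * d.ql k * (d.dc j)⁻¹ := by
        group
      rw [e] at h3
      exact h3
    have hy' : d.dc j * d.ql k * (d.dc j)⁻¹ ∈ famStab d.Bh ⊓ famStab d.Bw :=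
      (Subgroup.mem_inf.mp hy).2
    rcases hk with hk | hk
    · exact hk (Subgroup.mem_inf.mp hy').1
    · exact hk (Subgroup.mem_inf.mp hy').2

end Vale.Agent.Lib.P183.Exc
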