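import Vale.Agent.Lib.P183.Exc.MSig

/-!
# Overgroups of order 360 of the subgroup of sixty elements
-/

namespace Vale.Agent.Lib.P183.Exc

open Equiv

variable (d : Cert)

/-- An element of prime order `p` in a subgroup of order 360 forces `p ∣ 360`. -/
theorem msmall_prime_dvd (R : Subgroup (Perm (Fin 22))) (hcard : Nat.card R = 360)
    (p : ℕ) (hp : p.Prime) {y : Perm (Fin 22)} (hyR : y ∈ R) (hy1 : y ≠ 1) (hyp : y ^ p = 1) :
    p ∣ 360 := by
  have : Fact p.Prime := ⟨hp⟩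
  have ho : orderOf y = p := orderOf_eq_prime hyp hy1
  have hdvd : orderOf (⟨y, hyR⟩ : R) ∣ Nat.card R := orderOf_dvd_natCard _
  rw [Subgroup.orderOf_mk, ho, hcard] at hdvd
  exact hdvd

theorem Cert.small : ∀ R : Subgroup (Perm (Fin 22)), R ≤ d.P → d.Qs ≤ R → Nat.card R = 360 →
    R ≤ d.RwS := by
  intro R hRP hQR hcard x hx
  obtain ⟨a, j, b, rfl⟩ := d.cover_all x (hRP hx)
  have hql : ∀ k, d.ql k ∈ R := fun k => hQR ((d.mem_Qs_iff _).mpr ⟨k, rfl⟩)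
  have hdc : d.dc j ∈ R := by
    have h1 : (d.ql a)⁻¹ * (d.ql a * d.dc j * d.ql b) * (d.ql b)⁻¹ ∈ R :=
      R.mul_mem (R.mul_mem (R.inv_mem (hql a)) hx) (R.inv_mem (hql b))
    have e : (d.ql a)⁻¹ * (d.ql a * d.dc j * d.ql b) * (d.ql b)⁻¹ = d.dc j := by group
    rwa [e] at h1
  by_cases hj0 : j = 0
  · subst hj0
    rw [d.dc_zero, mul_one]
    obtain ⟨c, hc⟩ := d.ql_mul a b
    rw [hc]
    exact (d.mem_RwS_iff _).mpr (Or.inl ⟨c, rfl⟩)
  by_cases hjw : j = d.w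
  · subst hjw
    exact (d.mem_RwS_iff _).mpr (Or.inr ⟨a, b, rfl⟩)
  exfalso
  have hcl : Subgroup.closure (Set.range d.ql ∪ {d.dc j}) ≤ R := by
    rw [Subgroup.closure_le]
    rintro z (⟨k, rfl⟩ | hz)
    · exact hql k
    · rw [Set.mem_singleton_iff] at hz
      rw [hz]
      exact hdc
  rcases d.small_cert j hj0 hjw with ⟨y, hy, hy1, hy7 | hy11⟩ | ⟨m, hm, hvm⟩
  · have h7 := msmall_prime_dvd R hcard 7 (by norm_num) (hcl hy) hy1 hy7
    norm_num at h7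
  · have h11 := msmall_prime_dvd R hcard 11 (by norm_num) (hcl hy) hy1 hy11
    norm_num at h11
  · have hVs : d.Vs ≤ R := d.Vs_le_of_mem R
      (fun q hq n hn => R.mul_mem (R.mul_mem (hQR hq) hn) (R.inv_mem (hQR hq))) hm (hcl hvm)
    have hdvd := Subgroup.card_dvd_of_le hVs
    rw [d.card_Vs, hcard] at hdvd
    norm_num at hdvd

end Vale.Agent.Lib.P183.Exc
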