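import Vale.Agent.Lib.P183.Exc.Defs
import Vale.Agent.Lib.P183.Exc.MNormQ
import Vale.Agent.Lib.P183.Exc.MSmall
import Vale.Agent.Lib.P183.Exc.MNorm
import Vale.Agent.Lib.P183.Exc.MHoms
import Vale.Agent.Lib.P183.Exc.AltSixB
import Vale.Agent.Lib.P183.Exc.AltSixC

/-!
# The configuration attached to a certificate
-/

namespace Vale.Agent.Lib.P183.Exc

open Equiv

variable (d : Cert)

theorem Cert.finite_P : Finite d.P := inferInstance

theorem mconfig_RbS_le : d.RbS ≤ d.P := inf_le_left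

theorem mconfig_RwS_le : d.RwS ≤ d.P := inf_le_left

theorem mconfig_Qs_le : d.Qs ≤ d.P := inf_le_left

/-- The first action, on the subgroup of `P` given by the first stabiliser. -/
noncomputable def mconfig_psib : ↥(d.RbS.subgroupOf d.P) →* alternatingGroup (Fin 6) :=
  d.psibS.comp (Subgroup.subgroupOfEquivOfLe (mconfig_RbS_le d)).toMonoidHom

/-- The second action, on the subgroup of `P` given by the second stabiliser. -/
noncomputable def mconfig_psiw : ↥(d.RwS.subgroupOf d.P) →* alternatingGroup (Fin 6) :=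
  d.psiwS.comp (Subgroup.subgroupOfEquivOfLe (mconfig_RwS_le d)).toMonoidHom

theorem mconfig_Q_le_Rb : d.Qs.subgroupOf d.P ≤ d.RbS.subgroupOf d.P :=
  Subgroup.subgroupOf_mono _ d.Qs_le_RbS

theorem mconfig_Q_le_Rw : d.Qs.subgroupOf d.P ≤ d.RwS.subgroupOf d.P :=
  Subgroup.subgroupOf_mono _ d.Qs_le_RwS

/-- The twisting homomorphism: the second action restricted to the common stabiliser. -/
noncomputable def mconfig_iota : ↥(d.Qs.subgroupOf d.P) →* alternatingGroup (Fin 6) :=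
  (mconfig_psiw d).comp (Subgroup.inclusion (mconfig_Q_le_Rw d))

theorem mconfig_psib_apply (r : ↥(d.RbS.subgroupOf d.P)) :
    mconfig_psib d r = d.psibS ⟨(r : d.P).1, r.2⟩ := rfl

theorem mconfig_psiw_apply (r : ↥(d.RwS.subgroupOf d.P)) :
    mconfig_psiw d r = d.psiwS ⟨(r : d.P).1, r.2⟩ := rfl

theorem mconfig_iota_apply (q : ↥(d.Qs.subgroupOf d.P)) :
    mconfig_iota d q = d.psiwS (Subgroup.inclusion d.Qs_le_RwS ⟨(q : d.P).1, q.2⟩) := rfl

theorem mconfig_psib_Q (q : ↥(d.Qs.subgroupOf d.P)) :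
    mconfig_psib d (Subgroup.inclusion (mconfig_Q_le_Rb d) q) = mconfig_iota d q := by
  rw [mconfig_iota_apply, ← d.psib_eq_psiw ⟨(q : d.P).1, q.2⟩]
  rfl

theorem mconfig_psiw_Q (q : ↥(d.Qs.subgroupOf d.P)) :
    mconfig_psiw d (Subgroup.inclusion (mconfig_Q_le_Rw d) q) = mconfig_iota d q := rfl

theorem mconfig_iota_range (t : alternatingGroup (Fin 6)) :
    t ∈ stabZero ↔ ∃ q : ↥(d.Qs.subgroupOf d.P), mconfig_iota d q = t := by
  rw [d.psiw_range_Qs t]
  constructor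
  · rintro ⟨q, hq⟩
    refine ⟨⟨⟨q.1, mconfig_Qs_le d q.2⟩, q.2⟩, ?_⟩
    rw [mconfig_iota_apply]
    exact hq
  · rintro ⟨q, hq⟩
    refine ⟨⟨(q : d.P).1, q.2⟩, ?_⟩
    rw [mconfig_iota_apply] at hq
    exact hq

theorem mconfig_psiw_bij : Function.Bijective (mconfig_psiw d) :=
  d.psiwS_bijective.comp (Subgroup.subgroupOfEquivOfLe (mconfig_RwS_le d)).bijective

theorem mconfig_psib_surj : Function.Surjective (mconfig_psib d) :=
  d.psibS_surjective.comp (Subgroup.subgroupOfEquivOfLe (mconfig_RbS_le d)).surjective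

theorem mconfig_psib_ker (r : ↥(d.RbS.subgroupOf d.P)) :
    mconfig_psib d r = 1 ↔ (r : d.P) ∈ d.Vs.subgroupOf d.P := by
  rw [mconfig_psib_apply, d.psibS_ker, Subgroup.mem_subgroupOf]

theorem mconfig_normQ (x : d.P)
    (h : ∀ q ∈ d.Qs.subgroupOf d.P, x * q * x⁻¹ ∈ d.Qs.subgroupOf d.P) :
    x ∈ d.Qs.subgroupOf d.P := by
  rw [Subgroup.mem_subgroupOf]
  refine d.normQ x.1 x.2 ?_
  intro q hq
  exact h ⟨q, mconfig_Qs_le d hq⟩ hq

theorem mconfig_sig (N : Subgroup d.P)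
    (hN : ∀ q ∈ d.Qs.subgroupOf d.P, ∀ n ∈ N, q * n * q⁻¹ ∈ N)
    (hNQ : N ⊓ d.Qs.subgroupOf d.P = ⊥) : N = ⊥ ∨ N = d.Vs.subgroupOf d.P := by
  have h1 : N.map d.P.subtype ≤ d.P := Subgroup.map_subtype_le N
  have h2 : ∀ q ∈ d.Qs, ∀ n ∈ N.map d.P.subtype, q * n * q⁻¹ ∈ N.map d.P.subtype := by
    rintro q hq _ ⟨n, hn, rfl⟩
    exact ⟨⟨q, mconfig_Qs_le d hq⟩ * n * ⟨q, mconfig_Qs_le d hq⟩⁻¹,
      hN ⟨q, mconfig_Qs_le d hq⟩ hq n hn, rfl⟩
  have h3 : N.map d.P.subtype ⊓ d.Qs = ⊥ := by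
    rw [Subgroup.eq_bot_iff_forall]
    rintro x ⟨⟨n, hn, rfl⟩, hxQ⟩
    have hmem : n ∈ N ⊓ d.Qs.subgroupOf d.P := ⟨hn, hxQ⟩
    rw [hNQ, Subgroup.mem_bot] at hmem
    rw [hmem]
    rfl
  rcases d.sig _ h1 h2 h3 with h | h
  · left
    exact (Subgroup.map_eq_bot_iff_of_injective N d.P.subtype_injective).mp h
  · right
    ext x
    rw [Subgroup.mem_subgroupOf, ← h]
    constructor
    · intro hx
      exact ⟨x, hx, rfl⟩
    · rintro ⟨y, hy, hyx⟩
      have hyx' : y = x := Subtype.ext hyx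
      rw [← hyx']
      exact hy

theorem mconfig_small (R : Subgroup d.P) (hQ : d.Qs.subgroupOf d.P ≤ R)
    (hc : Nat.card R = Nat.card (alternatingGroup (Fin 6))) :
    R ≤ d.RwS.subgroupOf d.P := by
  have h1 : R.map d.P.subtype ≤ d.P := Subgroup.map_subtype_le R
  have h2 : d.Qs ≤ R.map d.P.subtype := by
    intro q hq
    have hq' : (⟨q, mconfig_Qs_le d hq⟩ : d.P) ∈ d.Qs.subgroupOf d.P := hq
    exact ⟨⟨q, mconfig_Qs_le d hq⟩, hQ hq', rfl⟩
  have h3 : Nat.card (R.map d.P.subtype) = 360 := by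
    rw [Subgroup.card_subtype, hc, card_altSix]
  have h4 := d.small _ h1 h2 h3
  intro x hx
  rw [Subgroup.mem_subgroupOf]
  exact h4 ⟨x, hx, rfl⟩

theorem mconfig_normV (x : d.P)
    (h : ∀ v ∈ d.Vs.subgroupOf d.P, x * v * x⁻¹ ∈ d.Vs.subgroupOf d.P) :
    x ∈ d.RbS.subgroupOf d.P := by
  rw [Subgroup.mem_subgroupOf]
  refine d.normV x.1 x.2 ?_
  intro v hv
  exact h ⟨v, d.Vs_le_P hv⟩ hv

theorem mconfig_normRw (x : d.P)
    (h : ∀ r ∈ d.RwS.subgroupOf d.P, x * r * x⁻¹ ∈ d.RwS.subgroupOf d.P) :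
    x ∈ d.RwS.subgroupOf d.P := by
  rw [Subgroup.mem_subgroupOf]
  refine d.normRw x.1 x.2 ?_
  intro r hr
  exact h ⟨r, mconfig_RwS_le d hr⟩ hr

theorem mconfig_Rw_not_le : ¬ d.RwS.subgroupOf d.P ≤ d.RbS.subgroupOf d.P := by
  intro h
  apply d.RwS_not_le
  intro x hx
  have hx' : (⟨x, mconfig_RwS_le d hx⟩ : d.P) ∈ d.RwS.subgroupOf d.P := hx
  exact h hx'

theorem mconfig_V_not_le : ¬ d.Vs.subgroupOf d.P ≤ d.RwS.subgroupOf d.P := by
  intro h
  apply d.Vs_not_le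
  intro x hx
  have hx' : (⟨x, d.Vs_le_P hx⟩ : d.P) ∈ d.Vs.subgroupOf d.P := hx
  exact h hx'

theorem Cert.exists_config : Nonempty (Config (↥d.P) (alternatingGroup (Fin 6))) :=
  ⟨{ Q := d.Qs.subgroupOf d.P
     V := d.Vs.subgroupOf d.P
     Rb := d.RbS.subgroupOf d.P
     Rw := d.RwS.subgroupOf d.P
     S := stabZero
     iota := mconfig_iota d
     psib := mconfig_psib d
     psiw := mconfig_psiw d
     Q_le_Rb := mconfig_Q_le_Rb d
     Q_le_Rw := mconfig_Q_le_Rw d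
     V_le_Rb := Subgroup.subgroupOf_mono _ d.Vs_le_RbS
     psib_Q := mconfig_psib_Q d
     psiw_Q := mconfig_psiw_Q d
     iota_range := mconfig_iota_range d
     psiw_bij := mconfig_psiw_bij d
     psib_surj := mconfig_psib_surj d
     psib_ker := mconfig_psib_ker d
     T_simple := altSix_simple
     S_simple := stabZero_simple
     S_max := stabZero_max
     S_ne_top := stabZero_ne_top
     S_noncomm := stabZero_noncomm
     T_rigid := altSix_rigid
     normQ := mconfig_normQ d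
     sig := mconfig_sig d
     small := mconfig_small d
     normV := mconfig_normV d
     normRw := mconfig_normRw d
     Rw_not_le := mconfig_Rw_not_le d
     V_not_le := mconfig_V_not_le d }⟩

end Vale.Agent.Lib.P183.Exc
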