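import Vale.Agent.Lib.P183.Exc.MDefs

/-!
# The double coset decomposition of the group generated by a certificate
-/

namespace Vale.Agent.Lib.P183.Exc

open Equiv

variable (d : Cert)

theorem Cert.ql_mem (k : Fin 60) : d.ql k ∈ d.P :=
  Subgroup.subset_closure (Set.mem_union_left _ (Set.mem_range_self k))

theorem Cert.g_mem : d.g ∈ d.P :=
  Subgroup.subset_closure (Set.mem_union_right _ (Set.mem_singleton _))

theorem Cert.dc_mem' (j : Fin 152) : d.dc j ∈ d.P := d.dc_mem j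

theorem Cert.ql_inv' (a : Fin 60) : ∃ b, (d.ql a)⁻¹ = d.ql b := by
  obtain ⟨b, hb⟩ := d.ql_inv a
  exact ⟨b, inv_eq_of_mul_eq_one_right hb⟩

/-- Right multiplication by one of the sixty elements keeps the normal form. -/
theorem mcover_mul_ql (a : Fin 60) (j : Fin 152) (b l : Fin 60) :
    ∃ a' j' b', d.ql a * d.dc j * d.ql b * d.ql l = d.ql a' * d.dc j' * d.ql b' := by
  obtain ⟨c, hc⟩ := d.ql_mul b l
  exact ⟨a, j, c, by rw [mul_assoc, hc]⟩

/-- Right multiplication by the extra generator keeps the normal form. -/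
theorem mcover_mul_g (a : Fin 60) (j : Fin 152) (b : Fin 60) :
    ∃ a' j' b', d.ql a * d.dc j * d.ql b * d.g = d.ql a' * d.dc j' * d.ql b' := by
  obtain ⟨i, a1, b1, h1⟩ := d.cover j b
  obtain ⟨c, hc⟩ := d.ql_mul a a1
  refine ⟨c, i, b1, ?_⟩
  calc d.ql a * d.dc j * d.ql b * d.g = d.ql a * (d.dc j * d.ql b * d.g) := by group
    _ = d.ql a * (d.ql a1 * d.dc i * d.ql b1) := by rw [h1]
    _ = d.ql a * d.ql a1 * d.dc i * d.ql b1 := by group
    _ = d.ql c * d.dc i * d.ql b1 := by rw [hc]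

theorem mcover_pred : ∀ y ∈ d.P, ∀ u : Perm (Fin 22),
    (∃ a j b, u = d.ql a * d.dc j * d.ql b) →
      (∃ a j b, u * y = d.ql a * d.dc j * d.ql b) ∧
      (∃ a j b, u * y⁻¹ = d.ql a * d.dc j * d.ql b) := by
  intro y hy
  unfold Cert.P at hy
  induction hy using Subgroup.closure_induction with
  | mem y hy =>
    rcases hy with ⟨l, rfl⟩ | hy
    · rintro u ⟨a, j, b, rfl⟩
      refine ⟨mcover_mul_ql d a j b l, ?_⟩
      obtain ⟨l', hl'⟩ := d.ql_inv' l
      rw [hl']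
      exact mcover_mul_ql d a j b l'
    · rw [Set.mem_singleton_iff] at hy
      subst hy
      rintro u ⟨a, j, b, rfl⟩
      refine ⟨mcover_mul_g d a j b, ?_⟩
      rw [inv_eq_of_mul_eq_one_right d.g_sq]
      exact mcover_mul_g d a j b
  | one =>
    intro u hu
    simpa using hu
  | mul x y _ _ ihx ihy =>
    intro u hu
    constructor
    · rw [← mul_assoc]
      exact (ihy _ (ihx u hu).1).1
    · rw [mul_inv_rev, ← mul_assoc]
      exact (ihx _ (ihy u hu).2).2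
  | inv x _ ihx =>
    intro u hu
    constructor
    · exact (ihx u hu).2
    · rw [inv_inv]
      exact (ihx u hu).1

theorem Cert.cover_all : ∀ x ∈ d.P, ∃ a j b, x = d.ql a * d.dc j * d.ql b := by
  intro x hx
  have h1 := (mcover_pred d x hx 1 ⟨0, 0, 0, by rw [d.ql_zero, d.dc_zero]; simp⟩).1
  rwa [one_mul] at h1

/-- A double coset representative lying in a subgroup that contains the sixty elements and
a member of its double coset. -/
theorem mcover_dc_mem (S : Subgroup (Perm (Fin 22))) (hS : ∀ k, d.ql k ∈ S)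
    (a : Fin 60) (j : Fin 152) (b : Fin 60) (h : d.ql a * d.dc j * d.ql b ∈ S) :
    d.dc j ∈ S := by
  have h1 : d.dc j = (d.ql a)⁻¹ * (d.ql a * d.dc j * d.ql b) * (d.ql b)⁻¹ := by group
  rw [h1]
  exact S.mul_mem (S.mul_mem (S.inv_mem (hS a)) h) (S.inv_mem (hS b))

theorem Cert.mem_Qs_iff (x : Perm (Fin 22)) : x ∈ d.Qs ↔ ∃ k, x = d.ql k := by
  constructor
  · intro hx
    obtain ⟨a, j, b, rfl⟩ := d.cover_all x hx.1
    have h1 : d.dc j ∈ famStab d.Bh :=
      mcover_dc_mem d _ (fun k => (d.ql_stab k).1) a j b hx.2.1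
    have h2 : d.dc j ∈ famStab d.Bw :=
      mcover_dc_mem d _ (fun k => (d.ql_stab k).2) a j b hx.2.2
    have h3 : j = 0 := d.dc_stab j h1 h2
    obtain ⟨c, hc⟩ := d.ql_mul a b
    exact ⟨c, by rw [h3, d.dc_zero, mul_one, hc]⟩
  · rintro ⟨k, rfl⟩
    exact ⟨d.ql_mem k, (d.ql_stab k).1, (d.ql_stab k).2⟩

theorem Cert.mem_RwS_iff (x : Perm (Fin 22)) :
    x ∈ d.RwS ↔ (∃ k, x = d.ql k) ∨ ∃ a b, x = d.ql a * d.dc d.w * d.ql b := by
  constructor
  · intro hx
    obtain ⟨a, j, b, rfl⟩ := d.cover_all x hx.1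
    have h2 : d.dc j ∈ famStab d.Bw :=
      mcover_dc_mem d _ (fun k => (d.ql_stab k).2) a j b hx.2
    rcases d.dc_stabw j h2 with h3 | h3
    · left
      obtain ⟨c, hc⟩ := d.ql_mul a b
      exact ⟨c, by rw [h3, d.dc_zero, mul_one, hc]⟩
    · right
      exact ⟨a, b, by rw [h3]⟩
  · rintro (⟨k, rfl⟩ | ⟨a, b, rfl⟩)
    · exact ⟨d.ql_mem k, (d.ql_stab k).2⟩
    · refine ⟨d.P.mul_mem (d.P.mul_mem (d.ql_mem a) (d.dc_mem' d.w)) (d.ql_mem b), ?_⟩
      exact (famStab d.Bw).mul_mem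
        ((famStab d.Bw).mul_mem (d.ql_stab a).2 d.dcw_stabw) (d.ql_stab b).2

theorem Cert.ql_injective : Function.Injective d.ql := by
  intro k l h
  apply d.ql_act_inj
  have h1 : (⟨d.ql k, (d.ql_stab k).1⟩ : famStab d.Bh) = ⟨d.ql l, (d.ql_stab l).1⟩ :=
    Subtype.ext h
  rw [h1]

theorem Cert.card_Qs : Nat.card d.Qs = 60 := by
  have hbij : Function.Bijective
      (fun k : Fin 60 => (⟨d.ql k, (d.mem_Qs_iff _).mpr ⟨k, rfl⟩⟩ : d.Qs)) := by
    constructor
    · intro k l h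
      exact d.ql_injective (congrArg Subtype.val h)
    · rintro ⟨x, hx⟩
      obtain ⟨k, rfl⟩ := (d.mem_Qs_iff x).mp hx
      exact ⟨k, rfl⟩
  rw [← Nat.card_congr (Equiv.ofBijective _ hbij)]
  simp

end Vale.Agent.Lib.P183.Exc
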