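import Vale.Agent.Lib.P183.Exc.FamAct

/-!
# Certificate data for the Mathieu group of degree 22

A `Cert` packages explicit permutations of 22 points (a generator `g`, the sixty elements
`ql` of a subgroup `Q`, representatives `dc` of the double cosets of `Q`, the sixteen elements
`vl` of an elementary abelian subgroup `V`) together with the finitely many identities between
them that are needed to derive the group-theoretic configuration.
-/

namespace Vale.Agent.Lib.P183.Exc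

open Equiv

/-- Explicit data and checked identities in the symmetric group of degree 22. -/
structure Cert where
  g : Perm (Fin 22)
  ql : Fin 60 → Perm (Fin 22)
  dc : Fin 152 → Perm (Fin 22)
  vl : Fin 16 → Perm (Fin 22)
  Bh : Fin 6 → Finset (Fin 22)
  Bw : Fin 6 → Finset (Fin 22)
  w : Fin 152
  ql_zero : ql 0 = 1
  ql_mul : ∀ a b, ∃ c, ql a * ql b = ql c
  ql_inv : ∀ a, ∃ b, ql a * ql b = 1
  dc_zero : dc 0 = 1
  g_sq : g * g = 1
  cover : ∀ j l, ∃ i a b, dc j * ql l * g = ql a * dc i * ql b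
  dc_mem : ∀ j, dc j ∈ Subgroup.closure (Set.range ql ∪ {g})
  Bh_inj : Function.Injective Bh
  Bw_inj : Function.Injective Bw
  Bh_single : ∀ i, ∃ p, Bh i = {p}
  ql_stab : ∀ k, ql k ∈ famStab Bh ∧ ql k ∈ famStab Bw
  dc_stab : ∀ j, dc j ∈ famStab Bh → dc j ∈ famStab Bw → j = 0
  dc_stabw : ∀ j, dc j ∈ famStab Bw → j = 0 ∨ j = w
  dcw_stabw : dc w ∈ famStab Bw
  dcw_not_stabh : dc w ∉ famStab Bh
  w_ne : w ≠ 0
  ql_act : ∀ k, famHom Bh Bh_inj ⟨ql k, (ql_stab k).1⟩ = famHom Bw Bw_inj ⟨ql k, (ql_stab k).2⟩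
  ql_act0 : ∀ k, famHom Bh Bh_inj ⟨ql k, (ql_stab k).1⟩ 0 = 0
  ql_act_inj : ∀ k l, famHom Bh Bh_inj ⟨ql k, (ql_stab k).1⟩ =
    famHom Bh Bh_inj ⟨ql l, (ql_stab l).1⟩ → k = l
  dcw_act0 : famHom Bw Bw_inj ⟨dc w, dcw_stabw⟩ 0 ≠ 0
  exists_b : ∃ j, ∃ h : dc j ∈ famStab Bh, famHom Bh Bh_inj ⟨dc j, h⟩ 0 ≠ 0
  ql_square : ∀ k, ∃ s t, ql k = ql s * ql s * (ql t * ql t)
  dc_sign : ∀ j (h : dc j ∈ famStab Bh), Perm.sign (famHom Bh Bh_inj ⟨dc j, h⟩) = 1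
  dcw_sign : Perm.sign (famHom Bw Bw_inj ⟨dc w, dcw_stabw⟩) = 1
  normQ_wit : ∀ j, j ≠ 0 → ∃ k, dc j * ql k * (dc j)⁻¹ ∉ famStab Bh ∨
    dc j * ql k * (dc j)⁻¹ ∉ famStab Bw
  normW_wit : ∀ j, j ≠ 0 → j ≠ w → (∃ k, dc j * ql k * (dc j)⁻¹ ∉ famStab Bw) ∨
    dc j * dc w * (dc j)⁻¹ ∉ famStab Bw
  vl_zero : vl 0 = 1
  vl_mul : ∀ m n, ∃ r, vl m * vl n = vl r
  vl_sq : ∀ m, vl m * vl m = 1
  vl_inj : Function.Injective vl
  vl_conj : ∀ m, m ≠ 0 → ∃ k, ql k * vl 1 * (ql k)⁻¹ = vl m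
  vl_conj' : ∀ k, ∃ m, ql k * vl 1 * (ql k)⁻¹ = vl m
  vl_one_mem : ∃ j k, vl 1 = dc j * ql k
  vl_fix : ∀ m i, (Bh i).image (vl m) = Bh i
  vl_move : ∀ p : Fin 22, (∀ i, p ∉ Bh i) → vl 1 p ≠ p
  vl_not_stabw : vl 1 ∉ famStab Bw
  sig_cert : ∀ j, j ≠ 0 → ∀ k, (∃ m, dc j * ql k = vl m) ∨
    ∃ u v : Perm (Fin 22), ∃ t, t ≠ 0 ∧ u * ql t = v ∧
      u ∈ Subgroup.closure (Set.range fun a => ql a * (dc j * ql k) * (ql a)⁻¹) ∧
      v ∈ Subgroup.closure (Set.range fun a => ql a * (dc j * ql k) * (ql a)⁻¹)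
  small_cert : ∀ j, j ≠ 0 → j ≠ w →
    (∃ y ∈ Subgroup.closure (Set.range ql ∪ {dc j}), y ≠ 1 ∧ (y ^ 7 = 1 ∨ y ^ 11 = 1)) ∨
    (∃ m, m ≠ 0 ∧ vl m ∈ Subgroup.closure (Set.range ql ∪ {dc j}))

variable (d : Cert)

/-- The group generated by the sixty elements and the extra generator. -/
def Cert.P : Subgroup (Perm (Fin 22)) := Subgroup.closure (Set.range d.ql ∪ {d.g})

/-- The stabiliser in `P` of the first family. -/
def Cert.RbS : Subgroup (Perm (Fin 22)) := d.P ⊓ famStab d.Bh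

/-- The stabiliser in `P` of the second family. -/
def Cert.RwS : Subgroup (Perm (Fin 22)) := d.P ⊓ famStab d.Bw

/-- The stabiliser in `P` of both families. -/
def Cert.Qs : Subgroup (Perm (Fin 22)) := d.P ⊓ (famStab d.Bh ⊓ famStab d.Bw)

/-- The sixteen-element subgroup. -/
def Cert.Vs : Subgroup (Perm (Fin 22)) where
  carrier := Set.range d.vl
  one_mem' := ⟨0, d.vl_zero⟩
  mul_mem' := by
    rintro _ _ ⟨m, rfl⟩ ⟨n, rfl⟩
    obtain ⟨r, hr⟩ := d.vl_mul m n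
    exact ⟨r, hr.symm⟩
  inv_mem' := by
    rintro _ ⟨m, rfl⟩
    exact ⟨m, (inv_eq_of_mul_eq_one_left (d.vl_sq m)).symm⟩

/-- The action of `RbS` on the six indices of the first family. -/
noncomputable def Cert.hb : ↥d.RbS →* Perm (Fin 6) :=
  (famHom d.Bh d.Bh_inj).comp (Subgroup.inclusion inf_le_right)

/-- The action of `RwS` on the six indices of the second family. -/
noncomputable def Cert.hw : ↥d.RwS →* Perm (Fin 6) :=
  (famHom d.Bw d.Bw_inj).comp (Subgroup.inclusion inf_le_right)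

end Vale.Agent.Lib.P183.Exc
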