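import Vale.Agent.Lib.P183.Exc.MCover

/-!
# The only nontrivial subgroup normalised by the sixty elements and meeting them trivially
-/

namespace Vale.Agent.Lib.P183.Exc

open Equiv

variable (d : Cert)

theorem Cert.msig_ql_mem_Qs (k : Fin 60) : d.ql k ∈ d.Qs :=
  (d.mem_Qs_iff (d.ql k)).mpr ⟨k, rfl⟩

theorem Cert.msig_vl_mem_Vs (m : Fin 16) : d.vl m ∈ d.Vs := ⟨m, rfl⟩

theorem Cert.msig_mem_Vs {x : Perm (Fin 22)} (hx : x ∈ d.Vs) : ∃ m, d.vl m = x := hx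

theorem Cert.msig_vl_one_mem_P : d.vl 1 ∈ d.P := by
  obtain ⟨j, k, h⟩ := d.vl_one_mem
  rw [h]
  exact d.P.mul_mem (d.dc_mem' j) (d.ql_mem k)

theorem Cert.msig_conj_inv (N : Subgroup (Perm (Fin 22)))
    (hN : ∀ q ∈ d.Qs, ∀ n ∈ N, q * n * q⁻¹ ∈ N) (k : Fin 60) {n : Perm (Fin 22)}
    (hn : n ∈ N) : (d.ql k)⁻¹ * n * d.ql k ∈ N := by
  obtain ⟨b, hb⟩ := d.ql_inv' k
  have h := hN (d.ql b) (d.msig_ql_mem_Qs b) n hn
  rw [← hb, inv_inv] at h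
  exact h

theorem Cert.msig_famHom_eq_one (k : Fin 60)
    (h : ∀ i, (d.Bh i).image (d.ql k) = d.Bh i) :
    famHom d.Bh d.Bh_inj ⟨d.ql k, (d.ql_stab k).1⟩ = 1 := by
  ext i
  have h1 : famHom d.Bh d.Bh_inj ⟨d.ql k, (d.ql_stab k).1⟩ i = i :=
    (famHom_apply_eq_iff d.Bh d.Bh_inj ⟨d.ql k, (d.ql_stab k).1⟩ i i).mpr (h i)
  rw [h1]
  rfl

theorem Cert.Vs_le_P : d.Vs ≤ d.P := by
  intro x hx
  obtain ⟨m, rfl⟩ := d.msig_mem_Vs hx
  by_cases hm : m = 0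
  · rw [hm, d.vl_zero]
    exact d.P.one_mem
  · obtain ⟨k, hk⟩ := d.vl_conj m hm
    rw [← hk]
    exact d.P.mul_mem (d.P.mul_mem (d.ql_mem k) d.msig_vl_one_mem_P) (d.P.inv_mem (d.ql_mem k))

theorem Cert.card_Vs : Nat.card d.Vs = 16 := by
  have e : Fin 16 ≃ d.Vs :=
    Equiv.ofBijective (fun m => ⟨d.vl m, d.msig_vl_mem_Vs m⟩)
      ⟨fun a b hab => d.vl_inj (Subtype.ext_iff.mp hab),
        fun ⟨x, hx⟩ => by
          obtain ⟨m, hm⟩ := d.msig_mem_Vs hx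
          exact ⟨m, Subtype.ext hm⟩⟩
  rw [← Nat.card_congr e, Nat.card_eq_fintype_card, Fintype.card_fin]

theorem Cert.Vs_conj : ∀ q ∈ d.Qs, ∀ v ∈ d.Vs, q * v * q⁻¹ ∈ d.Vs := by
  intro q hq v hv
  obtain ⟨k, rfl⟩ := (d.mem_Qs_iff q).mp hq
  obtain ⟨m, rfl⟩ := d.msig_mem_Vs hv
  by_cases hm : m = 0
  · rw [hm, d.vl_zero, mul_one, mul_inv_cancel]
    exact d.Vs.one_mem
  · obtain ⟨k', hk'⟩ := d.vl_conj m hm
    obtain ⟨c, hc⟩ := d.ql_mul k k'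
    obtain ⟨m', hm'⟩ := d.vl_conj' c
    have h : d.ql k * d.vl m * (d.ql k)⁻¹ = d.vl m' := by
      rw [← hm', ← hc, ← hk']
      group
    rw [h]
    exact d.msig_vl_mem_Vs m'

theorem Cert.Vs_inf_Qs : d.Vs ⊓ d.Qs = ⊥ := by
  rw [Subgroup.eq_bot_iff_forall]
  intro x hx
  obtain ⟨m, hm⟩ := d.msig_mem_Vs hx.1
  obtain ⟨k, hk⟩ := (d.mem_Qs_iff x).mp hx.2
  have h1 : famHom d.Bh d.Bh_inj ⟨d.ql k, (d.ql_stab k).1⟩ = 1 := by
    apply d.msig_famHom_eq_one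
    intro i
    rw [← hk, ← hm]
    exact d.vl_fix m i
  have h0 : famHom d.Bh d.Bh_inj ⟨d.ql 0, (d.ql_stab 0).1⟩ = 1 := by
    apply d.msig_famHom_eq_one
    intro i
    rw [d.ql_zero]
    simp
  have hk0 : k = 0 := d.ql_act_inj k 0 (h1.trans h0.symm)
  rw [hk, hk0, d.ql_zero]

theorem Cert.Vs_le_of_mem (N : Subgroup (Perm (Fin 22)))
    (hN : ∀ q ∈ d.Qs, ∀ n ∈ N, q * n * q⁻¹ ∈ N) {m : Fin 16} (hm : m ≠ 0) (h : d.vl m ∈ N) :
    d.Vs ≤ N := by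
  obtain ⟨k, hk⟩ := d.vl_conj m hm
  have h1 : d.vl 1 ∈ N := by
    have h2 := d.msig_conj_inv N hN k h
    rw [← hk] at h2
    have h3 : (d.ql k)⁻¹ * (d.ql k * d.vl 1 * (d.ql k)⁻¹) * d.ql k = d.vl 1 := by group
    rw [h3] at h2
    exact h2
  intro x hx
  obtain ⟨m', rfl⟩ := d.msig_mem_Vs hx
  by_cases hm' : m' = 0
  · rw [hm', d.vl_zero]
    exact N.one_mem
  · obtain ⟨k', hk'⟩ := d.vl_conj m' hm'
    rw [← hk']
    exact hN (d.ql k') (d.msig_ql_mem_Qs k') (d.vl 1) h1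

theorem Cert.msig_le_Vs (N : Subgroup (Perm (Fin 22))) (hNP : N ≤ d.P)
    (hN : ∀ q ∈ d.Qs, ∀ n ∈ N, q * n * q⁻¹ ∈ N) (hNQ : N ⊓ d.Qs = ⊥) : N ≤ d.Vs := by
  intro x hx
  obtain ⟨a, j, b, hxe⟩ := d.cover_all x (hNP hx)
  obtain ⟨c, hc⟩ := d.ql_mul b a
  have hx' : d.dc j * d.ql c ∈ N := by
    have h1 := d.msig_conj_inv N hN a hx
    have h2 : (d.ql a)⁻¹ * x * d.ql a = d.dc j * d.ql c := by
      rw [hxe, ← hc]
      group
    rw [h2] at h1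
    exact h1
  have hxc : x = d.ql a * (d.dc j * d.ql c) * (d.ql a)⁻¹ := by
    rw [hxe, ← hc]
    group
  by_cases hj : j = 0
  · have h1 : d.dc j * d.ql c ∈ N ⊓ d.Qs := by
      refine ⟨hx', ?_⟩
      rw [hj, d.dc_zero, one_mul]
      exact d.msig_ql_mem_Qs c
    rw [hNQ, Subgroup.mem_bot] at h1
    rw [hxc, h1, mul_one, mul_inv_cancel]
    exact d.Vs.one_mem
  · rcases d.sig_cert j hj c with ⟨m, hm⟩ | ⟨u, v, t, ht, huv, hu, hv⟩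
    · rw [hxc, hm]
      exact d.Vs_conj (d.ql a) (d.msig_ql_mem_Qs a) (d.vl m) (d.msig_vl_mem_Vs m)
    · exfalso
      have hcl : Subgroup.closure
          (Set.range fun a => d.ql a * (d.dc j * d.ql c) * (d.ql a)⁻¹) ≤ N := by
        rw [Subgroup.closure_le]
        rintro _ ⟨a', rfl⟩
        exact hN (d.ql a') (d.msig_ql_mem_Qs a') _ hx'
      have hqt : d.ql t ∈ N ⊓ d.Qs := by
        refine ⟨?_, d.msig_ql_mem_Qs t⟩
        have h1 : d.ql t = u⁻¹ * v := by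
          rw [← huv]
          group
        rw [h1]
        exact N.mul_mem (N.inv_mem (hcl hu)) (hcl hv)
      rw [hNQ, Subgroup.mem_bot, ← d.ql_zero] at hqt
      exact ht (d.ql_injective hqt)

theorem Cert.sig : ∀ N : Subgroup (Perm (Fin 22)), N ≤ d.P →
    (∀ q ∈ d.Qs, ∀ n ∈ N, q * n * q⁻¹ ∈ N) → N ⊓ d.Qs = ⊥ → N = ⊥ ∨ N = d.Vs := by
  intro N hNP hN hNQ
  have hle := d.msig_le_Vs N hNP hN hNQ
  by_cases hbot : N = ⊥
  · exact Or.inl hbot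
  · right
    rw [Subgroup.eq_bot_iff_forall] at hbot
    have hex : ∃ x ∈ N, x ≠ 1 := by
      by_contra hcon
      apply hbot
      intro x hx
      by_contra hx1
      exact hcon ⟨x, hx, hx1⟩
    obtain ⟨x, hx, hx1⟩ := hex
    obtain ⟨m, hm⟩ := d.msig_mem_Vs (hle hx)
    have hm0 : m ≠ 0 := by
      intro h0
      apply hx1
      rw [← hm, h0, d.vl_zero]
    rw [← hm] at hx
    exact le_antisymm hle (d.Vs_le_of_mem N hN hm0 hx)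

end Vale.Agent.Lib.P183.Exc
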