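import Vale.Agent.Lib.P183.Exc.TheCert
import Vale.Agent.Lib.P183.Exc.MConfig
import Vale.Agent.Lib.P183.Exc.Iso
import Vale.Agent.Lib.P183.Exc.Interval
import Vale.Agent.Lib.P183.GroupInterval

/-!
# The exceptional seven-element lattice is an interval in a subgroup lattice

The certificate `theCert` yields a configuration inside the Mathieu group of degree 22 (with
the alternating group of degree six as the second group); the admissible subgroups of the
corresponding twisted wreath product form a copy of `L7`, and they are the subgroups of a
finite semidirect product that contain a fixed complement.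
-/

namespace Vale.Agent.Lib.P183.Exc

/-- `L7` is isomorphic to the interval above some subgroup in the subgroup lattice of some
finite group. -/
theorem L7_interval :
    ∃ (G : Type) (_ : Group G) (_ : Finite G) (H : Subgroup G), Nonempty (Set.Ici H ≃o L7) := by
  obtain ⟨c⟩ := theCert.exists_config
  haveI : Finite ↥theCert.P := theCert.finite_P
  obtain ⟨G, hG, hF, H, ⟨e⟩⟩ := exists_group_interval c.Q c.iota
  obtain ⟨f⟩ := exists_orderIso c
  exact ⟨G, hG, hF, H, ⟨e.trans f.symm⟩⟩

/-- `L7` is the congruence lattice of a finite algebra. -/
theorem L7_representable : Vale.Agent.Lib.P183.Representable L7 := by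
  obtain ⟨G, hG, hF, H, ⟨e⟩⟩ := L7_interval
  obtain ⟨A, ⟨f⟩⟩ := @Vale.Agent.Lib.P183.representable_Ici_zero G hG H hF
  exact ⟨A, ⟨e.symm.trans f⟩⟩

end Vale.Agent.Lib.P183.Exc
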