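import Vale.Agent.Lib.P183.Exc.FamAct

/-!
# Permutations of 22 points coded by natural numbers

A permutation of `{0, ..., 21}` is coded by the natural number whose base-32 digits are its
values.  Words (lists of codes) are evaluated on points by plain arithmetic, so that identities
between products of explicit permutations reduce to closed computations on natural numbers.
-/

namespace Vale.Agent.Lib.P183.Exc

open Equiv

/-- The value at the point `i` of the map coded by `c`. -/
def ap (c i : ℕ) : ℕ := Nat.mod (Nat.land (Nat.shiftRight c (Nat.mul 5 i)) 31) 22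

/-- The value at `i` of the composite of the maps coded by a word (rightmost applied first). -/
def apw (u : List ℕ) (i : ℕ) : ℕ := List.rec i (fun c _ ih => ap c ih) u

/-- `f` is true at `lo, lo + 1, ..., lo + n - 1`. -/
def allRange (lo n : ℕ) (f : ℕ → Bool) : Bool := Nat.rec true (fun k ih => ih && f (lo + k)) n

/-- `f` is true somewhere among `lo, lo + 1, ..., lo + n - 1`. -/
def anyRange (lo n : ℕ) (f : ℕ → Bool) : Bool := Nat.rec false (fun k ih => ih || f (lo + k)) n

/-- Evaluate `x` before passing it to `f`. -/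
def force (x : ℕ) (f : ℕ → Bool) : Bool := Nat.rec (f 0) (fun n _ => f (Nat.succ n)) x

/-- Evaluate the entries of a word before passing it to `f`. -/
def forceL (u : List ℕ) (f : List ℕ → Bool) : Bool :=
  List.rec (motive := fun _ => (List ℕ → Bool) → Bool) (fun f => f [])
    (fun c _ ih f => force c (fun c' => ih (fun cs' => f (c' :: cs')))) u f

/-- The two words agree at all 22 points (no evaluation of the entries beforehand). -/
def eqw0 (u v : List ℕ) : Bool := allRange 0 22 (fun i => Nat.beq (apw u i) (apw v i))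

/-- The two words agree at all 22 points. -/
def eqw (u v : List ℕ) : Bool := forceL u (fun u' => forceL v (fun v' => eqw0 u' v'))

/-- The binary digit of `m` at position `p`. -/
def bitn (m p : ℕ) : ℕ := Nat.land (Nat.shiftRight m p) 1

/-- The bit of `m` at position `p`. -/
def bit (m p : ℕ) : Bool := Nat.beq (bitn m p) 1

/-- The word maps the set with mask `mi` onto the set with mask `mj` (no evaluation of the
entries beforehand). -/
def mapsTo0 (u : List ℕ) (mi mj : ℕ) : Bool :=
  allRange 0 22 (fun p => Nat.beq (bitn mi p) (bitn mj (apw u p)))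

/-- The word maps the set with mask `mi` onto the set with mask `mj`. -/
def mapsTo (u : List ℕ) (mi mj : ℕ) : Bool :=
  forceL u (fun u' => force mi (fun mi' => force mj (fun mj' => mapsTo0 u' mi' mj')))

/-- The word permutes the six sets with masks `M 0, ..., M 5` among themselves. -/
def stabW (u : List ℕ) (M : ℕ → ℕ) : Bool :=
  forceL u (fun u' => allRange 0 6 (fun i => force (M i) (fun mi =>
    anyRange 0 6 (fun j => force (M j) (fun mj => mapsTo0 u' mi mj)))))

/-- The six masks `M 0, ..., M 5` are pairwise different on the 22 points. -/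
def injB (M : ℕ → ℕ) : Bool :=
  allRange 0 6 (fun i => allRange 0 6 (fun j => Nat.beq i j ||
    anyRange 0 22 (fun p => !(Nat.beq (bitn (M i) p) (bitn (M j) p)))))

/-- The entry at position `i` of the row `r` (base-8 digits). -/
def rowv (r i : ℕ) : ℕ := Nat.land (Nat.shiftRight r (Nat.mul 3 i)) 7

/-- The number of inversions of the row `r` (six entries) is even. -/
def evenRow (r : ℕ) : Bool :=
  Nat.beq (Nat.mod ((List.range 6).foldl (fun acc j => (List.range j).foldl
    (fun acc' i => if rowv r j < rowv r i then acc' + 1 else acc') acc) 0) 2) 0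

/-- The word `u` repeated `n` times. -/
def wpow : ℕ → List ℕ → List ℕ
  | 0, _ => []
  | n + 1, u => u ++ wpow n u

/-- The map on 22 points coded by `c`. -/
def fn (c : ℕ) : Fin 22 → Fin 22 := fun i => ⟨ap c i, Nat.mod_lt _ (by norm_num)⟩

/-- The code `c` is the code of a permutation. -/
def Valid (c : ℕ) : Prop := Function.Bijective (fn c)

/-- The permutation coded by `c` (the identity if `c` is not valid). -/
noncomputable def toPerm (c : ℕ) : Perm (Fin 22) :=
  open Classical in if h : Function.Bijective (fn c) then Equiv.ofBijective (fn c) h else 1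

/-- The product of the permutations coded by a word. -/
noncomputable def wprod (u : List ℕ) : Perm (Fin 22) := (u.map toPerm).prod

/-- The set of points whose bit in the mask `m` is set. -/
def maskSet (m : ℕ) : Finset (Fin 22) := Finset.univ.filter (fun p => bit m p = true)

theorem apw_nil (i : ℕ) : apw [] i = i := rfl

theorem apw_cons (c : ℕ) (cs : List ℕ) (i : ℕ) : apw (c :: cs) i = ap c (apw cs i) := rfl

theorem allRange_succ (lo n : ℕ) (f : ℕ → Bool) :
    allRange lo (n + 1) f = (allRange lo n f && f (lo + n)) := rfl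

theorem anyRange_succ (lo n : ℕ) (f : ℕ → Bool) :
    anyRange lo (n + 1) f = (anyRange lo n f || f (lo + n)) := rfl

theorem allRange_iff (lo n : ℕ) (f : ℕ → Bool) :
    allRange lo n f = true ↔ ∀ k, lo ≤ k → k < lo + n → f k = true := by
  induction n with
  | zero =>
    constructor
    · intro _ k h1 h2
      omega
    · intro _
      rfl
  | succ n ih =>
    rw [allRange_succ, Bool.and_eq_true, ih]
    constructor
    · rintro ⟨h1, h2⟩ k hk1 hk2
      by_cases hk : k < lo + n
      · exact h1 k hk1 hk
      · have : k = lo + n := by omega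
        rw [this]
        exact h2
    · intro h
      exact ⟨fun k hk1 hk2 => h k hk1 (by omega), h (lo + n) (by omega) (by omega)⟩

theorem anyRange_iff (lo n : ℕ) (f : ℕ → Bool) :
    anyRange lo n f = true ↔ ∃ k, lo ≤ k ∧ k < lo + n ∧ f k = true := by
  induction n with
  | zero =>
    constructor
    · intro h
      exact Bool.noConfusion (show false = true from h)
    · rintro ⟨k, h1, h2, _⟩
      omega
  | succ n ih =>
    rw [anyRange_succ, Bool.or_eq_true, ih]
    constructor
    · rintro (⟨k, h1, h2, h3⟩ | h)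
      · exact ⟨k, h1, by omega, h3⟩
      · exact ⟨lo + n, by omega, by omega, h⟩
    · rintro ⟨k, h1, h2, h3⟩
      by_cases hk : k < lo + n
      · exact Or.inl ⟨k, h1, hk, h3⟩
      · have : k = lo + n := by omega
        rw [this] at h3
        exact Or.inr h3

theorem allRange_spec (lo n : ℕ) (f : ℕ → Bool) (h : allRange lo n f = true) :
    ∀ k, lo ≤ k → k < lo + n → f k = true := (allRange_iff lo n f).mp h

theorem anyRange_spec (lo n : ℕ) (f : ℕ → Bool) (h : anyRange lo n f = true) :
    ∃ k, lo ≤ k ∧ k < lo + n ∧ f k = true := (anyRange_iff lo n f).mp h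

theorem force_eq (x : ℕ) (f : ℕ → Bool) : force x f = f x := by
  cases x <;> rfl

theorem forceL_cons (c : ℕ) (cs : List ℕ) (f : List ℕ → Bool) :
    forceL (c :: cs) f = force c (fun c' => forceL cs (fun cs' => f (c' :: cs'))) := rfl

theorem forceL_eq (u : List ℕ) (f : List ℕ → Bool) : forceL u f = f u := by
  induction u generalizing f with
  | nil => rfl
  | cons c cs ih => rw [forceL_cons, force_eq, ih]

theorem ap_lt (c i : ℕ) : ap c i < 22 := Nat.mod_lt _ (by norm_num)

theorem eqw_eq_eqw0 (u v : List ℕ) : eqw u v = eqw0 u v := by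
  unfold eqw
  rw [forceL_eq, forceL_eq]

theorem eqw_iff (u v : List ℕ) : eqw u v = true ↔ ∀ i, i < 22 → apw u i = apw v i := by
  rw [eqw_eq_eqw0]
  unfold eqw0
  rw [allRange_iff]
  constructor
  · intro h i hi
    exact Nat.eq_of_beq_eq_true (h i (Nat.zero_le i) (by omega))
  · intro h k _ hk
    have := h k (by omega)
    rw [this]
    exact Nat.beq_refl _

theorem ap_ap_of_eqw {c c' : ℕ} (h : eqw [c', c] [] = true) (i : ℕ) (hi : i < 22) :
    ap c' (ap c i) = i := (eqw_iff _ _).mp h i hi

theorem fn_comp_of_eqw {c c' : ℕ} (h : eqw [c', c] [] = true) (i : Fin 22) :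
    fn c' (fn c i) = i := Fin.ext (ap_ap_of_eqw h i i.isLt)

/-- A code with a left inverse is valid. -/
theorem valid_of_leftInv {c c' : ℕ} (h : eqw [c', c] [] = true) : Valid c := by
  have hinj : Function.Injective (fn c) := by
    intro i j hij
    have := congrArg (fn c') hij
    rwa [fn_comp_of_eqw h, fn_comp_of_eqw h] at this
  exact ⟨hinj, Finite.injective_iff_surjective.mp hinj⟩

/-- A code with a right inverse is valid. -/
theorem valid_of_rightInv {c c' : ℕ} (h : eqw [c', c] [] = true) : Valid c' := by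
  have hsurj : Function.Surjective (fn c') := fun i => ⟨fn c i, fn_comp_of_eqw h i⟩
  exact ⟨Finite.injective_iff_surjective.mpr hsurj, hsurj⟩

theorem toPerm_eq {c : ℕ} (h : Valid c) (i : Fin 22) : toPerm c i = fn c i := by
  have h' : Function.Bijective (fn c) := h
  unfold toPerm
  rw [dif_pos h']
  rfl

theorem toPerm_apply {c : ℕ} (h : Valid c) (i : Fin 22) :
    ((toPerm c i : Fin 22) : ℕ) = ap c i := by
  rw [toPerm_eq h]
  rfl

theorem toPerm_inv_of_eqw {c c' : ℕ} (h : eqw [c', c] [] = true) :
    (toPerm c)⁻¹ = toPerm c' := by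
  have hc := valid_of_leftInv h
  have hc' := valid_of_rightInv h
  have hmul : toPerm c' * toPerm c = 1 := by
    ext i
    rw [Perm.mul_apply, toPerm_eq hc, toPerm_eq hc', fn_comp_of_eqw h, Perm.one_apply]
  exact inv_eq_of_mul_eq_one_left hmul

theorem wprod_nil : wprod [] = 1 := rfl

theorem wprod_cons (c : ℕ) (u : List ℕ) : wprod (c :: u) = toPerm c * wprod u := by
  unfold wprod
  rw [List.map_cons, List.prod_cons]

theorem wprod_append (u v : List ℕ) : wprod (u ++ v) = wprod u * wprod v := by
  unfold wprod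
  rw [List.map_append, List.prod_append]

theorem wprod_wpow (n : ℕ) (u : List ℕ) : wprod (wpow n u) = wprod u ^ n := by
  induction n with
  | zero => rfl
  | succ n ih =>
    show wprod (u ++ wpow n u) = wprod u ^ (n + 1)
    rw [wprod_append, ih, pow_succ']

theorem wprod_apply {u : List ℕ} (hu : ∀ c ∈ u, Valid c) (i : Fin 22) :
    ((wprod u i : Fin 22) : ℕ) = apw u i := by
  induction u with
  | nil => rfl
  | cons c u ih =>
    rw [wprod_cons, Perm.mul_apply, toPerm_apply (hu c List.mem_cons_self), apw_cons,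
      ih (fun c' hc' => hu c' (List.mem_cons_of_mem _ hc'))]

theorem wprod_eq_iff_eqw {u v : List ℕ} (hu : ∀ c ∈ u, Valid c) (hv : ∀ c ∈ v, Valid c) :
    wprod u = wprod v ↔ eqw u v = true := by
  rw [eqw_iff]
  constructor
  · intro h i hi
    have h1 := wprod_apply hu ⟨i, hi⟩
    have h2 := wprod_apply hv ⟨i, hi⟩
    rw [h] at h1
    exact h1.symm.trans h2
  · intro h
    ext i
    rw [wprod_apply hu, wprod_apply hv]
    exact h i i.isLt

theorem wprod_eq_of_eqw {u v : List ℕ} (hu : ∀ c ∈ u, Valid c) (hv : ∀ c ∈ v, Valid c)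
    (h : eqw u v = true) : wprod u = wprod v := (wprod_eq_iff_eqw hu hv).mpr h

theorem wprod_ne_of_eqw {u v : List ℕ} (hu : ∀ c ∈ u, Valid c) (hv : ∀ c ∈ v, Valid c)
    (h : eqw u v = false) : wprod u ≠ wprod v := by
  intro heq
  rw [(wprod_eq_iff_eqw hu hv).mp heq] at h
  exact Bool.noConfusion h

theorem mem_maskSet (m : ℕ) (p : Fin 22) : p ∈ maskSet m ↔ bit m p = true := by
  unfold maskSet
  rw [Finset.mem_filter]
  exact ⟨fun h => h.2, fun h => ⟨Finset.mem_univ _, h⟩⟩

theorem bitn_le_one (m p : ℕ) : bitn m p ≤ 1 := Nat.and_le_right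

theorem bit_eq_true_iff (m p : ℕ) : bit m p = true ↔ bitn m p = 1 := by
  unfold bit
  constructor
  · exact Nat.eq_of_beq_eq_true
  · intro h
    rw [h]
    rfl

theorem bitn_eq_iff (m m' p p' : ℕ) :
    bitn m p = bitn m' p' ↔ (bit m p = true ↔ bit m' p' = true) := by
  rw [bit_eq_true_iff, bit_eq_true_iff]
  have h1 := bitn_le_one m p
  have h2 := bitn_le_one m' p'
  omega

theorem perm_image_eq_iff {α : Type} [DecidableEq α] (σ : Perm α) (S T : Finset α) :
    S.image σ = T ↔ ∀ p, p ∈ S ↔ σ p ∈ T := by
  constructor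
  · intro h p
    rw [← h, σ.injective.mem_finset_image]
  · intro h
    ext q
    rw [Finset.mem_image]
    constructor
    · rintro ⟨p, hp, rfl⟩
      exact (h p).mp hp
    · intro hq
      refine ⟨σ.symm q, (h _).mpr ?_, σ.apply_symm_apply q⟩
      rw [σ.apply_symm_apply]
      exact hq

theorem mapsTo0_iff (u : List ℕ) (mi mj : ℕ) :
    mapsTo0 u mi mj = true ↔ ∀ p, p < 22 → bitn mi p = bitn mj (apw u p) := by
  unfold mapsTo0
  rw [allRange_iff]
  constructor
  · intro h p hp
    exact Nat.eq_of_beq_eq_true (h p (Nat.zero_le p) (by omega))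
  · intro h k _ hk
    have := h k (by omega)
    rw [this]
    exact Nat.beq_refl _

theorem mapsTo_eq_mapsTo0 (u : List ℕ) (mi mj : ℕ) : mapsTo u mi mj = mapsTo0 u mi mj := by
  unfold mapsTo
  rw [forceL_eq, force_eq, force_eq]

theorem image_eq_iff_mapsTo0 {u : List ℕ} (hu : ∀ c ∈ u, Valid c) (mi mj : ℕ) :
    (maskSet mi).image (wprod u) = maskSet mj ↔ mapsTo0 u mi mj = true := by
  rw [perm_image_eq_iff, mapsTo0_iff]
  constructor
  · intro h p hp
    rw [bitn_eq_iff]
    have := h ⟨p, hp⟩
    rw [mem_maskSet, mem_maskSet, wprod_apply hu] at this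
    exact this
  · intro h p
    rw [mem_maskSet, mem_maskSet, wprod_apply hu]
    exact (bitn_eq_iff _ _ _ _).mp (h p p.isLt)

theorem image_eq_iff_mapsTo {u : List ℕ} (hu : ∀ c ∈ u, Valid c) (mi mj : ℕ) :
    (maskSet mi).image (wprod u) = maskSet mj ↔ mapsTo u mi mj = true := by
  rw [mapsTo_eq_mapsTo0]
  exact image_eq_iff_mapsTo0 hu mi mj

theorem stabW_iff (u : List ℕ) (M : ℕ → ℕ) :
    stabW u M = true ↔ ∀ i, i < 6 → ∃ j, j < 6 ∧ mapsTo0 u (M i) (M j) = true := by
  unfold stabW
  rw [forceL_eq, allRange_iff]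
  constructor
  · intro h i hi
    have h1 := h i (Nat.zero_le i) (by omega)
    rw [force_eq, anyRange_iff] at h1
    obtain ⟨j, _, hj, hj'⟩ := h1
    rw [force_eq] at hj'
    exact ⟨j, by omega, hj'⟩
  · intro h k _ hk
    obtain ⟨j, hj, hj'⟩ := h k (by omega)
    rw [force_eq, anyRange_iff]
    refine ⟨j, Nat.zero_le j, by omega, ?_⟩
    rw [force_eq]
    exact hj'

theorem mem_famStab_iff_stabW {u : List ℕ} (hu : ∀ c ∈ u, Valid c) (M : ℕ → ℕ) :
    wprod u ∈ famStab (fun i : Fin 6 => maskSet (M i)) ↔ stabW u M = true := by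
  rw [mem_famStab, stabW_iff]
  constructor
  · intro h i hi
    obtain ⟨j, hj⟩ := h ⟨i, hi⟩
    exact ⟨j, j.isLt, (image_eq_iff_mapsTo0 hu _ _).mp hj⟩
  · intro h i
    obtain ⟨j, hj, hj'⟩ := h i i.isLt
    exact ⟨⟨j, hj⟩, (image_eq_iff_mapsTo0 hu _ _).mpr hj'⟩

theorem maskFam_injective (M : ℕ → ℕ) (h : injB M = true) :
    Function.Injective (fun i : Fin 6 => maskSet (M i)) := by
  intro i j hij
  by_contra hne
  unfold injB at h
  rw [allRange_iff] at h
  have h1 := h i (Nat.zero_le _) (by have := i.isLt; omega)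
  rw [allRange_iff] at h1
  have h2 := h1 j (Nat.zero_le _) (by have := j.isLt; omega)
  rw [Bool.or_eq_true] at h2
  rcases h2 with h2 | h2
  · exact hne (Fin.ext (Nat.eq_of_beq_eq_true h2))
  · rw [anyRange_iff] at h2
    obtain ⟨p, _, hp, hp'⟩ := h2
    have hp22 : p < 22 := by omega
    have hbit : bitn (M i) p = bitn (M j) p := by
      rw [bitn_eq_iff]
      have hmem : (⟨p, hp22⟩ : Fin 22) ∈ maskSet (M i) ↔ (⟨p, hp22⟩ : Fin 22) ∈ maskSet (M j) := by
        have hij' : maskSet (M i) = maskSet (M j) := hij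
        rw [hij']
      rw [mem_maskSet, mem_maskSet] at hmem
      exact hmem
    rw [hbit, Nat.beq_refl] at hp'
    exact Bool.noConfusion hp'

theorem evenRow_foldl_count (L : List ℕ) (P : ℕ → Prop) [DecidablePred P] (a : ℕ) :
    L.foldl (fun acc i => if P i then acc + 1 else acc) a
      = a + (L.map (fun i => if P i then 1 else 0)).sum := by
  induction L generalizing a with
  | nil => simp
  | cons x xs ih =>
    rw [List.foldl_cons, ih, List.map_cons, List.sum_cons]
    split_ifs <;> omega

theorem evenRow_foldl_add (L : List ℕ) (g : ℕ → ℕ) (a : ℕ) :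
    L.foldl (fun acc j => acc + g j) a = a + (L.map g).sum := by
  induction L generalizing a with
  | nil => simp
  | cons x xs ih =>
    rw [List.foldl_cons, ih, List.map_cons, List.sum_cons]
    omega

/-- The number of inversions of an even row, written out. -/
theorem evenRow_count (r : ℕ) (he : evenRow r = true) (b : ℕ → ℕ → ℕ)
    (hb : ∀ j i, b j i = if rowv r j < rowv r i then 1 else 0) :
    (b 1 0 + (b 2 0 + b 2 1) + (b 3 0 + b 3 1 + b 3 2) + (b 4 0 + b 4 1 + b 4 2 + b 4 3) +
      (b 5 0 + b 5 1 + b 5 2 + b 5 3 + b 5 4)) % 2 = 0 := by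
  unfold evenRow at he
  have h2 := Nat.eq_of_beq_eq_true he
  have hfun : (fun acc j => List.foldl
      (fun acc' i => if rowv r j < rowv r i then acc' + 1 else acc') acc (List.range j))
      = (fun acc j => acc + ((List.range j).map (fun i => b j i)).sum) := by
    funext acc j
    rw [evenRow_foldl_count]
    simp only [hb]
  rw [hfun, evenRow_foldl_add] at h2
  simp only [List.range_succ, List.range_zero, List.map_append, List.map_cons, List.map_nil,
    List.sum_append, List.sum_cons, List.sum_nil, List.nil_append, add_zero, zero_add] at h2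
  exact h2

theorem sign_factor_aux (σ : Perm (Fin 6)) (r : ℕ)
    (h : ∀ i : Fin 6, ((σ i : Fin 6) : ℕ) = rowv r i) (b : ℕ → ℕ → ℕ)
    (hb : ∀ j i, b j i = if rowv r j < rowv r i then 1 else 0) (i j : Fin 6) (ni nj : ℕ)
    (hni : (i : ℕ) = ni) (hnj : (j : ℕ) = nj) (hij : i ≠ j) :
    (if σ i < σ j then (1 : ℤˣ) else -1) = (-1) ^ b nj ni := by
  have hne : rowv r ni ≠ rowv r nj := by
    intro heq
    apply hij
    apply σ.injective
    apply Fin.ext
    rw [h, h, hni, hnj, heq]
  have hlt : σ i < σ j ↔ rowv r ni < rowv r nj := by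
    rw [Fin.lt_def, h, h, hni, hnj]
  rw [hb]
  by_cases hc : rowv r nj < rowv r ni
  · rw [if_pos hc, if_neg (fun h' => by have := hlt.mp h'; omega), pow_one]
  · rw [if_neg hc, if_pos (hlt.mpr (by omega)), pow_zero]

/-- A permutation of six indices whose values are given by a row with an even number of
inversions is even. -/
theorem sign_of_row (σ : Perm (Fin 6)) (r : ℕ) (h : ∀ i : Fin 6, ((σ i : Fin 6) : ℕ) = rowv r i)
    (he : evenRow r = true) : Perm.sign σ = 1 := by
  obtain ⟨b, hb⟩ : ∃ b : ℕ → ℕ → ℕ, ∀ j i, b j i = if rowv r j < rowv r i then 1 else 0 :=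
    ⟨_, fun _ _ => rfl⟩
  have h2 := evenRow_count r he b hb
  rw [Perm.sign_eq_prod_prod_Iio]
  simp only [← Finset.filter_gt_eq_Iio, Finset.prod_filter, Fin.prod_univ_six]
  simp only [Fin.reduceLT, if_true, if_false, mul_one, one_mul]
  rw [sign_factor_aux σ r h b hb 0 1 0 1 rfl rfl (by decide),
    sign_factor_aux σ r h b hb 0 2 0 2 rfl rfl (by decide),
    sign_factor_aux σ r h b hb 1 2 1 2 rfl rfl (by decide),
    sign_factor_aux σ r h b hb 0 3 0 3 rfl rfl (by decide),
    sign_factor_aux σ r h b hb 1 3 1 3 rfl rfl (by decide),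
    sign_factor_aux σ r h b hb 2 3 2 3 rfl rfl (by decide),
    sign_factor_aux σ r h b hb 0 4 0 4 rfl rfl (by decide),
    sign_factor_aux σ r h b hb 1 4 1 4 rfl rfl (by decide),
    sign_factor_aux σ r h b hb 2 4 2 4 rfl rfl (by decide),
    sign_factor_aux σ r h b hb 3 4 3 4 rfl rfl (by decide),
    sign_factor_aux σ r h b hb 0 5 0 5 rfl rfl (by decide),
    sign_factor_aux σ r h b hb 1 5 1 5 rfl rfl (by decide),
    sign_factor_aux σ r h b hb 2 5 2 5 rfl rfl (by decide),
    sign_factor_aux σ r h b hb 3 5 3 5 rfl rfl (by decide),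
    sign_factor_aux σ r h b hb 4 5 4 5 rfl rfl (by decide)]
  simp only [← pow_add]
  apply Even.neg_one_pow
  rw [Nat.even_iff]
  omega

end Vale.Agent.Lib.P183.Exc
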