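import Vale.Agent.Lib.P183.Exc.MDefs
import Vale.Agent.Lib.P183.Exc.CFa
import Vale.Agent.Lib.P183.Exc.CFb
import Vale.Agent.Lib.P183.Exc.CFc
import Vale.Agent.Lib.P183.Exc.CFd
import Vale.Agent.Lib.P183.Exc.CFe
import Vale.Agent.Lib.P183.Exc.CFf
import Vale.Agent.Lib.P183.Exc.CFg

/-!
# The certificate

The explicit data of `CData`, with the identities derived from the kernel checks, form a
certificate in the sense of `MDefs`.
-/

namespace Vale.Agent.Lib.P183.Exc

open Equiv

/-- The certificate built from the explicit tables. -/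
noncomputable def theCert : Cert where
  g := gP
  ql := qlP
  dc := dcP
  vl := vlP
  Bh := BhP
  Bw := BwP
  w := wI
  ql_zero := cf_ql_zero
  ql_mul := cf_ql_mul
  ql_inv := cf_ql_inv
  dc_zero := cf_dc_zero
  g_sq := cf_g_sq
  cover := cf_cover
  dc_mem := cf_dc_mem
  Bh_inj := cf_Bh_inj
  Bw_inj := cf_Bw_inj
  Bh_single := cf_Bh_single
  ql_stab := cf_ql_stab
  dc_stab := cf_dc_stab
  dc_stabw := cf_dc_stabw
  dcw_stabw := cf_dcw_stabw
  dcw_not_stabh := cf_dcw_not_stabh
  w_ne := cf_w_ne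
  ql_act := fun k => cf_ql_act k _ _
  ql_act0 := fun k => cf_ql_act0 k _
  ql_act_inj := fun k l => cf_ql_act_inj k l _ _
  dcw_act0 := cf_dcw_act0 _
  exists_b := cf_exists_b
  ql_square := cf_ql_square
  dc_sign := cf_dc_sign
  dcw_sign := cf_dcw_sign _
  normQ_wit := cf_normQ_wit
  normW_wit := cf_normW_wit
  vl_zero := cf_vl_zero
  vl_mul := cf_vl_mul
  vl_sq := cf_vl_sq
  vl_inj := cf_vl_inj
  vl_conj := cf_vl_conj
  vl_conj' := cf_vl_conj'
  vl_one_mem := cf_vl_one_mem
  vl_fix := cf_vl_fix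
  vl_move := cf_vl_move
  vl_not_stabw := cf_vl_not_stabw
  sig_cert := cf_sig_cert
  small_cert := cf_small_cert

end Vale.Agent.Lib.P183.Exc
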